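/-
S0109 blueprint: exact statements of the work packages (no proofs here, no sorry).
See the docstrings; each WP proves the named `Prop`.  The final assembly is
`Crest.Agent.S0109Lib.Final` (WP8).

Notation: E = EuclideanSpace ℝ (Fin d), ρ = uniformProbOn K.
-/
import Mathlib
import Crest.Prelude.Def_QuadraticTransport

set_option autoImplicit false
open MeasureTheory Set Filter Topology
open scoped ENNReal NNReal InnerProductSpace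
open Crest.AnalysisR.OT

namespace Crest.Agent.S0109Lib

/-- the ambient space -/
abbrev Eu (d : ℕ) := EuclideanSpace ℝ (Fin d)

variable {d : ℕ}

/-- Lebesgue volume as a real number. -/
noncomputable def vol (S : Set (Eu d)) : ℝ := (volume S).toReal

/-- Lebesgue average of `ℓ` over `S` (junk value `0` when `|S| = 0`). -/
noncomputable def avg (S : Set (Eu d)) (ℓ : Eu d → ℝ) : ℝ := (vol S)⁻¹ * ∫ x in S, ℓ x

/-- the power (Laguerre) cell of the atom `y i` for the potential `ψ`, inside `K`. -/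
def cell {ι : Type*} (K : Set (Eu d)) (y : ι → Eu d) (ψ : ι → ℝ) (i : ι) : Set (Eu d) :=
  {x | x ∈ K ∧ ∀ j, ⟪x, y j⟫_ℝ - ψ j ≤ ⟪x, y i⟫_ℝ - ψ i}

/-- the convex potential `max_i (⟪x, y i⟫ - ψ i)`. -/
noncomputable def pot {ι : Type*} (y : ι → Eu d) (ψ : ι → ℝ) (x : Eu d) : ℝ :=
  ⨆ i, (⟪x, y i⟫_ℝ - ψ i)

/-- `ψ` realises the masses `m`: each cell has `ρ`-mass `m i`. -/
def HasMasses {ι : Type*} (K : Set (Eu d)) (y : ι → Eu d) (ψ : ι → ℝ) (m : ι → ℝ) : Prop :=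
  ∀ i, uniformProbOn K (cell K y ψ i) = ENNReal.ofReal (m i)

/-- `K` is a convex body. -/
structure IsBody (K : Set (Eu d)) : Prop where
  compact : IsCompact K
  convex : Convex ℝ K
  interior_nonempty : (interior K).Nonempty

/-- WP1. Prékopa–Leindler inequality (midpoint form) on `ℝ^d`. -/
def PrekopaLeindler (d : ℕ) : Prop :=
  ∀ u v w : Eu d → ℝ≥0∞, Measurable u → Measurable v → Measurable w →
    (∀ x y, u x * v y ≤ w ((1 / 2 : ℝ) • (x + y)) ^ 2) →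
    (∫⁻ x, u x) * (∫⁻ x, v x) ≤ (∫⁻ x, w x) ^ 2

/-- WP2. "Theorem B": the barycentric Hellinger-Lipschitz estimate, derived from
Prékopa–Leindler (`PrekopaLeindler d → ThmB d`). Sets `A i`, `B i` a.e.-partition `K`, the `M i`
are a.e.-disjoint subsets of `K`, and `M i` contains all midpoints of `A i` and `B i`. Test
functions `ℓ i` are 1-Lipschitz on `K` and bounded by `D` on `K`.

Math: with η(x) = 3D² - ‖x‖²/2: for A, B, M as above, ℓ L-Lipschitz on K with |ℓ| ≤ L D on K,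
  ∫_M η ≥ √(|A||B|) ((avg_A η + avg_B η)/2 + (avg_A ℓ - avg_B ℓ)²/(8 L²)).
Proof: η(mid) = (η x + η x')/2 + ‖x-x'‖²/8 ≥ (α x + β x')/2 ≥ √(α x · β x') where
α = η + ε ℓ + κ, β = η - ε ℓ - ε²L² - κ, ε = (avg_A ℓ - avg_B ℓ)/(2L²), κ s.t. avg_A α = avg_B β,
(α, β ≥ 0 on K since |ε ℓ| ≤ D²/2 etc.); PL applied to 1_A α, 1_B β, 1_M η.
Sum over i with ∫_K η = Σ m_i a_i = Σ m̃_i b_i (a_i, b_i the averages of η on A i, B i), w_i = √(m_i m̃_i),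
δ_i = √m_i - √m̃_i:  Σ w_i (avg_A ℓ - avg_B ℓ)²/(8L_i²) ≤ ½ Σ δ_i (√m_i a_i - √m̃_i b_i)
 = ¼ Σ δ_i² (a_i + b_i) + ¼ Σ δ_i (√m_i + √m̃_i)(a_i - b_i),
√m_i + √m̃_i ≤ |δ_i| + 2 √w_i. First take ℓ = ‖x‖²/2 (L = D, avg difference = |a_i - b_i| =: h_i ≤ D²/2):
Σ w_i h_i² ≤ 42 D⁴ H² (H² = Σ δ_i²). Then for 1-Lipschitz ℓ_i get the claim. -/
def ThmB (d : ℕ) : Prop :=
  ∀ (K : Set (Eu d)) (D : ℝ), 0 < D → MeasurableSet K → volume K ≠ ∞ → (∀ x ∈ K, ‖x‖ ≤ D) →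
  ∀ {ι : Type} [Fintype ι] (A B M : ι → Set (Eu d)),
    (∀ i, MeasurableSet (A i)) → (∀ i, MeasurableSet (B i)) → (∀ i, MeasurableSet (M i)) →
    (∀ i, A i ⊆ K) → (∀ i, B i ⊆ K) → (∀ i, M i ⊆ K) →
    (volume (K \ ⋃ i, A i) = 0) → (volume (K \ ⋃ i, B i) = 0) →
    (Pairwise fun i j => volume (A i ∩ A j) = 0) →
    (Pairwise fun i j => volume (B i ∩ B j) = 0) →
    (Pairwise fun i j => volume (M i ∩ M j) = 0) →
    (∀ i, ∀ x ∈ A i, ∀ x' ∈ B i, (1 / 2 : ℝ) • (x + x') ∈ M i) →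
    ∀ ℓ : ι → Eu d → ℝ, (∀ i, Continuous (ℓ i)) →
      (∀ i, ∀ x ∈ K, ∀ x' ∈ K, |ℓ i x - ℓ i x'| ≤ ‖x - x'‖) →
      (∀ i, ∀ x ∈ K, |ℓ i x| ≤ D) →
      ∑ i, √(vol (A i) * vol (B i)) * (avg (A i) (ℓ i) - avg (B i) (ℓ i)) ^ 2
        ≤ 40 * D ^ 2 * ∑ i, (√(vol (A i)) - √(vol (B i))) ^ 2

/-- WP3. Semi-discrete existence: prescribed positive masses on distinct atoms are realised by a
potential. Math: minimise Ψ(ψ) = ∫ pot y ψ dρ + Σ m_i ψ_i (continuous, invariant under constants,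
Ψ ≥ min m · osc ψ - C); at the minimum, for t > 0, pot y (ψ + t e_j) ≤ pot y ψ - t 1{⟪x,y j⟫-ψ j - t ≥ max_{i≠j}}
gives ρ(open cell j) ≤ m_j; open cells cover K up to null sets (hyperplanes) and Σ m = 1. -/
def SemiDiscreteExistence (d : ℕ) : Prop :=
  ∀ (K : Set (Eu d)), IsBody K →
  ∀ {ι : Type} [Fintype ι] [Nonempty ι] (y : ι → Eu d) (m : ι → ℝ), Function.Injective y →
    (∀ i, 0 < m i) → ∑ i, m i = 1 → ∃ ψ : ι → ℝ, HasMasses K y ψ m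

/-- WP4. Continuity of potentials in the masses, tested against mean-zero weights.
Math: uniqueness of the potential up to constants [∫ pot ψ̂ dρ + ⟨m, ψ̂⟩ = K(y,m) = same for ψ forces
pot ψ̂ = ⟪x,y i⟫ - ψ̂ i a.e. on cell ψ i, so the continuous function pot ψ̂ - pot ψ takes values in the
finite set {ψ i - ψ̂ i} on a dense subset of the connected K, hence is constant]; plus
osc ψⁿ ≤ 2 (max ‖y‖) (max ‖x‖), compactness, and continuity of ψ ↦ ρ(cell ψ i) (interfaces are null). -/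
def PotentialContinuity (d : ℕ) : Prop :=
  ∀ (K : Set (Eu d)), IsBody K →
  ∀ {ι : Type} [Fintype ι] [Nonempty ι] (y : ι → Eu d) (m : ι → ℝ) (ψ : ι → ℝ),
    Function.Injective y → (∀ i, 0 < m i) → ∑ i, m i = 1 → HasMasses K y ψ m →
    ∀ (ms : ℕ → ι → ℝ) (ψs : ℕ → ι → ℝ), (∀ n i, 0 < ms n i) → (∀ n, ∑ i, ms n i = 1) →
      (∀ n, HasMasses K y (ψs n) (ms n)) → (∀ i, Tendsto (fun n => ms n i) atTop (𝓝 (m i))) →
      ∀ g : ι → ℝ, ∑ i, m i * g i = 0 →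
        Tendsto (fun n => ∑ i, m i * g i * (ψs n i - ψ i)) atTop (𝓝 0)

/-- WP5. The discrete potential estimate: `∥φ¹ - φ⁰ - c∥²_{L²(ρ)} ≤ 500 D² Σ m_i ‖y¹_i - y⁰_i‖²`,
from `ThmB`, `SemiDiscreteExistence`, `PotentialContinuity`.
Math: see the chat message (topic S0109) "DUAL STEP"; K(y,m) := Σ_i ∫_{cell i} ⟪x, y i⟫ dρ, etc. -/
def DiscreteBound (d : ℕ) : Prop :=
  ∀ (K : Set (Eu d)) (D : ℝ), IsBody K → 0 < D → (∀ x ∈ K, ‖x‖ ≤ D) →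
  ∀ {ι : Type} [Fintype ι] [Nonempty ι] (m : ι → ℝ) (y₀ y₁ : ι → Eu d) (ψ₀ ψ₁ : ι → ℝ),
    (∀ i, 0 < m i) → ∑ i, m i = 1 → Function.Injective y₀ → Function.Injective y₁ →
    HasMasses K y₀ ψ₀ m → HasMasses K y₁ ψ₁ m →
    ∃ c : ℝ, ∫ x, (pot y₁ ψ₁ x - pot y₀ ψ₀ x - c) ^ 2 ∂(uniformProbOn K)
      ≤ 500 * D ^ 2 * ∑ i, m i * ‖y₁ i - y₀ i‖ ^ 2

/-- WP6. Atomic approximation of a coupling with injective endpoints. -/
def CouplingApprox (d : ℕ) : Prop :=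
  ∀ (R : ℝ) (μ ν : Measure (Eu d)) (π : Measure (Eu d × Eu d)), 0 ≤ R →
    IsProbabilityMeasure μ → IsProbabilityMeasure ν →
    μ (Metric.closedBall 0 R)ᶜ = 0 → ν (Metric.closedBall 0 R)ᶜ = 0 → IsPairCoupling μ ν π →
    ∃ (L : ℕ → ℕ) (m : ∀ n, Fin (L n + 1) → ℝ) (a b : ∀ n, Fin (L n + 1) → Eu d),
      (∀ n i, 0 < m n i) ∧ (∀ n, ∑ i, m n i = 1) ∧
      (∀ n, Function.Injective (a n)) ∧ (∀ n, Function.Injective (b n)) ∧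
      (∀ n i, ‖a n i‖ ≤ R + 1) ∧ (∀ n i, ‖b n i‖ ≤ R + 1) ∧
      (∀ f : Eu d → ℝ, Continuous f →
        Tendsto (fun n => ∑ i, m n i * f (a n i)) atTop (𝓝 (∫ x, f x ∂μ))) ∧
      (∀ f : Eu d → ℝ, Continuous f →
        Tendsto (fun n => ∑ i, m n i * f (b n i)) atTop (𝓝 (∫ x, f x ∂ν))) ∧
      (∀ ε : ℝ, 0 < ε → ∀ᶠ n in atTop,
        ENNReal.ofReal (∑ i, m n i * ‖a n i - b n i‖ ^ 2) ≤ quadCost π + ENNReal.ofReal ε)

/-- WP7. Identification of an optimal map as an a.e. subgradient of a limit of potentials.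
Math: φ is convex and Lipschitz on K (pointwise limit), differentiable a.e. in int K (Rademacher);
at such x any cluster point p of Ts n x is a subgradient of φ at x, so Ts n x → ∇φ x; hence
S := ∇φ (measurable version) pushes ρ to μ. With ψ(y) := sup_{a ∈ K} (⟪a,y⟫ - φ a):
∫⟪x, T x⟫ dρ ≤ ∫ φ dρ + ∫ ψ dμ = ∫ ⟪x, S x⟫ dρ ≤ ∫⟪x, T x⟫ dρ (last: optimality of T, squares expand),
so φ x + ψ (T x) = ⟪x, T x⟫ a.e., i.e. T x is a subgradient. -/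
def OptimalIsSubgradient (d : ℕ) : Prop :=
  ∀ (K : Set (Eu d)) (R : ℝ), IsBody K → 0 ≤ R →
  ∀ (μ : Measure (Eu d)) (T : Eu d → Eu d), IsProbabilityMeasure μ →
    μ (Metric.closedBall 0 R)ᶜ = 0 → IsOptimalMap (uniformProbOn K) μ T →
    ∀ (φs : ℕ → Eu d → ℝ) (Ts : ℕ → Eu d → Eu d) (φ : Eu d → ℝ),
      (∀ n, Measurable (Ts n)) → (∀ n, ∀ x ∈ K, ‖Ts n x‖ ≤ R + 1) →
      (∀ n, ∀ x ∈ K, ∀ a ∈ K, φs n x + ⟪Ts n x, a - x⟫_ℝ ≤ φs n a) →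
      (∀ x ∈ K, Tendsto (fun n => φs n x) atTop (𝓝 (φ x))) →
      (∀ f : Eu d → ℝ, Continuous f →
        Tendsto (fun n => ∫ x, f (Ts n x) ∂(uniformProbOn K)) atTop (𝓝 (∫ y, f y ∂μ))) →
      ∀ᵐ x ∂(uniformProbOn K), ∀ a ∈ K, φ x + ⟪T x, a - x⟫_ℝ ≤ φ a

/-- WP8. The Gagliardo–Nirenberg step. `φ₀ φ₁` continuous on `K`, `T₀ T₁` bounded measurable a.e.
subgradients. Then `∫ ‖T₀ - T₁‖² dρ ≤ C (∫ (φ₁ - φ₀ - c)² dρ)^(1/3)`.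
Math: for e = ±e_j, t > 0, u = φ₁ - φ₀ - c, w = ⟪T₀ - T₁, e⟫: for a.e. x ∈ K ∩ (K - te),
 w x ≤ (u x - u (x+te))/t + g (x+te) - g x, g = ⟪T₁, e⟫ (g(x+te) ≥ g x by monotonicity).
Multiply by w₊ ≤ 2R and integrate; |K \ (K ± te)| ≤ c_K t (c_K = |K| d / r, B(z,r) ⊆ K, since
z + (1-|h|/r)(K-z) ⊆ K ∩ (K+h)); get X² ≤ (2/t) X ‖u‖ + C t, X = ‖w₊‖; choose t = ‖u‖^{2/3}. -/
def GagliardoNirenberg (d : ℕ) : Prop :=
  ∀ (K : Set (Eu d)) (R : ℝ), IsBody K → 0 ≤ R → ∃ C : ℝ≥0,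
    ∀ (φ₀ φ₁ : Eu d → ℝ) (T₀ T₁ : Eu d → Eu d) (c : ℝ),
      ContinuousOn φ₀ K → ContinuousOn φ₁ K → Measurable T₀ → Measurable T₁ →
      (∀ᵐ x ∂(uniformProbOn K), ‖T₀ x‖ ≤ R) → (∀ᵐ x ∂(uniformProbOn K), ‖T₁ x‖ ≤ R) →
      (∀ᵐ x ∂(uniformProbOn K), ∀ a ∈ K, φ₀ x + ⟪T₀ x, a - x⟫_ℝ ≤ φ₀ a) →
      (∀ᵐ x ∂(uniformProbOn K), ∀ a ∈ K, φ₁ x + ⟪T₁ x, a - x⟫_ℝ ≤ φ₁ a) →
      ∫⁻ x, ‖T₀ x - T₁ x‖ₑ ^ 2 ∂(uniformProbOn K)
        ≤ C * (ENNReal.ofReal (∫ x, (φ₁ x - φ₀ x - c) ^ 2 ∂(uniformProbOn K))) ^ (1 / 3 : ℝ)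

end Crest.Agent.S0109Lib
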