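/-
WP: atomic approximation of a coupling with injective endpoints (`CouplingApprox`).
-/
import Crest.Agent.S0109Lib.Spec

set_option autoImplicit false
open MeasureTheory Set Filter Topology
open scoped ENNReal NNReal InnerProductSpace Function
open Crest.AnalysisR.OT

namespace Crest.Agent.S0109Lib

variable {d : ℕ}

/-- Finite partition of a compact full-measure set into small measurable pieces of positive mass. -/
lemma exists_pieces {X : Type*} [PseudoMetricSpace X] [MeasurableSpace X] [OpensMeasurableSpace X]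
    (π : Measure X) [IsProbabilityMeasure π] {Q : Set X} (hQ : IsCompact Q) (hQm : MeasurableSet Q)
    (hπ : π Qᶜ = 0) {δ : ℝ} (hδ : 0 < δ) :
    ∃ (L : ℕ) (U : Fin (L + 1) → Set X), (∀ i, MeasurableSet (U i)) ∧
      (Pairwise (Disjoint on U)) ∧ (∀ i, U i ⊆ Q) ∧ (∀ i, 0 < π (U i)) ∧
      (π (⋃ i, U i)ᶜ = 0) ∧ (∀ i, ∀ p ∈ U i, ∀ q ∈ U i, dist p q ≤ δ) := by
  classical
  obtain ⟨t, -, htf, hcov⟩ := hQ.finite_cover_balls (half_pos hδ)
  let _ : Fintype t := htf.fintype
  let N := Fintype.card t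
  let e : t ≃ Fin N := Fintype.equivFin t
  let S : Fin N → Set X := fun j => Metric.ball (e.symm j : X) (δ / 2) ∩ Q
  have hSm : ∀ j, MeasurableSet (S j) := fun j => measurableSet_ball.inter hQm
  let D : Fin N → Set X := disjointed S
  have hDm : ∀ j, MeasurableSet (D j) := by
    intro j
    show MeasurableSet (disjointed S j)
    rw [disjointed_apply]
    refine (hSm j).diff ?_
    rw [Finset.sup_set_eq_biUnion]
    exact Finset.measurableSet_biUnion _ fun i _ => hSm i
  have hDd : Pairwise (Disjoint on D) := disjoint_disjointed S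
  have hDS : ∀ j, D j ⊆ S j := disjointed_subset S
  have hDU : ⋃ j, D j = ⋃ j, S j := iUnion_disjointed
  have hQD : Q ⊆ ⋃ j, D j := by
    intro x hx
    rw [hDU]
    obtain ⟨c, hc, hxc⟩ := mem_iUnion₂.mp (hcov hx)
    exact mem_iUnion.mpr ⟨e ⟨c, hc⟩, by simpa [S] using ⟨hxc, hx⟩⟩
  let I := {j : Fin N // 0 < π (D j)}
  -- the positive pieces carry everything
  have hfull : π (⋃ j : I, D j.1)ᶜ = 0 := by
    have hsub : (⋃ j : I, D j.1)ᶜ ⊆ Qᶜ ∪ ⋃ j : {j : Fin N // ¬ 0 < π (D j)}, D j.1 := by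
      intro x hx
      by_cases hxQ : x ∈ Q
      · obtain ⟨j, hj⟩ := mem_iUnion.mp (hQD hxQ)
        by_cases hpos : 0 < π (D j)
        · exact absurd (mem_iUnion.mpr ⟨⟨j, hpos⟩, hj⟩) hx
        · exact Or.inr (mem_iUnion.mpr ⟨⟨j, hpos⟩, hj⟩)
      · exact Or.inl hxQ
    refine measure_mono_null hsub (measure_union_null hπ ?_)
    refine measure_iUnion_null fun j => ?_
    simpa using j.2
  have : Nonempty I := by
    by_contra hne
    rw [not_nonempty_iff] at hne
    have : (⋃ j : I, D j.1)ᶜ = univ := by simp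
    rw [this] at hfull
    simp at hfull
  have hcard : Fintype.card I ≠ 0 := Fintype.card_ne_zero
  obtain ⟨L, hL⟩ := Nat.exists_eq_succ_of_ne_zero hcard
  let f : Fin (L + 1) ≃ I := (Fintype.equivFinOfCardEq hL).symm
  refine ⟨L, fun i => D (f i).1, fun i => hDm _, ?_, ?_, fun i => (f i).2, ?_, ?_⟩
  · intro i j hij
    exact hDd (fun h => hij (f.injective (Subtype.ext h)))
  · intro i
    exact (hDS _).trans inter_subset_right
  · have : (⋃ i, D (f i).1) = ⋃ j : I, D j.1 := by
      ext x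
      simp only [mem_iUnion]
      exact ⟨fun ⟨i, hi⟩ => ⟨f i, hi⟩, fun ⟨j, hj⟩ => ⟨f.symm j, by simpa using hj⟩⟩
    rw [this]
    exact hfull
  · intro i p hp q hq
    have hp' := (hDS _ hp).1
    have hq' := (hDS _ hq).1
    have := dist_triangle_right p q ((e.symm (f i).1 : t) : X)
    rw [Metric.mem_ball] at hp' hq'
    linarith

/-- The masses of the pieces sum to one. -/
lemma sum_masses {X : Type*} [MeasurableSpace X] (π : Measure X) [IsProbabilityMeasure π]
    {k : ℕ} {U : Fin k → Set X} (hUm : ∀ i, MeasurableSet (U i)) (hUd : Pairwise (Disjoint on U))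
    (hfull : π (⋃ i, U i)ᶜ = 0) : ∑ i, (π (U i)).toReal = 1 := by
  have h1 : π (⋃ i, U i) = 1 := by
    have hm : MeasurableSet (⋃ i, U i) := MeasurableSet.iUnion hUm
    have := measure_add_measure_compl (μ := π) hm
    rw [hfull, add_zero, measure_univ] at this
    exact this
  rw [measure_iUnion hUd hUm, tsum_fintype] at h1
  rw [← ENNReal.toReal_sum (fun i _ => measure_ne_top π (U i)), h1]
  simp

/-- Riemann-sum comparison over a finite partition. -/
lemma approx_sum {X : Type*} [MeasurableSpace X] (π : Measure X) [IsProbabilityMeasure π]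
    {k : ℕ} {U : Fin k → Set X} (hUm : ∀ i, MeasurableSet (U i)) (hUd : Pairwise (Disjoint on U))
    (hfull : π (⋃ i, U i)ᶜ = 0) {g : X → ℝ} (hg : Integrable g π) (c : Fin k → ℝ) {ω : ℝ}
    (_hω : 0 ≤ ω) (hgc : ∀ i, ∀ p ∈ U i, |g p - c i| ≤ ω) :
    |∑ i, (π (U i)).toReal * c i - ∫ p, g p ∂π| ≤ ω := by
  have hsum := sum_masses π hUm hUd hfull
  have hmem : ∀ᵐ p ∂π, p ∈ ⋃ i, U i := by
    rw [ae_iff]
    exact hfull
  have h1 : ∫ p, g p ∂π = ∑ i, ∫ p in U i, g p ∂π := by
    have : ∫ p, g p ∂π = ∫ p in ⋃ i, U i, g p ∂π := by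
      rw [Measure.restrict_eq_self_of_ae_mem hmem]
    rw [this, integral_iUnion_fintype hUm hUd (fun i => hg.integrableOn)]
  have h2 : ∀ i, |(π (U i)).toReal * c i - ∫ p in U i, g p ∂π| ≤ ω * (π (U i)).toReal := by
    intro i
    have hconst : ∫ _ in U i, c i ∂π = (π (U i)).toReal * c i := by
      simp [Measure.real]
    have hint : IntegrableOn (fun _ : X => c i) (U i) π := integrableOn_const (measure_ne_top _ _)
    have hdiff : (π (U i)).toReal * c i - ∫ p in U i, g p ∂π
        = ∫ p in U i, (c i - g p) ∂π := by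
      rw [integral_sub hint hg.integrableOn, hconst]
    rw [hdiff, ← Real.norm_eq_abs]
    have := norm_setIntegral_le_of_norm_le_const (μ := π) (s := U i) (f := fun p => c i - g p)
      (C := ω) (measure_lt_top _ _) (fun p hp => by
        rw [Real.norm_eq_abs, abs_sub_comm]; exact hgc i p hp)
    simpa [Measure.real, mul_comm] using this
  rw [h1, ← Finset.sum_sub_distrib]
  calc |∑ i, ((π (U i)).toReal * c i - ∫ p in U i, g p ∂π)|
      ≤ ∑ i, |(π (U i)).toReal * c i - ∫ p in U i, g p ∂π| := Finset.abs_sum_le_sum_abs _ _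
    _ ≤ ∑ i, ω * (π (U i)).toReal := Finset.sum_le_sum fun i _ => h2 i
    _ = ω := by rw [← Finset.mul_sum, hsum, mul_one]

/-- Small perturbation making a finite family injective (dimension at least one). -/
lemma exists_perturb (hd : 1 ≤ d) {k : ℕ} (x : Fin k → Eu d) {η : ℝ} (hη : 0 < η) :
    ∃ a : Fin k → Eu d, Function.Injective a ∧ ∀ i, ‖a i - x i‖ ≤ η := by
  classical
  let e : Eu d := EuclideanSpace.single (⟨0, hd⟩ : Fin d) (1 : ℝ)
  have he : ‖e‖ = 1 := by simp [e]
  have hee : ⟪e, e⟫_ℝ = 1 := by rw [real_inner_self_eq_norm_sq, he]; norm_num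
  let u : Fin k → ℝ := fun i => ⟪x i, e⟫_ℝ
  let bad : Finset ℝ := (Finset.univ : Finset (Fin k × Fin k)).image
    (fun p => (u p.2 - u p.1) / ((p.1 : ℝ) - (p.2 : ℝ)))
  have hpos : 0 < η / (k + 1) := by positivity
  obtain ⟨s, hs, hsbad⟩ := (Set.Ioo_infinite hpos).exists_notMem_finset bad
  refine ⟨fun i => x i + (s * (i : ℝ)) • e, ?_, ?_⟩
  · intro i j hij
    by_contra hne
    have hval : u i + s * (i : ℝ) = u j + s * (j : ℝ) := by
      have := congrArg (fun v => ⟪v, e⟫_ℝ) hij
      simpa [inner_add_left, inner_smul_left, hee, u, he] using this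
    have hne' : (i : ℝ) - (j : ℝ) ≠ 0 := by
      intro h0
      apply hne
      apply Fin.ext
      have : (i : ℝ) = (j : ℝ) := by linarith
      exact_mod_cast this
    apply hsbad
    refine Finset.mem_image.mpr ⟨(i, j), Finset.mem_univ _, ?_⟩
    show (u j - u i) / ((i : ℝ) - (j : ℝ)) = s
    rw [div_eq_iff hne']
    linarith
  · intro i
    have hle : (i : ℝ) ≤ k := by exact_mod_cast i.2.le
    have h1 : s * (i : ℝ) ≤ η / (k + 1) * (k + 1) :=
      mul_le_mul hs.2.le (by linarith) (by positivity) hpos.le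
    have h2 : η / (k + 1) * (k + 1) = η := by field_simp
    simp only [add_sub_cancel_left, norm_smul, he, mul_one, Real.norm_eq_abs]
    rw [abs_of_nonneg (mul_nonneg hs.1.le (by positivity))]
    linarith

/-- The atoms at one scale. -/
lemma exists_atoms (hd : 1 ≤ d) {R δ : ℝ} (hδ : 0 < δ) (π : Measure (Eu d × Eu d))
    [IsProbabilityMeasure π]
    (hπ : π (Metric.closedBall (0 : Eu d) R ×ˢ Metric.closedBall (0 : Eu d) R)ᶜ = 0) :
    ∃ (L : ℕ) (U : Fin (L + 1) → Set (Eu d × Eu d)) (a b : Fin (L + 1) → Eu d),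
      (∀ i, MeasurableSet (U i)) ∧ (Pairwise (Disjoint on U)) ∧ (π (⋃ i, U i)ᶜ = 0) ∧
      (∀ i, 0 < π (U i)) ∧ Function.Injective a ∧ Function.Injective b ∧
      (∀ i, ∀ p ∈ U i, ‖p.1‖ ≤ R ∧ ‖p.2‖ ≤ R ∧ ‖p.1 - a i‖ ≤ δ ∧ ‖p.2 - b i‖ ≤ δ) := by
  classical
  have hQ : IsCompact (Metric.closedBall (0 : Eu d) R ×ˢ Metric.closedBall (0 : Eu d) R) :=
    (isCompact_closedBall _ _).prod (isCompact_closedBall _ _)
  have hQm : MeasurableSet (Metric.closedBall (0 : Eu d) R ×ˢ Metric.closedBall (0 : Eu d) R) :=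
    hQ.isClosed.measurableSet
  obtain ⟨L, U, hUm, hUd, hUQ, hUpos, hfull, hUdist⟩ :=
    exists_pieces π hQ hQm hπ (half_pos hδ)
  have hne : ∀ i, (U i).Nonempty := fun i => nonempty_of_measure_ne_zero (hUpos i).ne'
  choose c hc using hne
  obtain ⟨a, ha, hax⟩ := exists_perturb hd (fun i => (c i).1) (half_pos hδ)
  obtain ⟨b, hb, hbx⟩ := exists_perturb hd (fun i => (c i).2) (half_pos hδ)
  refine ⟨L, U, a, b, hUm, hUd, hfull, hUpos, ha, hb, ?_⟩
  intro i p hp
  have hpQ := hUQ i hp
  have hp1 : ‖p.1‖ ≤ R := by simpa using hpQ.1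
  have hp2 : ‖p.2‖ ≤ R := by simpa using hpQ.2
  have hdist := hUdist i p hp (c i) (hc i)
  have hd1 : ‖p.1 - (c i).1‖ ≤ δ / 2 := by
    rw [← dist_eq_norm]
    exact (le_max_left _ _).trans (by simpa [Prod.dist_eq] using hdist)
  have hd2 : ‖p.2 - (c i).2‖ ≤ δ / 2 := by
    rw [← dist_eq_norm]
    exact (le_max_right _ _).trans (by simpa [Prod.dist_eq] using hdist)
  refine ⟨hp1, hp2, ?_, ?_⟩
  · have := hax i
    calc ‖p.1 - a i‖ = ‖(p.1 - (c i).1) - (a i - (c i).1)‖ := by congr 1; abel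
      _ ≤ ‖p.1 - (c i).1‖ + ‖a i - (c i).1‖ := norm_sub_le _ _
      _ ≤ δ := by linarith
  · have := hbx i
    calc ‖p.2 - b i‖ = ‖(p.2 - (c i).2) - (b i - (c i).2)‖ := by congr 1; abel
      _ ≤ ‖p.2 - (c i).2‖ + ‖b i - (c i).2‖ := norm_sub_le _ _
      _ ≤ δ := by linarith

/-- WP6: atomic approximation of a coupling. -/
theorem couplingApprox (d : ℕ) (hd : 1 ≤ d) : CouplingApprox d := by
  intro R μ ν π hR hμ hν hμR hνR hπc
  classical
  obtain ⟨hπ1, hπ2⟩ := hπc
  -- π is a probability measure carried by the product of the balls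
  have hπprob : IsProbabilityMeasure π := by
    constructor
    have : (π.map Prod.fst) univ = 1 := by rw [hπ1]; exact measure_univ
    rwa [Measure.map_apply measurable_fst MeasurableSet.univ, preimage_univ] at this
  have hball : MeasurableSet (Metric.closedBall (0 : Eu d) R)ᶜ :=
    Metric.isClosed_closedBall.measurableSet.compl
  have hQnull : π (Metric.closedBall (0 : Eu d) R ×ˢ Metric.closedBall (0 : Eu d) R)ᶜ = 0 := by
    have h1 : π (Prod.fst ⁻¹' (Metric.closedBall (0 : Eu d) R)ᶜ) = 0 := by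
      rw [← Measure.map_apply measurable_fst hball, hπ1]; exact hμR
    have h2 : π (Prod.snd ⁻¹' (Metric.closedBall (0 : Eu d) R)ᶜ) = 0 := by
      rw [← Measure.map_apply measurable_snd hball, hπ2]; exact hνR
    refine measure_mono_null ?_ (measure_union_null h1 h2)
    intro p hp
    by_contra hcon
    apply hp
    simp only [mem_union, mem_preimage, mem_compl_iff, not_or, not_not] at hcon
    exact ⟨hcon.1, hcon.2⟩
  have hae : ∀ᵐ p ∂π, ‖p.1‖ ≤ R ∧ ‖p.2‖ ≤ R := by
    rw [ae_iff]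
    refine measure_mono_null ?_ hQnull
    intro p hp hmem
    apply hp
    exact ⟨by simpa using hmem.1, by simpa using hmem.2⟩
  -- the scales
  let δ : ℕ → ℝ := fun n => 1 / ((n : ℝ) + 1)
  have hδpos : ∀ n, 0 < δ n := fun n => by positivity
  have hδle : ∀ n, δ n ≤ 1 := fun n => by
    have : (1 : ℝ) ≤ (n : ℝ) + 1 := by linarith [(Nat.cast_nonneg n : (0 : ℝ) ≤ n)]
    exact (div_le_one (by positivity)).mpr this
  have hδlim : Tendsto δ atTop (𝓝 0) := tendsto_one_div_add_atTop_nhds_zero_nat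
  have hatoms := fun n => exists_atoms hd (R := R) (hδpos n) π hQnull
  choose L U a b hUm hUd hfull hUpos ha hb hU using hatoms
  let m : ∀ n, Fin (L n + 1) → ℝ := fun n i => (π (U n i)).toReal
  -- a general test
  have htest : ∀ (f : Eu d → ℝ), Continuous f → ∀ (sel : Eu d × Eu d → Eu d),
      Continuous sel → (∀ p : Eu d × Eu d, ‖p.1‖ ≤ R ∧ ‖p.2‖ ≤ R → ‖sel p‖ ≤ R) →
      ∀ (x : ∀ n, Fin (L n + 1) → Eu d), (∀ n i, ‖x n i‖ ≤ R + 1) →
      (∀ n i, ∀ p ∈ U n i, ‖sel p - x n i‖ ≤ δ n) →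
      Tendsto (fun n => ∑ i, m n i * f (x n i)) atTop (𝓝 (∫ p, f (sel p) ∂π)) := by
    intro f hf sel hsel hselR x hx hxU
    have hC : IsCompact (Metric.closedBall (0 : Eu d) (R + 1)) := isCompact_closedBall _ _
    have huc := hC.uniformContinuousOn_of_continuous hf.continuousOn
    rw [Metric.uniformContinuousOn_iff] at huc
    obtain ⟨M, hM⟩ := hC.exists_bound_of_continuousOn hf.continuousOn
    have hint : Integrable (fun p => f (sel p)) π := by
      refine Integrable.of_bound (hf.comp hsel).aestronglyMeasurable M ?_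
      filter_upwards [hae] with p hp
      exact hM _ (by simpa using (hselR p hp).trans (by linarith))
    rw [Metric.tendsto_atTop]
    intro ε hε
    obtain ⟨δ₀, hδ₀, huc'⟩ := huc (ε / 2) (half_pos hε)
    obtain ⟨N, hN⟩ := ((tendsto_order.1 hδlim).2 δ₀ hδ₀).exists_forall_of_atTop
    refine ⟨N, fun n hn => ?_⟩
    have := approx_sum π (hUm n) (hUd n) (hfull n) hint (fun i => f (x n i))
      (half_pos hε).le (fun i p hp => by
        have h1 := hU n i p hp
        have h2 : sel p ∈ Metric.closedBall (0 : Eu d) (R + 1) := by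
          simpa using (hselR p ⟨h1.1, h1.2.1⟩).trans (by linarith)
        have h3 : x n i ∈ Metric.closedBall (0 : Eu d) (R + 1) := by simpa using hx n i
        have h4 : dist (sel p) (x n i) < δ₀ := by
          rw [dist_eq_norm]
          exact lt_of_le_of_lt (hxU n i p hp) (hN n hn)
        have := huc' _ h2 _ h3 h4
        rw [Real.dist_eq] at this
        exact this.le)
    rw [Real.dist_eq]
    exact lt_of_le_of_lt this (half_lt_self hε)
  have hnorm_a : ∀ n i, ‖a n i‖ ≤ R + 1 := by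
    intro n i
    obtain ⟨p, hp⟩ := nonempty_of_measure_ne_zero (hUpos n i).ne'
    obtain ⟨h1, -, h3, -⟩ := hU n i p hp
    have : ‖a n i‖ ≤ ‖p.1‖ + ‖p.1 - a n i‖ := by
      have := norm_sub_le p.1 (p.1 - a n i)
      simpa using this
    linarith [hδle n]
  have hnorm_b : ∀ n i, ‖b n i‖ ≤ R + 1 := by
    intro n i
    obtain ⟨p, hp⟩ := nonempty_of_measure_ne_zero (hUpos n i).ne'
    obtain ⟨-, h2, -, h4⟩ := hU n i p hp
    have : ‖b n i‖ ≤ ‖p.2‖ + ‖p.2 - b n i‖ := by
      have := norm_sub_le p.2 (p.2 - b n i)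
      simpa using this
    linarith [hδle n]
  refine ⟨L, m, a, b, ?_, ?_, ha, hb, hnorm_a, hnorm_b, ?_, ?_, ?_⟩
  · intro n i
    exact ENNReal.toReal_pos (hUpos n i).ne' (measure_ne_top _ _)
  · intro n
    exact sum_masses π (hUm n) (hUd n) (hfull n)
  · intro f hf
    have hmap : ∫ x, f x ∂μ = ∫ p, f p.1 ∂π := by
      rw [← hπ1, integral_map measurable_fst.aemeasurable hf.aestronglyMeasurable]
    rw [hmap]
    exact htest f hf Prod.fst continuous_fst (fun p hp => hp.1) a hnorm_a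
      (fun n i p hp => (hU n i p hp).2.2.1)
  · intro f hf
    have hmap : ∫ x, f x ∂ν = ∫ p, f p.2 ∂π := by
      rw [← hπ2, integral_map measurable_snd.aemeasurable hf.aestronglyMeasurable]
    rw [hmap]
    exact htest f hf Prod.snd continuous_snd (fun p hp => hp.2) b hnorm_b
      (fun n i p hp => (hU n i p hp).2.2.2)
  · -- the quadratic cost
    intro ε hε
    let g : Eu d × Eu d → ℝ := fun p => ‖p.1 - p.2‖ ^ 2
    have hgcont : Continuous g := by
      show Continuous fun p : Eu d × Eu d => ‖p.1 - p.2‖ ^ 2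
      fun_prop
    have hgint : Integrable g π := by
      refine Integrable.of_bound hgcont.aestronglyMeasurable ((R + R) ^ 2) ?_
      filter_upwards [hae] with p hp
      have h0 : ‖p.1 - p.2‖ ≤ R + R := (norm_sub_le _ _).trans (add_le_add hp.1 hp.2)
      have h1 : ‖g p‖ = ‖p.1 - p.2‖ ^ 2 := by
        simp [g]
      rw [h1]
      exact pow_le_pow_left₀ (norm_nonneg _) h0 2
    have hcost : ENNReal.ofReal (∫ p, g p ∂π) = quadCost π := by
      rw [ofReal_integral_eq_lintegral_ofReal hgint (Filter.Eventually.of_forall fun p => by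
        show (0 : ℝ) ≤ g p
        exact sq_nonneg _)]
      unfold quadCost
      refine lintegral_congr fun p => ?_
      simp only [g]
      rw [ENNReal.ofReal_pow (norm_nonneg _), ofReal_norm]
    have hlim : Tendsto (fun n => δ n * (8 * R + 8)) atTop (𝓝 0) := by
      simpa using hδlim.mul_const (8 * R + 8)
    have hev : ∀ᶠ n in atTop, δ n * (8 * R + 8) < ε := (tendsto_order.1 hlim).2 ε hε
    filter_upwards [hev] with n hn
    have hω : 0 ≤ δ n * (8 * R + 8) := mul_nonneg (hδpos n).le (by linarith)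
    have hclose := approx_sum π (hUm n) (hUd n) (hfull n) hgint
      (fun i => ‖a n i - b n i‖ ^ 2) hω (fun i p hp => by
        obtain ⟨h1, h2, h3, h4⟩ := hU n i p hp
        have hA : ‖p.1 - p.2‖ ≤ R + R := (norm_sub_le _ _).trans (add_le_add h1 h2)
        have hB : ‖a n i - b n i‖ ≤ R + R + 2 := (norm_sub_le _ _).trans (by
          linarith [hnorm_a n i, hnorm_b n i])
        have hdiff : |‖p.1 - p.2‖ - ‖a n i - b n i‖| ≤ 2 * δ n := by
          have h5 := abs_norm_sub_norm_le (p.1 - p.2) (a n i - b n i)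
          have h6 : ‖p.1 - p.2 - (a n i - b n i)‖ ≤ ‖p.1 - a n i‖ + ‖p.2 - b n i‖ := by
            have : p.1 - p.2 - (a n i - b n i) = (p.1 - a n i) - (p.2 - b n i) := by abel
            rw [this]
            exact norm_sub_le _ _
          linarith
        have hfact : g p - ‖a n i - b n i‖ ^ 2
            = (‖p.1 - p.2‖ - ‖a n i - b n i‖) * (‖p.1 - p.2‖ + ‖a n i - b n i‖) := by
          simp only [g]; ring
        rw [hfact, abs_mul]
        have hsum_nonneg : 0 ≤ ‖p.1 - p.2‖ + ‖a n i - b n i‖ := by positivity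
        rw [abs_of_nonneg hsum_nonneg]
        calc |‖p.1 - p.2‖ - ‖a n i - b n i‖| * (‖p.1 - p.2‖ + ‖a n i - b n i‖)
            ≤ (2 * δ n) * (R + R + (R + R + 2)) :=
              mul_le_mul hdiff (add_le_add hA hB) hsum_nonneg (by linarith [hδpos n])
          _ ≤ δ n * (8 * R + 8) := by nlinarith [hδpos n])
    have hupper : ∑ i, m n i * ‖a n i - b n i‖ ^ 2 ≤ ∫ p, g p ∂π + ε := by
      have := (abs_le.mp hclose).2
      linarith
    calc ENNReal.ofReal (∑ i, m n i * ‖a n i - b n i‖ ^ 2)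
        ≤ ENNReal.ofReal (∫ p, g p ∂π + ε) := ENNReal.ofReal_le_ofReal hupper
      _ ≤ ENNReal.ofReal (∫ p, g p ∂π) + ENNReal.ofReal ε := ENNReal.ofReal_add_le
      _ = quadCost π + ENNReal.ofReal ε := by rw [hcost]

end Crest.Agent.S0109Lib
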