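/-
Common facts for S0109: the uniform probability measure on a body, power cells, the potential.
-/
import Crest.Agent.S0109Lib.Spec

set_option autoImplicit false
open MeasureTheory Set Filter Topology
open scoped ENNReal NNReal InnerProductSpace
open Crest.AnalysisR.OT

namespace Crest.Agent.S0109Lib

variable {d : ℕ} {K : Set (Eu d)}

/-! ### the uniform measure -/

lemma IsBody.vol_pos (h : IsBody K) : 0 < volume K :=
  lt_of_lt_of_le (h.interior_nonempty.elim fun _ hx =>
    isOpen_interior.measure_pos volume ⟨_, hx⟩) (measure_mono interior_subset)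

lemma IsBody.vol_ne_zero (h : IsBody K) : volume K ≠ 0 := h.vol_pos.ne'

lemma IsBody.vol_ne_top (h : IsBody K) : volume K ≠ ∞ := h.compact.measure_lt_top.ne

lemma IsBody.measurableSet (h : IsBody K) : MeasurableSet K := h.compact.isClosed.measurableSet

lemma IsBody.real_vol_pos (h : IsBody K) : 0 < vol K :=
  ENNReal.toReal_pos h.vol_ne_zero h.vol_ne_top

lemma uniformProbOn_apply' (_h : IsBody K) {S : Set (Eu d)} (hS : MeasurableSet S) :
    uniformProbOn K S = (volume K)⁻¹ * volume (S ∩ K) := by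
  simp [uniformProbOn, Measure.smul_apply, Measure.restrict_apply hS]

lemma IsBody.isProbabilityMeasure (h : IsBody K) : IsProbabilityMeasure (uniformProbOn K) := by
  constructor
  rw [uniformProbOn_apply' h MeasurableSet.univ, univ_inter]
  exact ENNReal.inv_mul_cancel h.vol_ne_zero h.vol_ne_top

lemma uniformProbOn_compl (h : IsBody K) : uniformProbOn K Kᶜ = 0 := by
  rw [uniformProbOn_apply' h h.measurableSet.compl]
  simp

lemma ae_uniform_mem (h : IsBody K) : ∀ᵐ x ∂(uniformProbOn K), x ∈ K := by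
  have := uniformProbOn_compl h
  exact measure_eq_zero_iff_ae_notMem.mp this |>.mono fun x hx => by simpa using hx

lemma uniformProbOn_absolutelyContinuous : uniformProbOn K ≪ volume := by
  unfold uniformProbOn
  exact (Measure.smul_absolutelyContinuous).trans Measure.restrict_le_self.absolutelyContinuous

/-- integrals against the uniform measure -/
lemma integral_uniform (f : Eu d → ℝ) :
    ∫ x, f x ∂(uniformProbOn K) = (vol K)⁻¹ * ∫ x in K, f x := by
  simp [uniformProbOn, integral_smul_measure, vol, ENNReal.toReal_inv]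

/-- masses as real numbers -/
lemma uniform_real_apply (h : IsBody K) {S : Set (Eu d)} (hS : MeasurableSet S) (hSK : S ⊆ K) :
    (uniformProbOn K S).toReal = vol S / vol K := by
  rw [uniformProbOn_apply' h hS, inter_eq_left.mpr hSK, ENNReal.toReal_mul, ENNReal.toReal_inv]
  simp [vol, div_eq_inv_mul]

/-! ### hyperplanes are null -/

lemma volume_hyperplane {a : Eu d} (ha : a ≠ 0) (c : ℝ) :
    volume {x : Eu d | ⟪x, a⟫_ℝ = c} = 0 := by
  classical
  let V : Submodule ℝ (Eu d) := LinearMap.ker (innerₛₗ ℝ a)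
  have hV : V ≠ ⊤ := by
    intro hV
    have : a ∈ V := by rw [hV]; trivial
    have h0 : ⟪a, a⟫_ℝ = 0 := by simpa [V] using this
    exact ha (inner_self_eq_zero.mp h0)
  let x₀ : Eu d := (c / ⟪a, a⟫_ℝ) • a
  have hx₀ : ⟪x₀, a⟫_ℝ = c := by
    have : ⟪a, a⟫_ℝ ≠ 0 := fun h0 => ha (inner_self_eq_zero.mp h0)
    simp only [x₀, inner_smul_left, RCLike.conj_to_real]
    field_simp
  have hsub : {x : Eu d | ⟪x, a⟫_ℝ = c} ⊆ (fun v => v + x₀) '' (V : Set (Eu d)) := by
    intro x hx
    refine ⟨x - x₀, ?_, by simp⟩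
    have : ⟪x - x₀, a⟫_ℝ = 0 := by rw [inner_sub_left, hx₀]; simpa using sub_eq_zero.mpr hx
    simpa [V, real_inner_comm] using this
  refine measure_mono_null hsub ?_
  have hnull : volume (V : Set (Eu d)) = 0 := Measure.addHaar_submodule volume V hV
  rw [show (fun v => v + x₀) '' (V : Set (Eu d)) = (fun v => v + x₀) '' (V : Set (Eu d)) from rfl,
    image_add_right]
  rw [measure_preimage_add_right]
  exact hnull

/-! ### cells and potentials -/

section cells
variable {ι : Type*} {y : ι → Eu d} {ψ : ι → ℝ}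

lemma cell_subset {i : ι} : cell K y ψ i ⊆ K := fun _ hx => hx.1

lemma isClosed_cell (hK : IsClosed K) (i : ι) : IsClosed (cell K y ψ i) := by
  have : cell K y ψ i = K ∩ ⋂ j, {x | ⟪x, y j⟫_ℝ - ψ j ≤ ⟪x, y i⟫_ℝ - ψ i} := by
    ext x; simp [cell]
  rw [this]
  refine hK.inter (isClosed_iInter fun j => isClosed_le ?_ ?_) <;> fun_prop

lemma measurableSet_cell (h : IsBody K) (i : ι) : MeasurableSet (cell K y ψ i) :=
  (isClosed_cell h.compact.isClosed i).measurableSet

lemma le_pot [Finite ι] (i : ι) (x : Eu d) : ⟪x, y i⟫_ℝ - ψ i ≤ pot y ψ x :=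
  le_ciSup (f := fun i => ⟪x, y i⟫_ℝ - ψ i) (Set.finite_range _).bddAbove i

lemma pot_eq_of_mem_cell [Finite ι] [Nonempty ι] {i : ι} {x : Eu d} (hx : x ∈ cell K y ψ i) :
    pot y ψ x = ⟪x, y i⟫_ℝ - ψ i :=
  le_antisymm (ciSup_le hx.2) (le_pot i x)

lemma exists_mem_cell [Finite ι] [Nonempty ι] {x : Eu d} (hx : x ∈ K) :
    ∃ i, x ∈ cell K y ψ i := by
  obtain ⟨i, hi⟩ := Finite.exists_max (fun i => ⟪x, y i⟫_ℝ - ψ i)
  exact ⟨i, hx, hi⟩

lemma iUnion_cell [Finite ι] [Nonempty ι] : ⋃ i, cell K y ψ i = K := by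
  ext x
  constructor
  · rintro hx
    obtain ⟨i, hi⟩ := mem_iUnion.mp hx
    exact hi.1
  · intro hx
    obtain ⟨i, hi⟩ := exists_mem_cell (y := y) (ψ := ψ) hx
    exact mem_iUnion.mpr ⟨i, hi⟩

lemma mem_cell_iff_pot [Finite ι] [Nonempty ι] {i : ι} {x : Eu d} :
    x ∈ cell K y ψ i ↔ x ∈ K ∧ pot y ψ x = ⟪x, y i⟫_ℝ - ψ i := by
  constructor
  · exact fun hx => ⟨hx.1, pot_eq_of_mem_cell hx⟩
  · rintro ⟨hx, he⟩
    exact ⟨hx, fun j => he ▸ le_pot j x⟩

/-- on a cell, `y i` is a subgradient of the potential (on the whole space) -/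
lemma subgradient_of_mem_cell [Finite ι] [Nonempty ι] {i : ι} {x : Eu d}
    (hx : x ∈ cell K y ψ i) (a : Eu d) :
    pot y ψ x + ⟪y i, a - x⟫_ℝ ≤ pot y ψ a := by
  rw [pot_eq_of_mem_cell hx]
  have := le_pot (y := y) (ψ := ψ) i a
  have e : ⟪y i, a - x⟫_ℝ = ⟪a, y i⟫_ℝ - ⟪x, y i⟫_ℝ := by
    rw [inner_sub_right, real_inner_comm, real_inner_comm x]
  rw [e]; linarith

lemma cell_inter_null (hy : Function.Injective y) {i j : ι} (hij : i ≠ j) :
    volume (cell K y ψ i ∩ cell K y ψ j) = 0 := by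
  have ha : y i - y j ≠ 0 := sub_ne_zero.mpr (hy.ne hij)
  refine measure_mono_null ?_ (volume_hyperplane ha (ψ i - ψ j))
  rintro x ⟨hxi, hxj⟩
  have h1 := hxi.2 j
  have h2 := hxj.2 i
  simp only [Set.mem_ofPred_eq, inner_sub_right]
  linarith

lemma midpoint_mem_cell (hK : Convex ℝ K) {ψ' : ι → ℝ} {i : ι} {x x' : Eu d}
    (hx : x ∈ cell K y ψ i) (hx' : x' ∈ cell K y ψ' i) :
    (1 / 2 : ℝ) • (x + x') ∈ cell K y (fun j => (ψ j + ψ' j) / 2) i := by
  refine ⟨?_, fun j => ?_⟩
  · have := hK hx.1 hx'.1 (by norm_num : (0:ℝ) ≤ 1/2) (by norm_num : (0:ℝ) ≤ 1/2) (by norm_num)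
    rwa [← smul_add] at this
  · have h1 := hx.2 j
    have h2 := hx'.2 j
    simp only [inner_smul_left, inner_add_left, RCLike.conj_to_real]
    linarith

/-- the potential is Lipschitz when the atoms are bounded -/
lemma abs_pot_sub_le [Finite ι] [Nonempty ι] {B : ℝ} (hB : ∀ i, ‖y i‖ ≤ B) (x x' : Eu d) :
    |pot y ψ x - pot y ψ x'| ≤ B * ‖x - x'‖ := by
  have key : ∀ u v : Eu d, pot y ψ u - pot y ψ v ≤ B * ‖u - v‖ := by
    intro u v
    have : pot y ψ u ≤ pot y ψ v + B * ‖u - v‖ := by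
      refine ciSup_le fun i => ?_
      have h1 := le_pot (y := y) (ψ := ψ) i v
      have h2 : ⟪u, y i⟫_ℝ - ⟪v, y i⟫_ℝ ≤ B * ‖u - v‖ := by
        rw [← inner_sub_left]
        calc _ ≤ ‖u - v‖ * ‖y i‖ := real_inner_le_norm _ _
          _ ≤ ‖u - v‖ * B := by gcongr; exact hB i
          _ = _ := mul_comm _ _
      linarith
    linarith
  rw [abs_le]
  constructor
  · have := key x' x
    rw [norm_sub_rev] at this
    linarith
  · exact key x x'

lemma continuous_pot [Finite ι] [Nonempty ι] : Continuous (pot y ψ) := by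
  have := Fintype.ofFinite ι
  let B : ℝ := ∑ i, ‖y i‖
  have hB : ∀ i, ‖y i‖ ≤ B := fun i =>
    Finset.single_le_sum (f := fun i => ‖y i‖) (fun i _ => norm_nonneg _) (Finset.mem_univ i)
  have hB0 : 0 ≤ B := Finset.sum_nonneg fun i _ => norm_nonneg _
  refine (LipschitzWith.of_dist_le_mul (K := ⟨B, hB0⟩) ?_).continuous
  intro x x'
  rw [Real.dist_eq, dist_eq_norm]
  exact abs_pot_sub_le hB x x'

/-- the cells a.e.-partition `K`: integrals with respect to any measure `≪ volume`. -/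
lemma integral_eq_sum_cells [Fintype ι] [Nonempty ι] (h : IsBody K)
    (hy : Function.Injective y) {μ : Measure (Eu d)} (hμ : μ ≪ volume) {f : Eu d → ℝ}
    (hf : IntegrableOn f K μ) :
    ∫ x in K, f x ∂μ = ∑ i, ∫ x in cell K y ψ i, f x ∂μ := by
  have hU := iUnion_cell (K := K) (y := y) (ψ := ψ)
  have := integral_iUnion_ae (μ := μ) (f := f) (s := fun i => cell K y ψ i)
    (fun i => (measurableSet_cell h i).nullMeasurableSet)
    (fun i j hij => hμ (cell_inter_null hy hij))
    (by rw [hU]; exact hf)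
  rw [hU] at this
  rw [this, tsum_fintype]

lemma sum_measure_cells [Fintype ι] [Nonempty ι] (h : IsBody K)
    (hy : Function.Injective y) {μ : Measure (Eu d)} (hμ : μ ≪ volume) :
    ∑ i, μ (cell K y ψ i) = μ K := by
  have hU := iUnion_cell (K := K) (y := y) (ψ := ψ)
  have := measure_iUnion₀ (μ := μ) (f := fun i => cell K y ψ i)
    (fun i j hij => hμ (cell_inter_null hy hij))
    (fun i => (measurableSet_cell h i).nullMeasurableSet)
  rw [hU, tsum_fintype] at this
  exact this.symm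

end cells

end Crest.Agent.S0109Lib
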