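/-
WP4 of S0109: continuity of the semi-discrete potentials in the masses, tested against
mean-zero weights.  Everything goes through the dual functional
`J m φ = ∫ pot y φ dρ + Σ m i φ i`: a potential with masses `m` minimises `J m`, every minimiser is
that potential up to a constant, and `J` is jointly continuous.
-/
import Crest.Agent.S0109Lib.Basic

set_option autoImplicit false
set_option linter.unusedSectionVars false
open MeasureTheory Set Filter Topology
open scoped ENNReal NNReal InnerProductSpace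
open Crest.AnalysisR.OT

namespace Crest.Agent.S0109Lib

namespace ContinuityAux

variable {d : ℕ} {K : Set (Eu d)} {ι : Type} [Fintype ι] [Nonempty ι] {y : ι → Eu d}

/-- the dual functional -/
noncomputable def J (K : Set (Eu d)) (y : ι → Eu d) (m φ : ι → ℝ) : ℝ :=
  ∫ x, pot y φ x ∂(uniformProbOn K) + ∑ i, m i * φ i

lemma integrable_of_continuous (h : IsBody K) {f : Eu d → ℝ} (hf : Continuous f) :
    Integrable f (uniformProbOn K) := by
  have h1 : IntegrableOn f K volume := hf.continuousOn.integrableOn_compact h.compact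
  unfold uniformProbOn
  exact Integrable.smul_measure h1 (ENNReal.inv_ne_top.mpr h.vol_ne_zero)

lemma integral_eq_sum (h : IsBody K) (hy : Function.Injective y) (ψ : ι → ℝ) {f : Eu d → ℝ}
    (hf : Continuous f) :
    ∫ x, f x ∂(uniformProbOn K) = ∑ i, ∫ x in cell K y ψ i, f x ∂(uniformProbOn K) := by
  have hac : uniformProbOn K ≪ volume := uniformProbOn_absolutelyContinuous
  have := integral_eq_sum_cells (ψ := ψ) h hy hac (f := f)
    (integrable_of_continuous h hf).integrableOn
  rw [← this, Measure.restrict_eq_self_of_ae_mem (ae_uniform_mem h)]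

lemma real_cell {ψ m : ι → ℝ} (hψ : HasMasses K y ψ m) (hm : ∀ i, 0 < m i) (i : ι) :
    (uniformProbOn K).real (cell K y ψ i) = m i := by
  rw [Measure.real, hψ i, ENNReal.toReal_ofReal (hm i).le]

lemma J_eq_sum (h : IsBody K) (hy : Function.Injective y) {ψ m : ι → ℝ}
    (hψ : HasMasses K y ψ m) (hm : ∀ i, 0 < m i) (φ : ι → ℝ) :
    J K y m φ = ∑ i, ∫ x in cell K y ψ i, (pot y φ x + φ i) ∂(uniformProbOn K) := by
  have := h.isProbabilityMeasure
  unfold J
  rw [integral_eq_sum h hy ψ continuous_pot, ← Finset.sum_add_distrib]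
  refine Finset.sum_congr rfl fun i _ => ?_
  rw [integral_add (integrable_of_continuous h continuous_pot).integrableOn (integrable_const _),
    setIntegral_const, real_cell hψ hm, smul_eq_mul]

/-- the nonnegative gap function -/
noncomputable def gap (y : ι → Eu d) (φ : ι → ℝ) (i : ι) (x : Eu d) : ℝ :=
  pot y φ x + φ i - ⟪x, y i⟫_ℝ

lemma gap_nonneg (φ : ι → ℝ) (i : ι) (x : Eu d) : 0 ≤ gap y φ i x := by
  have := le_pot (y := y) (ψ := φ) i x
  unfold gap
  linarith

lemma continuous_gap (φ : ι → ℝ) (i : ι) : Continuous (gap y φ i) := by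
  unfold gap
  exact (continuous_pot.add continuous_const).sub (by fun_prop)

lemma J_self_eq (h : IsBody K) (hy : Function.Injective y) {ψ m : ι → ℝ}
    (hψ : HasMasses K y ψ m) (hm : ∀ i, 0 < m i) :
    J K y m ψ = ∑ i, ∫ x in cell K y ψ i, ⟪x, y i⟫_ℝ ∂(uniformProbOn K) := by
  rw [J_eq_sum h hy hψ hm ψ]
  refine Finset.sum_congr rfl fun i _ => ?_
  refine setIntegral_congr_fun (measurableSet_cell h i) fun x hx => ?_
  simp only [pot_eq_of_mem_cell hx]
  ring

lemma J_sub_eq (h : IsBody K) (hy : Function.Injective y) {ψ m : ι → ℝ}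
    (hψ : HasMasses K y ψ m) (hm : ∀ i, 0 < m i) (φ : ι → ℝ) :
    J K y m φ - J K y m ψ = ∑ i, ∫ x in cell K y ψ i, gap y φ i x ∂(uniformProbOn K) := by
  rw [J_eq_sum h hy hψ hm φ, J_self_eq h hy hψ hm, ← Finset.sum_sub_distrib]
  refine Finset.sum_congr rfl fun i _ => ?_
  rw [← integral_sub]
  · rfl
  · exact (integrable_of_continuous h (continuous_pot.add continuous_const)).integrableOn
  · exact (integrable_of_continuous h (by fun_prop)).integrableOn

/-- a potential with masses `m` minimises `J m`. -/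
lemma J_le (h : IsBody K) (hy : Function.Injective y) {ψ m : ι → ℝ}
    (hψ : HasMasses K y ψ m) (hm : ∀ i, 0 < m i) (φ : ι → ℝ) :
    J K y m ψ ≤ J K y m φ := by
  have := J_sub_eq h hy hψ hm φ
  have h0 : 0 ≤ ∑ i, ∫ x in cell K y ψ i, gap y φ i x ∂(uniformProbOn K) :=
    Finset.sum_nonneg fun i _ => setIntegral_nonneg (measurableSet_cell h i)
      fun x _ => gap_nonneg φ i x
  linarith

/-- if `φ` is also a minimiser, the gap vanishes a.e. on each cell of `ψ`. -/
lemma gap_ae_zero (h : IsBody K) (hy : Function.Injective y) {ψ m φ : ι → ℝ}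
    (hψ : HasMasses K y ψ m) (hm : ∀ i, 0 < m i) (hle : J K y m φ ≤ J K y m ψ) (i : ι) :
    ∀ᵐ x ∂(uniformProbOn K), x ∈ cell K y ψ i → gap y φ i x = 0 := by
  have hnn : ∀ j ∈ Finset.univ, 0 ≤ ∫ x in cell K y ψ j, gap y φ j x ∂(uniformProbOn K) :=
    fun j _ => setIntegral_nonneg (measurableSet_cell h j) fun x _ => gap_nonneg φ j x
  have hsum : ∑ i, ∫ x in cell K y ψ i, gap y φ i x ∂(uniformProbOn K) = 0 := by
    have h1 := J_sub_eq h hy hψ hm φ
    have h2 := Finset.sum_nonneg hnn
    linarith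
  have hi := (Finset.sum_eq_zero_iff_of_nonneg hnn).mp hsum i (Finset.mem_univ i)
  have hae := (setIntegral_eq_zero_iff_of_nonneg_ae
    (Eventually.of_forall fun x => gap_nonneg φ i x)
    (integrable_of_continuous h (continuous_gap φ i)).integrableOn).mp hi
  have := (ae_restrict_iff' (measurableSet_cell h i)).mp hae
  exact this

/-- uniqueness of minimisers up to constants -/
lemma unique_of_J_le (h : IsBody K) (hy : Function.Injective y) {ψ m φ : ι → ℝ}
    (hψ : HasMasses K y ψ m) (hm : ∀ i, 0 < m i) (hle : J K y m φ ≤ J K y m ψ) :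
    ∃ a : ℝ, ∀ i, φ i = ψ i - a := by
  classical
  have := h.isProbabilityMeasure
  set hh : Eu d → ℝ := fun x => pot y φ x - pot y ψ x with hhdef
  have hhc : Continuous hh := continuous_pot.sub continuous_pot
  set F : Set ℝ := Set.range fun i => ψ i - φ i with hF
  have hFfin : F.Finite := Set.finite_range _
  -- on each cell, where the gap vanishes, `hh` takes the value `ψ i - φ i`
  have hval : ∀ i x, x ∈ cell K y ψ i → gap y φ i x = 0 → hh x = ψ i - φ i := by
    intro i x hx hg
    have h1 := pot_eq_of_mem_cell hx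
    simp only [gap] at hg
    simp only [hhdef, h1]
    linarith
  -- a.e. value in `F`
  have hae : ∀ᵐ x ∂(uniformProbOn K), hh x ∈ F := by
    have hall : ∀ᵐ x ∂(uniformProbOn K), ∀ i, x ∈ cell K y ψ i → gap y φ i x = 0 :=
      ae_all_iff.mpr fun i => gap_ae_zero h hy hψ hm hle i
    filter_upwards [hall, ae_uniform_mem h] with x hx hxK
    obtain ⟨i, hi⟩ := exists_mem_cell (y := y) (ψ := ψ) hxK
    exact ⟨i, (hval i x hi (hx i hi)).symm⟩
  -- everywhere on `K` value in `F`
  have hKF : ∀ x ∈ K, hh x ∈ F := by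
    intro x hx
    by_contra hxF
    set S : Set (Eu d) := hh ⁻¹' Fᶜ with hS
    have hSo : IsOpen S := hFfin.isClosed.isOpen_compl.preimage hhc
    have hcl : x ∈ closure (interior K) := by
      rw [h.convex.closure_interior_eq_closure_of_nonempty_interior h.interior_nonempty]
      exact subset_closure hx
    obtain ⟨z, hzS, hzI⟩ := mem_closure_iff.mp hcl S hSo hxF
    have hopen : IsOpen (S ∩ interior K) := hSo.inter isOpen_interior
    have hpos : 0 < volume (S ∩ interior K) := hopen.measure_pos volume ⟨z, hzS, hzI⟩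
    have hS0 : uniformProbOn K S = 0 := by
      have : ∀ᵐ x ∂(uniformProbOn K), x ∉ S := hae.mono fun x hx hxS => hxS hx
      exact measure_eq_zero_iff_ae_notMem.mpr this
    rw [uniformProbOn_apply' h hSo.measurableSet] at hS0
    have hv0 : volume (S ∩ K) = 0 := by
      rcases mul_eq_zero.mp hS0 with h1 | h1
      · exact absurd (ENNReal.inv_eq_zero.mp h1) h.vol_ne_top
      · exact h1
    have : volume (S ∩ interior K) ≤ volume (S ∩ K) :=
      measure_mono (inter_subset_inter_right _ interior_subset)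
    rw [hv0] at this
    exact absurd hpos (not_lt.mpr this)
  -- `hh` constant
  have hFne : F.Nonempty := Set.range_nonempty _
  obtain ⟨a, -, ha⟩ := h.convex.isPreconnected.eqOn_const_of_mapsTo hFfin.isDiscrete
    hhc.continuousOn hKF hFne
  refine ⟨a, fun i => ?_⟩
  -- the cell has positive mass, so a good point exists
  have hpos : uniformProbOn K (cell K y ψ i) ≠ 0 := by
    rw [hψ i]
    simpa using hm i
  have hex : ∃ x, x ∈ cell K y ψ i ∧ gap y φ i x = 0 := by
    by_contra hcon
    push Not at hcon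
    apply hpos
    have := gap_ae_zero h hy hψ hm hle i
    refine measure_eq_zero_iff_ae_notMem.mpr (this.mono fun x hx hxc => hcon x hxc (hx hxc))
  obtain ⟨x, hxc, hxg⟩ := hex
  have h1 := hval i x hxc hxg
  have h2 : hh x = a := ha hxc.1
  linarith

/-- the potential is 1-Lipschitz in the weights -/
lemma abs_pot_sub_pot_le (φ φ' : ι → ℝ) (x : Eu d) :
    |pot y φ x - pot y φ' x| ≤ ‖φ - φ'‖ := by
  have key : ∀ u v : ι → ℝ, pot y u x - pot y v x ≤ ‖u - v‖ := by
    intro u v
    have : pot y u x ≤ pot y v x + ‖u - v‖ := by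
      refine ciSup_le fun i => ?_
      have h1 := le_pot (y := y) (ψ := v) i x
      have h2 : |(u - v) i| ≤ ‖u - v‖ := by
        simpa using norm_le_pi_norm (u - v) i
      have h3 := (abs_le.mp h2).1
      simp only [Pi.sub_apply] at h3
      linarith
    linarith
  rw [abs_le]
  constructor
  · have := key φ' φ
    rw [norm_sub_rev] at this
    linarith
  · exact key φ φ'

lemma abs_integral_pot_sub_le (h : IsBody K) (φ φ' : ι → ℝ) :
    ‖∫ x, pot y φ x ∂(uniformProbOn K) - ∫ x, pot y φ' x ∂(uniformProbOn K)‖ ≤ ‖φ - φ'‖ := by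
  have := h.isProbabilityMeasure
  rw [← integral_sub (integrable_of_continuous h continuous_pot)
    (integrable_of_continuous h continuous_pot)]
  have := norm_integral_le_of_norm_le_const (μ := uniformProbOn K) (C := ‖φ - φ'‖)
    (f := fun x => pot y φ x - pot y φ' x)
    (Eventually.of_forall fun x => by simpa using abs_pot_sub_pot_le φ φ' x)
  simpa using this

lemma tendsto_J (h : IsBody K) {ms us : ℕ → ι → ℝ} {m a : ι → ℝ}
    (hms : ∀ i, Tendsto (fun k => ms k i) atTop (𝓝 (m i)))
    (hus : Tendsto us atTop (𝓝 a)) :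
    Tendsto (fun k => J K y (ms k) (us k)) atTop (𝓝 (J K y m a)) := by
  unfold J
  refine Tendsto.add ?_ ?_
  · refine tendsto_iff_norm_sub_tendsto_zero.mpr ?_
    refine squeeze_zero (fun _ => norm_nonneg _) (fun k => abs_integral_pot_sub_le h (us k) a)
      (tendsto_iff_norm_sub_tendsto_zero.mp hus)
  · refine tendsto_finsetSum _ fun i _ => (hms i).mul (tendsto_pi_nhds.mp hus i)

/-- shifting by a constant does not change the cells -/
lemma cell_shift (ψ : ι → ℝ) (c : ℝ) (i : ι) :
    cell K y (fun j => ψ j - c) i = cell K y ψ i := by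
  ext x
  simp only [cell, mem_ofPred_eq]
  refine and_congr_right fun _ => forall_congr' fun j => ?_
  constructor <;> intro hj <;> linarith

/-- oscillation bound: every cell with positive mass is nonempty. -/
lemma osc_bound {ψ m : ι → ℝ} (hψ : HasMasses K y ψ m) (hm : ∀ i, 0 < m i)
    {D R : ℝ} (hD : ∀ x ∈ K, ‖x‖ ≤ D) (hR : ∀ i, ‖y i‖ ≤ R) (i j : ι) :
    ψ i - ψ j ≤ D * (2 * R) := by
  have hne : (cell K y ψ i).Nonempty := by
    by_contra hcon
    rw [Set.not_nonempty_iff_eq_empty] at hcon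
    have := hψ i
    rw [hcon, measure_empty] at this
    have h0 : 0 < ENNReal.ofReal (m i) := ENNReal.ofReal_pos.mpr (hm i)
    rw [← this] at h0
    exact lt_irrefl _ h0
  obtain ⟨x, hx⟩ := hne
  have h1 := hx.2 j
  have h2 : ⟪x, y i - y j⟫_ℝ ≤ ‖x‖ * ‖y i - y j‖ := real_inner_le_norm _ _
  have hD0 : 0 ≤ D := (norm_nonneg x).trans (hD x hx.1)
  have h3 : ‖y i - y j‖ ≤ 2 * R := by
    calc ‖y i - y j‖ ≤ ‖y i‖ + ‖y j‖ := norm_sub_le _ _
      _ ≤ 2 * R := by linarith [hR i, hR j]
  have h4 : ‖x‖ * ‖y i - y j‖ ≤ D * (2 * R) :=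
    mul_le_mul (hD x hx.1) h3 (norm_nonneg _) hD0
  rw [inner_sub_right] at h2
  linarith

end ContinuityAux

open ContinuityAux in
/-- WP4. -/
theorem potentialContinuity (d : ℕ) : PotentialContinuity d := by
  intro K h ι _ _ y m ψ hy hm hm1 hψ ms ψs hms hms1 hψs hlim g hg
  classical
  -- bounds
  obtain ⟨D, hD⟩ : ∃ D, ∀ x ∈ K, ‖x‖ ≤ D := by
    obtain ⟨D, hD⟩ := h.compact.isBounded.exists_norm_le
    exact ⟨D, hD⟩
  let R : ℝ := ∑ i, ‖y i‖
  have hR : ∀ i, ‖y i‖ ≤ R := fun i =>
    Finset.single_le_sum (f := fun i => ‖y i‖) (fun i _ => norm_nonneg _) (Finset.mem_univ i)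
  obtain ⟨i₀⟩ : Nonempty ι := inferInstance
  -- normalised potentials
  let φ : ℕ → ι → ℝ := fun n i => ψs n i - ψs n i₀
  have hφ : ∀ n, HasMasses K y (φ n) (ms n) := by
    intro n i
    have : cell K y (φ n) i = cell K y (ψs n) i := cell_shift (ψs n) (ψs n i₀) i
    rw [this]
    exact hψs n i
  set C : ℝ := D * (2 * R) with hC
  have hC0 : 0 ≤ C := by
    have hxK : ∃ x, x ∈ K := h.interior_nonempty.elim fun x hx => ⟨x, interior_subset hx⟩
    obtain ⟨x, hx⟩ := hxK
    have hD0 : 0 ≤ D := (norm_nonneg x).trans (hD x hx)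
    have hR0 : 0 ≤ R := Finset.sum_nonneg fun i _ => norm_nonneg _
    positivity
  have hbd : ∀ n, φ n ∈ Metric.closedBall (0 : ι → ℝ) C := by
    intro n
    rw [mem_closedBall_zero_iff, pi_norm_le_iff_of_nonneg hC0]
    intro i
    rw [Real.norm_eq_abs, abs_le]
    have h1 := osc_bound (hψs n) (hms n) hD hR i i₀
    have h2 := osc_bound (hψs n) (hms n) hD hR i₀ i
    constructor
    · simp only [φ]; linarith
    · simp only [φ]; linarith
  -- rewrite target through the normalisation
  have heq : ∀ n, ∑ i, m i * g i * (ψs n i - ψ i) = ∑ i, m i * g i * (φ n i - ψ i) := by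
    intro n
    have h1 : ∑ i, m i * g i * (ψs n i - ψ i)
        = ∑ i, m i * g i * (φ n i - ψ i) + ψs n i₀ * ∑ i, m i * g i := by
      rw [Finset.mul_sum, ← Finset.sum_add_distrib]
      refine Finset.sum_congr rfl fun i _ => ?_
      simp only [φ]
      ring
    rw [h1, hg]
    ring
  simp_rw [heq]
  refine tendsto_of_subseq_tendsto fun ns _hns => ?_
  obtain ⟨a, -, θ, hθmono, hlimit⟩ := tendsto_subseq_of_bounded (s := Metric.closedBall (0 : ι → ℝ) C)
    Metric.isBounded_closedBall (x := fun k => φ (ns k)) (fun k => hbd _)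
  refine ⟨θ, ?_⟩
  -- the limit minimises `J m`
  have hlimit' : Tendsto (fun k => φ (ns (θ k))) atTop (𝓝 a) := hlimit
  have hθ_tendsto : Tendsto θ atTop atTop := hθmono.tendsto_atTop
  have hms' : ∀ i, Tendsto (fun k => ms (ns (θ k)) i) atTop (𝓝 (m i)) := fun i =>
    (hlim i).comp (_hns.comp hθ_tendsto)
  have hJ1 : Tendsto (fun k => J K y (ms (ns (θ k))) (φ (ns (θ k)))) atTop (𝓝 (J K y m a)) :=
    tendsto_J h hms' hlimit'
  have hJ2 : Tendsto (fun k => J K y (ms (ns (θ k))) ψ) atTop (𝓝 (J K y m ψ)) :=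
    tendsto_J h hms' tendsto_const_nhds
  have hle : J K y m a ≤ J K y m ψ :=
    le_of_tendsto_of_tendsto' hJ1 hJ2 fun k => J_le h hy (hφ _) (hms _) ψ
  obtain ⟨c, hc⟩ := unique_of_J_le h hy hψ hm hle
  -- conclude
  have hlim0 : Tendsto (fun k => ∑ i, m i * g i * (φ (ns (θ k)) i - ψ i)) atTop
      (𝓝 (∑ i, m i * g i * (a i - ψ i))) :=
    tendsto_finsetSum _ fun i _ =>
      ((tendsto_pi_nhds.mp hlimit' i).sub tendsto_const_nhds).const_mul _
  have hzero : ∑ i, m i * g i * (a i - ψ i) = 0 := by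
    have : ∀ i, m i * g i * (a i - ψ i) = (-c) * (m i * g i) := fun i => by
      rw [hc i]; ring
    simp_rw [this]
    rw [← Finset.mul_sum, hg, mul_zero]
  rw [hzero] at hlim0
  exact hlim0

end Crest.Agent.S0109Lib
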