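/-
S0109 WP5: the discrete potential estimate (dual step).
-/
import Crest.Agent.S0109Lib.Basic

set_option autoImplicit false
set_option linter.unusedSectionVars false
set_option linter.style.haveILetI false
set_option linter.unusedVariables false
set_option linter.deprecated false
open MeasureTheory Set Filter Topology
open scoped ENNReal NNReal InnerProductSpace
open Crest.AnalysisR.OT

namespace Crest.Agent.S0109Lib

variable {d : ℕ} {K : Set (Eu d)} {ι : Type} [Fintype ι] [Nonempty ι]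

lemma restrict_uniform (h : IsBody K) : (uniformProbOn K).restrict K = uniformProbOn K :=
  Measure.restrict_eq_self_of_ae_mem (ae_uniform_mem h)

lemma integrable_uniform (h : IsBody K) {f : Eu d → ℝ} (hf : Continuous f) :
    Integrable f (uniformProbOn K) := by
  haveI := h.isProbabilityMeasure
  have : IntegrableOn f K (uniformProbOn K) := hf.continuousOn.integrableOn_compact h.compact
  rwa [IntegrableOn, restrict_uniform h] at this

/-- integrals over a subset of `K` -/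
lemma setIntegral_uniform {S : Set (Eu d)} (hS : MeasurableSet S) (hSK : S ⊆ K) (f : Eu d → ℝ) :
    ∫ x in S, f x ∂(uniformProbOn K) = (vol K)⁻¹ * ∫ x in S, f x := by
  have : (uniformProbOn K).restrict S = (volume K)⁻¹ • volume.restrict S := by
    unfold uniformProbOn
    rw [Measure.restrict_smul, Measure.restrict_restrict hS, inter_eq_left.mpr hSK]
  rw [this, integral_smul_measure]
  simp [vol, ENNReal.toReal_inv]

/-- first moment of a cell in direction `e` -/
noncomputable def mom (K : Set (Eu d)) (y : ι → Eu d) (ψ : ι → ℝ) (i : ι) (e : Eu d) : ℝ :=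
  ∫ x in cell K y ψ i, ⟪x, e⟫_ℝ ∂(uniformProbOn K)

/-- the correlation of the coupling given by the cells of `(y, ψ)` with the labelled points `z` -/
noncomputable def corr (K : Set (Eu d)) (y : ι → Eu d) (ψ : ι → ℝ) (z : ι → Eu d) : ℝ :=
  ∑ i, mom K y ψ i (z i)

section basic
variable {y : ι → Eu d} {ψ : ι → ℝ} {m : ι → ℝ}

lemma continuous_inner_right (e : Eu d) : Continuous fun x : Eu d => ⟪x, e⟫_ℝ := by fun_prop

lemma integrable_inner (h : IsBody K) (e : Eu d) :
    Integrable (fun x : Eu d => ⟪x, e⟫_ℝ) (uniformProbOn K) :=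
  integrable_uniform h (continuous_inner_right e)

lemma mom_add (h : IsBody K) (i : ι) (e f : Eu d) :
    mom K y ψ i (e + f) = mom K y ψ i e + mom K y ψ i f := by
  unfold mom
  simp only [inner_add_right]
  exact integral_add (integrable_inner h e).integrableOn (integrable_inner h f).integrableOn

lemma mom_smul (i : ι) (c : ℝ) (e : Eu d) :
    mom K y ψ i (c • e) = c * mom K y ψ i e := by
  unfold mom
  simp only [inner_smul_right]
  exact integral_const_mul _ _

lemma real_mass (hm : HasMasses K y ψ m) (hm0 : ∀ i, 0 ≤ m i) (i : ι) :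
    (uniformProbOn K).real (cell K y ψ i) = m i := by
  simp [Measure.real, hm i, ENNReal.toReal_ofReal (hm0 i)]

lemma abs_mom_le (h : IsBody K) {D : ℝ} (hKD : ∀ x ∈ K, ‖x‖ ≤ D) (hD : 0 ≤ D)
    (hm : HasMasses K y ψ m) (hm0 : ∀ i, 0 ≤ m i) (i : ι) (e : Eu d) :
    |mom K y ψ i e| ≤ D * ‖e‖ * m i := by
  haveI := h.isProbabilityMeasure
  have := norm_setIntegral_le_of_norm_le_const (μ := uniformProbOn K) (s := cell K y ψ i)
    (f := fun x => ⟪x, e⟫_ℝ) (C := D * ‖e‖) (measure_lt_top _ _) (fun x hx => by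
      calc ‖⟪x, e⟫_ℝ‖ ≤ ‖x‖ * ‖e‖ := norm_inner_le_norm _ _
        _ ≤ D * ‖e‖ := by gcongr; exact hKD x hx.1)
  rw [real_mass hm hm0] at this
  simpa [mom, Real.norm_eq_abs] using this

/-- integrate over the cells -/
lemma integral_uniform_eq_sum (h : IsBody K) (hy : Function.Injective y) {f : Eu d → ℝ}
    (hf : Continuous f) :
    ∫ x, f x ∂(uniformProbOn K) = ∑ i, ∫ x in cell K y ψ i, f x ∂(uniformProbOn K) := by
  have := integral_eq_sum_cells (ψ := ψ) h hy (μ := uniformProbOn K)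
    uniformProbOn_absolutelyContinuous (f := f) (integrable_uniform h hf).integrableOn
  rwa [restrict_uniform h] at this

lemma corr_le (h : IsBody K) (hy : Function.Injective y) (hm : HasMasses K y ψ m)
    (hm0 : ∀ i, 0 ≤ m i) (z : ι → Eu d) (ψ' : ι → ℝ) :
    corr K y ψ z ≤ ∫ x, pot z ψ' x ∂(uniformProbOn K) + ∑ i, m i * ψ' i := by
  haveI := h.isProbabilityMeasure
  have hc : Continuous (pot z ψ') := continuous_pot
  rw [integral_uniform_eq_sum (ψ := ψ) h hy hc, corr, ← Finset.sum_add_distrib]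
  refine Finset.sum_le_sum fun i _ => ?_
  have e1 : m i * ψ' i = ∫ _x in cell K y ψ i, ψ' i ∂(uniformProbOn K) := by
    rw [setIntegral_const, real_mass hm hm0, smul_eq_mul]
  rw [e1, ← integral_add (integrable_uniform h hc).integrableOn (integrable_const _)]
  refine setIntegral_mono_on (integrable_inner h _).integrableOn
    ((integrable_uniform h hc).integrableOn.add (integrable_const _))
    (measurableSet_cell h i) (fun x _ => ?_)
  have := le_pot (y := z) (ψ := ψ') i x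
  linarith

lemma corr_self (h : IsBody K) (hy : Function.Injective y) (hm : HasMasses K y ψ m)
    (hm0 : ∀ i, 0 ≤ m i) :
    corr K y ψ y = ∫ x, pot y ψ x ∂(uniformProbOn K) + ∑ i, m i * ψ i := by
  haveI := h.isProbabilityMeasure
  have hc : Continuous (pot y ψ) := continuous_pot
  rw [integral_uniform_eq_sum (ψ := ψ) h hy hc, corr, ← Finset.sum_add_distrib]
  refine Finset.sum_congr rfl fun i _ => ?_
  have e1 : m i * ψ i = ∫ _x in cell K y ψ i, ψ i ∂(uniformProbOn K) := by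
    rw [setIntegral_const, real_mass hm hm0, smul_eq_mul]
  rw [e1, ← integral_add (integrable_uniform h hc).integrableOn (integrable_const _)]
  refine setIntegral_congr_fun (measurableSet_cell h i) (fun x hx => ?_)
  simp only [pot_eq_of_mem_cell hx]
  ring

/-- (☆) convexity of the max correlation in the atoms -/
lemma corr_le_corr_self (h : IsBody K) {z : ι → Eu d} {ψ' : ι → ℝ}
    (hy : Function.Injective y) (hz : Function.Injective z)
    (hm : HasMasses K y ψ m) (hm' : HasMasses K z ψ' m) (hm0 : ∀ i, 0 ≤ m i) :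
    corr K y ψ z ≤ corr K z ψ' z := by
  rw [corr_self h hz hm' hm0]
  exact corr_le h hy hm hm0 z ψ'

/-- (☆☆) concavity of the max correlation in the masses -/
lemma corr_self_le_of_masses (h : IsBody K) {ψ' : ι → ℝ} {m' : ι → ℝ}
    (hy : Function.Injective y) (hm : HasMasses K y ψ m) (hm' : HasMasses K y ψ' m')
    (hm0 : ∀ i, 0 ≤ m i) (hm'0 : ∀ i, 0 ≤ m' i) :
    corr K y ψ' y ≤ corr K y ψ y + ∑ i, (m' i - m i) * ψ i := by
  rw [corr_self h hy hm hm0]
  have := corr_le h hy hm' hm'0 y ψ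
  have e : ∑ i, m' i * ψ i = ∑ i, m i * ψ i + ∑ i, (m' i - m i) * ψ i := by
    rw [← Finset.sum_add_distrib]; exact Finset.sum_congr rfl fun i _ => by ring
  rw [e] at this
  linarith

lemma corr_self_eq (h : IsBody K) {ψ' : ι → ℝ}
    (hy : Function.Injective y) (hm : HasMasses K y ψ m) (hm' : HasMasses K y ψ' m)
    (hm0 : ∀ i, 0 ≤ m i) : corr K y ψ y = corr K y ψ' y :=
  le_antisymm (corr_le_corr_self h hy hy hm hm' hm0) (corr_le_corr_self h hy hy hm' hm hm0)

lemma corr_path (h : IsBody K) (a v : ι → Eu d) (s s' : ℝ) :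
    corr K y ψ (fun i => a i + s' • v i)
      = corr K y ψ (fun i => a i + s • v i) + (s' - s) * corr K y ψ v := by
  unfold corr
  rw [Finset.mul_sum, ← Finset.sum_add_distrib]
  refine Finset.sum_congr rfl fun i _ => ?_
  rw [mom_add h, mom_add h, mom_smul, mom_smul]
  ring

end basic

/-! ### the telescoping grid -/

lemma telescoping_grid (t : ℕ → ℝ) (N : ℕ) (h h' b b' : ℕ → ℝ) (B δ : ℝ) (hB : 0 ≤ B)
    (ht0 : t 0 = 0) (ht : ∀ k < N, 0 < t (k + 1) - t k) (htδ : ∀ k < N, t (k + 1) - t k ≤ δ)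
    (h1 : ∀ k < N, (t (k + 1) - t k) * b k ≤ h (k + 1) - h k)
    (h2 : ∀ k < N, h (k + 1) - h k ≤ (t (k + 1) - t k) * b (k + 1))
    (h2' : ∀ k < N, h' (k + 1) - h' k ≤ (t (k + 1) - t k) * b' (k + 1))
    (hb : ∀ k ≤ N, b' k - b k ≤ B) :
    ∀ n ≤ N, (h' n - h' 0) - (h n - h 0) ≤ B * t n + δ * (b n - b 0) := by
  intro n
  induction n with
  | zero => intro _; simp [ht0]
  | succ n ih =>
    intro hn
    have hlt : n < N := hn
    have ih' := ih hlt.le
    have d0 := ht n hlt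
    have hbm : b n ≤ b (n + 1) := by
      have := (h1 n hlt).trans (h2 n hlt)
      exact le_of_mul_le_mul_left this d0
    have a1 := h2' n hlt
    have a2 := h1 n hlt
    have a3 := hb (n + 1) hn
    have a4 := htδ n hlt
    have e1 : (t (n + 1) - t n) * (b' (n + 1) - b (n + 1)) ≤ (t (n + 1) - t n) * B := by
      gcongr
    have e2 : (t (n + 1) - t n) * (b (n + 1) - b n) ≤ δ * (b (n + 1) - b n) := by
      have : 0 ≤ b (n + 1) - b n := sub_nonneg.mpr hbm
      gcongr
    nlinarith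

/-- a grid from `0` to `1` avoiding a finite set in its interior -/
lemma exists_grid (S : Set ℝ) (hS : S.Finite) (N : ℕ) (hN : 1 ≤ N) :
    ∃ t : ℕ → ℝ, t 0 = 0 ∧ t N = 1 ∧ (∀ k < N, 0 < t (k + 1) - t k) ∧
      (∀ k < N, t (k + 1) - t k ≤ 2 / N) ∧ (∀ k, 0 < k → k < N → t k ∉ S) := by
  classical
  have hN0 : (0 : ℝ) < N := by exact_mod_cast hN
  -- the bad shifts
  let bad : Set ℝ := ⋃ k ∈ Finset.range N, (fun s => s - (k : ℝ) / N) '' S
  have hbad : bad.Finite :=
    Set.Finite.biUnion (Finset.finite_toSet _) (fun k _ => hS.image _)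
  have hI : (Ioo (0 : ℝ) (1 / N)).Infinite := Ioo_infinite (by positivity)
  obtain ⟨θ, hθ, hθbad⟩ := (hI.diff hbad).nonempty
  have hN0' : N ≠ 0 := by omega
  refine ⟨fun k => if k = 0 then 0 else if k < N then (k : ℝ) / N + θ else 1, by simp,
    by simp [hN0'], ?_, ?_, ?_⟩
  · intro k hk
    have h1 : (k : ℝ) + 1 ≤ N := by exact_mod_cast hk
    by_cases hk0 : k = 0
    · subst hk0
      by_cases h1N : 1 < N
      · simp only [zero_add, one_ne_zero, if_false, h1N, if_true, if_true]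
        have := hθ.1
        norm_num
        positivity
      · simp [h1N]
    · by_cases hk1 : k + 1 < N
      · simp only [Nat.add_eq_zero_iff, one_ne_zero, and_false, if_false, hk0, hk1, if_true, hk]
        push_cast
        have : ((k : ℝ) + 1) / N - (k : ℝ) / N = 1 / N := by field_simp; ring
        have hp : (0 : ℝ) < 1 / N := by positivity
        linarith
      · simp only [Nat.add_eq_zero_iff, one_ne_zero, and_false, if_false, hk0, hk1, hk, if_true]
        have hkN : k + 1 = N := by omega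
        have : (k : ℝ) + 1 = N := by exact_mod_cast hkN
        have e : (k : ℝ) / N = 1 - 1 / N := by
          field_simp; linarith
        rw [e]
        have := hθ.2
        linarith
  · intro k hk
    have h1 : (k : ℝ) + 1 ≤ N := by exact_mod_cast hk
    have hp : (0 : ℝ) < 1 / N := by positivity
    have e2 : (2 : ℝ) / N = 1 / N + 1 / N := by ring
    by_cases hk0 : k = 0
    · subst hk0
      by_cases h1N : 1 < N
      · simp only [zero_add, one_ne_zero, if_false, h1N, if_true]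
        have := hθ.2
        norm_num
        rw [e2]
        simp only [one_div] at this ⊢
        linarith
      · have : N = 1 := by omega
        subst this
        simp
    · by_cases hk1 : k + 1 < N
      · simp only [Nat.add_eq_zero_iff, one_ne_zero, and_false, if_false, hk0, hk1, if_true, hk]
        push_cast
        have : ((k : ℝ) + 1) / N - (k : ℝ) / N = 1 / N := by field_simp; ring
        linarith
      · simp only [Nat.add_eq_zero_iff, one_ne_zero, and_false, if_false, hk0, hk1, hk, if_true]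
        have hkN : k + 1 = N := by omega
        have : (k : ℝ) + 1 = N := by exact_mod_cast hkN
        have e : (k : ℝ) / N = 1 - 1 / N := by
          field_simp; linarith
        rw [e]
        have := hθ.1
        linarith
  · intro k hk0 hk hmem
    have hk0' : k ≠ 0 := by omega
    simp only [hk0', if_false, hk, if_true] at hmem
    apply hθbad
    simp only [bad, mem_iUnion]
    refine ⟨k, Finset.mem_range.mpr hk, _, hmem, by ring⟩

/-- collisions along a segment are finite -/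
lemma finite_collisions (a v : ι → Eu d) (ha : Function.Injective a) :
    {s : ℝ | ¬ Function.Injective fun i => a i + s • v i}.Finite := by
  classical
  have hsub : {s : ℝ | ¬ Function.Injective fun i => a i + s • v i} ⊆
      ⋃ p : ι × ι, ⋃ (_ : p.1 ≠ p.2), {s : ℝ | a p.1 + s • v p.1 = a p.2 + s • v p.2} := by
    intro s hs
    simp only [Function.Injective, not_forall, Set.mem_ofPred_eq] at hs
    obtain ⟨i, j, hij, hne⟩ := hs
    simp only [mem_iUnion]
    exact ⟨(i, j), hne, hij⟩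
  refine Set.Finite.subset ?_ hsub
  refine Set.finite_iUnion fun p => Set.finite_iUnion fun hp => ?_
  refine Set.Subsingleton.finite ?_
  intro s hs s' hs'
  have hs1 : a p.1 + s • v p.1 = a p.2 + s • v p.2 := hs
  have hs2 : a p.1 + s' • v p.1 = a p.2 + s' • v p.2 := hs'
  by_contra hne
  have h3 : (s - s') • (v p.1 - v p.2) = 0 := by
    have e1 : (s - s') • v p.1 = (a p.1 + s • v p.1) - (a p.1 + s' • v p.1) := by
      rw [sub_smul]; abel
    have e2 : (s - s') • v p.2 = (a p.2 + s • v p.2) - (a p.2 + s' • v p.2) := by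
      rw [sub_smul]; abel
    rw [smul_sub, e1, e2, hs1, hs2, sub_self]
  have h4 : v p.1 = v p.2 := by
    rcases smul_eq_zero.mp h3 with h5 | h5
    · exact absurd (sub_eq_zero.mp h5) hne
    · exact sub_eq_zero.mp h5
  rw [h4] at hs1
  exact hp (ha (add_right_cancel hs1))

/-! ### using Theorem B -/

section thmB_use
variable {y : ι → Eu d} {ψ ψ' : ι → ℝ} {m m' : ι → ℝ} {D : ℝ}

lemma vol_cell (h : IsBody K) (hm : HasMasses K y ψ m) (hm0 : ∀ i, 0 ≤ m i) (i : ι) :
    vol (cell K y ψ i) = m i * vol K := by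
  have := uniform_real_apply h (measurableSet_cell h i) (cell_subset (y := y) (ψ := ψ) (i := i))
  rw [hm i, ENNReal.toReal_ofReal (hm0 i)] at this
  have hV := h.real_vol_pos
  rw [this]
  field_simp

lemma avg_cell (h : IsBody K) (hm : HasMasses K y ψ m) (hm0 : ∀ i, 0 < m i) (i : ι) (e : Eu d) :
    avg (cell K y ψ i) (fun x => ⟪x, e⟫_ℝ) = (m i)⁻¹ * mom K y ψ i e := by
  unfold avg mom
  rw [vol_cell h hm (fun i => (hm0 i).le), setIntegral_uniform (measurableSet_cell h i) cell_subset]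
  have hV := h.real_vol_pos
  have := hm0 i
  field_simp

lemma moment_thmB (hB : ThmB d) (h : IsBody K) (hD : 0 < D) (hKD : ∀ x ∈ K, ‖x‖ ≤ D)
    (hy : Function.Injective y) (hm : HasMasses K y ψ m) (hm' : HasMasses K y ψ' m')
    (hm0 : ∀ i, 0 < m i) (hm'0 : ∀ i, 0 < m' i) (e : ι → Eu d) (he : ∀ i, ‖e i‖ ≤ 1) :
    ∑ i, √(m i * m' i) * ((m i)⁻¹ * mom K y ψ i (e i) - (m' i)⁻¹ * mom K y ψ' i (e i)) ^ 2
      ≤ 40 * D ^ 2 * ∑ i, (√(m i) - √(m' i)) ^ 2 := by
  have key := hB K D hD h.measurableSet h.vol_ne_top hKD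
    (fun i => cell K y ψ i) (fun i => cell K y ψ' i) (fun i => cell K y (fun j => (ψ j + ψ' j) / 2) i)
    (fun i => measurableSet_cell h i) (fun i => measurableSet_cell h i)
    (fun i => measurableSet_cell h i)
    (fun i => cell_subset) (fun i => cell_subset) (fun i => cell_subset)
    (by rw [iUnion_cell]; simp) (by rw [iUnion_cell]; simp)
    (fun i j hij => cell_inter_null hy hij) (fun i j hij => cell_inter_null hy hij)
    (fun i j hij => cell_inter_null hy hij)
    (fun i x hx x' hx' => midpoint_mem_cell h.convex hx hx')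
    (fun i x => ⟪x, e i⟫_ℝ) (fun i => continuous_inner_right _)
    (fun i x _ x' _ => by
      rw [← inner_sub_left]
      calc |⟪x - x', e i⟫_ℝ| ≤ ‖x - x'‖ * ‖e i‖ := abs_real_inner_le_norm _ _
        _ ≤ ‖x - x'‖ * 1 := by gcongr; exact he i
        _ = _ := mul_one _)
    (fun i x hx => by
      calc |⟪x, e i⟫_ℝ| ≤ ‖x‖ * ‖e i‖ := abs_real_inner_le_norm _ _
        _ ≤ D * 1 := by
          gcongr
          · exact hKD x hx
          · exact he i
        _ = _ := mul_one _)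
  have hV := h.real_vol_pos
  simp only [vol_cell h hm (fun i => (hm0 i).le), vol_cell h hm' (fun i => (hm'0 i).le),
    avg_cell h hm hm0, avg_cell h hm' hm'0] at key
  have e1 : ∀ i, √(m i * vol K * (m' i * vol K)) = √(m i * m' i) * vol K := by
    intro i
    rw [show m i * vol K * (m' i * vol K) = (m i * m' i) * (vol K * vol K) by ring,
      Real.sqrt_mul (mul_nonneg (hm0 i).le (hm'0 i).le), Real.sqrt_mul_self hV.le]
  have e2 : ∀ i, (√(m i * vol K) - √(m' i * vol K)) ^ 2 = (√(m i) - √(m' i)) ^ 2 * vol K := by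
    intro i
    rw [Real.sqrt_mul (hm0 i).le, Real.sqrt_mul (hm'0 i).le]
    have := Real.sq_sqrt hV.le
    calc (√(m i) * √(vol K) - √(m' i) * √(vol K)) ^ 2
        = (√(m i) - √(m' i)) ^ 2 * √(vol K) ^ 2 := by ring
      _ = _ := by rw [this]
  simp only [e1, e2] at key
  have e3 : ∑ i, √(m i * m' i) * vol K *
      ((m i)⁻¹ * mom K y ψ i (e i) - (m' i)⁻¹ * mom K y ψ' i (e i)) ^ 2
      = vol K * ∑ i, √(m i * m' i) *
      ((m i)⁻¹ * mom K y ψ i (e i) - (m' i)⁻¹ * mom K y ψ' i (e i)) ^ 2 := by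
    rw [Finset.mul_sum]; exact Finset.sum_congr rfl fun i _ => by ring
  have e4 : 40 * D ^ 2 * ∑ i, (√(m i) - √(m' i)) ^ 2 * vol K
      = vol K * (40 * D ^ 2 * ∑ i, (√(m i) - √(m' i)) ^ 2) := by
    rw [← Finset.sum_mul]; ring
  rw [e3, e4] at key
  exact le_of_mul_le_mul_left key hV

lemma weighted_cs (m a b : ι → ℝ) (hm : ∀ i, 0 ≤ m i) :
    ∑ i, m i * a i * b i ≤ √(∑ i, m i * a i ^ 2) * √(∑ i, m i * b i ^ 2) := by
  have := Real.sum_mul_le_sqrt_mul_sqrt Finset.univ (fun i => √(m i) * a i)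
    (fun i => √(m i) * b i)
  have e1 : ∀ i, (√(m i) * a i) ^ 2 = m i * a i ^ 2 := fun i => by
    rw [mul_pow, Real.sq_sqrt (hm i)]
  have e2 : ∀ i, (√(m i) * b i) ^ 2 = m i * b i ^ 2 := fun i => by
    rw [mul_pow, Real.sq_sqrt (hm i)]
  have e3 : ∀ i, √(m i) * a i * (√(m i) * b i) = m i * a i * b i := fun i => by
    have := Real.mul_self_sqrt (hm i)
    calc _ = (√(m i) * √(m i)) * a i * b i := by ring
      _ = _ := by rw [this]
  simp only [e1, e2, e3] at this
  exact this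

/-- the square root step -/
lemma sqrt_diff_sq_le {a t : ℝ} (ha : 0 ≤ a) (ht : -1 ≤ t) :
    (√a - √(a * (1 + t))) ^ 2 ≤ a * t ^ 2 := by
  have h1 : 0 ≤ 1 + t := by linarith
  rw [Real.sqrt_mul ha]
  have hs := Real.sq_sqrt ha
  have hq := Real.sq_sqrt h1
  have hq0 := Real.sqrt_nonneg (1 + t)
  have e : (√a - √a * √(1 + t)) ^ 2 = a * (1 - √(1 + t)) ^ 2 := by
    calc _ = √a ^ 2 * (1 - √(1 + t)) ^ 2 := by ring
      _ = _ := by rw [hs]
  rw [e]
  have e2 : t = (√(1 + t) - 1) * (√(1 + t) + 1) := by nlinarith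
  have : (1 - √(1 + t)) ^ 2 ≤ ((√(1 + t) - 1) * (√(1 + t) + 1)) ^ 2 := by
    have h3 : (1 : ℝ) ≤ (√(1 + t) + 1) ^ 2 := by nlinarith
    have h4 : (1 - √(1 + t)) ^ 2 = (√(1 + t) - 1) ^ 2 := by ring
    rw [h4, mul_pow]
    nlinarith [sq_nonneg (√(1 + t) - 1)]
  rw [← e2] at this
  exact mul_le_mul_of_nonneg_left this ha

/-- the increment of the subgradient when the masses are perturbed -/
lemma corr_diff_le (hB : ThmB d) (h : IsBody K) (hD : 0 < D) (hKD : ∀ x ∈ K, ‖x‖ ≤ D)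
    (hy : Function.Injective y) (hm0 : ∀ i, 0 < m i) (g : ι → ℝ) {ε : ℝ} (hε : 0 < ε)
    (hg : ∀ i, |ε * g i| ≤ 1 / 2) (hm : HasMasses K y ψ m)
    (hm' : HasMasses K y ψ' (fun i => m i * (1 + ε * g i))) (v : ι → Eu d) :
    corr K y ψ' v - corr K y ψ v
      ≤ 10 * D * ε * √(∑ i, m i * ‖v i‖ ^ 2) * √(∑ i, m i * g i ^ 2) := by
  classical
  set m' : ι → ℝ := fun i => m i * (1 + ε * g i) with hm'def
  have hlow : ∀ i, (1 : ℝ) / 2 ≤ 1 + ε * g i := fun i => by
    have := (abs_le.mp (hg i)).1; linarith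
  have hm'0 : ∀ i, 0 < m' i := fun i => mul_pos (hm0 i) (by linarith [hlow i])
  -- unit directions
  let e : ι → Eu d := fun i => (‖v i‖)⁻¹ • v i
  have he : ∀ i, ‖e i‖ ≤ 1 := by
    intro i
    by_cases hv : v i = 0
    · simp [e, hv]
    · have : ‖v i‖ ≠ 0 := norm_ne_zero_iff.mpr hv
      simp [e, norm_smul, this]
  have hve : ∀ i, v i = ‖v i‖ • e i := by
    intro i
    by_cases hv : v i = 0
    · simp [hv]
    · have : ‖v i‖ ≠ 0 := norm_ne_zero_iff.mpr hv
      simp [e, smul_smul, this]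
  let q : ι → ℝ := fun i => (m i)⁻¹ * mom K y ψ i (e i)
  let q' : ι → ℝ := fun i => (m' i)⁻¹ * mom K y ψ' i (e i)
  have hmom : ∀ i, mom K y ψ i (v i) = ‖v i‖ * (m i * q i) := by
    intro i
    conv_lhs => rw [hve i, mom_smul]
    have := (hm0 i).ne'
    simp only [q]; field_simp
  have hmom' : ∀ i, mom K y ψ' i (v i) = ‖v i‖ * (m' i * q' i) := by
    intro i
    conv_lhs => rw [hve i, mom_smul]
    have := (hm'0 i).ne'
    simp only [q']; field_simp
  have hq' : ∀ i, |q' i| ≤ D := by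
    intro i
    have h1 := abs_mom_le h hKD hD.le hm' (fun i => (hm'0 i).le) i (e i)
    have h2 : D * ‖e i‖ * m' i ≤ D * m' i := by
      have := he i
      have := hm'0 i
      have := hD
      gcongr
      nlinarith
    simp only [q', abs_mul, abs_inv, abs_of_pos (hm'0 i)]
    have h3 := hm'0 i
    rw [inv_mul_le_iff₀ h3]
    calc _ ≤ D * m' i := h1.trans h2
      _ = _ := mul_comm _ _
  -- Theorem B
  have hTB := moment_thmB hB h hD hKD hy hm hm' hm0 hm'0 e he
  have hH : ∑ i, (√(m i) - √(m' i)) ^ 2 ≤ ε ^ 2 * ∑ i, m i * g i ^ 2 := by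
    rw [Finset.mul_sum]
    refine Finset.sum_le_sum fun i _ => ?_
    have := sqrt_diff_sq_le (a := m i) (t := ε * g i) (hm0 i).le (by linarith [hlow i])
    calc _ ≤ m i * (ε * g i) ^ 2 := this
      _ = _ := by ring
  have hw : ∀ i, m i ≤ 2 * √(m i * m' i) := by
    intro i
    have e1 : m i * m' i = m i ^ 2 * (1 + ε * g i) := by simp only [m']; ring
    rw [e1, Real.sqrt_mul (sq_nonneg _), Real.sqrt_sq (hm0 i).le]
    have h2 : (1 : ℝ) / 2 ≤ √(1 + ε * g i) := by
      apply Real.le_sqrt_of_sq_le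
      have := hlow i
      nlinarith
    have := hm0 i
    nlinarith
  have hsumq : ∑ i, m i * (q' i - q i) ^ 2 ≤ 81 * D ^ 2 * ε ^ 2 * ∑ i, m i * g i ^ 2 := by
    have hle : ∑ i, m i * (q' i - q i) ^ 2 ≤ 2 * ∑ i, √(m i * m' i) * (q i - q' i) ^ 2 := by
      rw [Finset.mul_sum]
      refine Finset.sum_le_sum fun i _ => ?_
      have e : (q' i - q i) ^ 2 = (q i - q' i) ^ 2 := by ring
      rw [e]
      have := mul_le_mul_of_nonneg_right (hw i) (sq_nonneg (q i - q' i))
      linarith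
    have hG : 0 ≤ ∑ i, m i * g i ^ 2 :=
      Finset.sum_nonneg fun i _ => mul_nonneg (hm0 i).le (sq_nonneg _)
    have hTB' : ∑ i, √(m i * m' i) * (q i - q' i) ^ 2 ≤ 40 * D ^ 2 * ∑ i, (√(m i) - √(m' i)) ^ 2 :=
      hTB
    have h3 : 40 * D ^ 2 * ∑ i, (√(m i) - √(m' i)) ^ 2
        ≤ 40 * D ^ 2 * (ε ^ 2 * ∑ i, m i * g i ^ 2) := by gcongr
    have h4 : 0 ≤ D ^ 2 * ε ^ 2 * ∑ i, m i * g i ^ 2 := by positivity
    nlinarith
  set Nv := √(∑ i, m i * ‖v i‖ ^ 2) with hNv
  set Ng := √(∑ i, m i * g i ^ 2) with hNg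
  have hNv0 : 0 ≤ Nv := Real.sqrt_nonneg _
  have hNg0 : 0 ≤ Ng := Real.sqrt_nonneg _
  have hNg2 : Ng ^ 2 = ∑ i, m i * g i ^ 2 :=
    Real.sq_sqrt (Finset.sum_nonneg fun i _ => mul_nonneg (hm0 i).le (sq_nonneg _))
  -- decomposition
  have hdecomp : corr K y ψ' v - corr K y ψ v
      = ∑ i, m i * ‖v i‖ * (q' i - q i) + ε * ∑ i, m i * ‖v i‖ * (g i * q' i) := by
    unfold corr
    rw [← Finset.sum_sub_distrib, Finset.mul_sum, ← Finset.sum_add_distrib]
    refine Finset.sum_congr rfl fun i _ => ?_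
    rw [hmom, hmom']
    simp only [m']
    ring
  have hT1 : ∑ i, m i * ‖v i‖ * (q' i - q i) ≤ Nv * (9 * D * ε * Ng) := by
    have h1 := weighted_cs m (fun i => ‖v i‖) (fun i => q' i - q i) (fun i => (hm0 i).le)
    refine h1.trans ?_
    gcongr
    apply Real.sqrt_le_iff.mpr
    refine ⟨by positivity, ?_⟩
    calc _ ≤ 81 * D ^ 2 * ε ^ 2 * ∑ i, m i * g i ^ 2 := hsumq
      _ = _ := by rw [← hNg2]; ring
  have hT2 : ∑ i, m i * ‖v i‖ * (g i * q' i) ≤ Nv * (D * Ng) := by
    have h1 : ∑ i, m i * ‖v i‖ * (g i * q' i) ≤ ∑ i, m i * ‖v i‖ * (D * |g i|) := by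
      refine Finset.sum_le_sum fun i _ => ?_
      have : g i * q' i ≤ D * |g i| := by
        calc g i * q' i ≤ |g i * q' i| := le_abs_self _
          _ = |g i| * |q' i| := abs_mul _ _
          _ ≤ |g i| * D := by gcongr; exact hq' i
          _ = _ := mul_comm _ _
      have h0 : 0 ≤ m i * ‖v i‖ := mul_nonneg (hm0 i).le (norm_nonneg _)
      exact mul_le_mul_of_nonneg_left this h0
    refine h1.trans ?_
    have h2 := weighted_cs m (fun i => ‖v i‖) (fun i => D * |g i|) (fun i => (hm0 i).le)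
    refine h2.trans ?_
    gcongr
    apply Real.sqrt_le_iff.mpr
    refine ⟨by positivity, ?_⟩
    have e : ∑ i, m i * (D * |g i|) ^ 2 = D ^ 2 * ∑ i, m i * g i ^ 2 := by
      rw [Finset.mul_sum]
      refine Finset.sum_congr rfl fun i _ => ?_
      rw [mul_pow, sq_abs]; ring
    rw [e, ← hNg2]
    exact le_of_eq (by ring)
  rw [hdecomp]
  have hT2' := mul_le_mul_of_nonneg_left hT2 hε.le
  nlinarith

end thmB_use

/-! ### the mixed difference -/

section mixed
variable {D : ℝ}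

lemma mixed_difference (hB : ThmB d) (hE : SemiDiscreteExistence d) (h : IsBody K) (hD : 0 < D)
    (hKD : ∀ x ∈ K, ‖x‖ ≤ D) (m : ι → ℝ) (y₀ y₁ : ι → Eu d) (hy₀ : Function.Injective y₀)
    (hy₁ : Function.Injective y₁) (hm0 : ∀ i, 0 < m i) (hsum : ∑ i, m i = 1) (g : ι → ℝ) {ε : ℝ}
    (hε : 0 < ε) (hg : ∀ i, |ε * g i| ≤ 1 / 2) (hg0 : ∑ i, m i * g i = 0)
    {ψ₀ ψ₁ ψ'₀ ψ'₁ : ι → ℝ} (h₀ : HasMasses K y₀ ψ₀ m) (h₁ : HasMasses K y₁ ψ₁ m)
    (h'₀ : HasMasses K y₀ ψ'₀ (fun i => m i * (1 + ε * g i)))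
    (h'₁ : HasMasses K y₁ ψ'₁ (fun i => m i * (1 + ε * g i))) :
    (corr K y₁ ψ'₁ y₁ - corr K y₀ ψ'₀ y₀) - (corr K y₁ ψ₁ y₁ - corr K y₀ ψ₀ y₀)
      ≤ 10 * D * ε * √(∑ i, m i * ‖y₁ i - y₀ i‖ ^ 2) * √(∑ i, m i * g i ^ 2) := by
  classical
  set m' : ι → ℝ := fun i => m i * (1 + ε * g i) with hm'def
  have hlow : ∀ i, (1 : ℝ) / 2 ≤ 1 + ε * g i := fun i => by
    have := (abs_le.mp (hg i)).1; linarith
  have hm'0 : ∀ i, 0 < m' i := fun i => mul_pos (hm0 i) (by linarith [hlow i])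
  have hm'sum : ∑ i, m' i = 1 := by
    have : ∑ i, m' i = ∑ i, m i + ε * ∑ i, m i * g i := by
      rw [Finset.mul_sum, ← Finset.sum_add_distrib]
      exact Finset.sum_congr rfl fun i _ => by simp only [m']; ring
    rw [this, hsum, hg0]; ring
  let v : ι → Eu d := fun i => y₁ i - y₀ i
  let Y : ℝ → ι → Eu d := fun s i => y₀ i + s • v i
  have hY0 : Y 0 = y₀ := by funext i; simp [Y]
  have hY1 : Y 1 = y₁ := by funext i; simp [Y, v]
  -- potentials along the path
  have hex : ∀ s, Function.Injective (Y s) → ∃ ψ, HasMasses K (Y s) ψ m :=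
    fun s hs => hE K h (Y s) m hs hm0 hsum
  have hex' : ∀ s, Function.Injective (Y s) → ∃ ψ, HasMasses K (Y s) ψ m' :=
    fun s hs => hE K h (Y s) m' hs hm'0 hm'sum
  choose! Ψ hΨ using hex
  choose! Ψ' hΨ' using hex'
  let H : ℝ → ℝ := fun s => corr K (Y s) (Ψ s) (Y s)
  let H' : ℝ → ℝ := fun s => corr K (Y s) (Ψ' s) (Y s)
  let b : ℝ → ℝ := fun s => corr K (Y s) (Ψ s) v
  let b' : ℝ → ℝ := fun s => corr K (Y s) (Ψ' s) v
  have hstep : ∀ s s', Function.Injective (Y s) → Function.Injective (Y s') →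
      H s + (s' - s) * b s ≤ H s' := by
    intro s s' hs hs'
    have h1 := corr_le_corr_self h hs hs' (hΨ s hs) (hΨ s' hs') (fun i => (hm0 i).le)
    have h2 := corr_path (y := Y s) (ψ := Ψ s) h y₀ v s s'
    have h3 : corr K (Y s) (Ψ s) (Y s') = corr K (Y s) (Ψ s) (Y s) + (s' - s) * corr K (Y s) (Ψ s) v :=
      h2
    simp only [H, b]
    linarith
  have hstep' : ∀ s s', Function.Injective (Y s) → Function.Injective (Y s') →
      H' s + (s' - s) * b' s ≤ H' s' := by
    intro s s' hs hs'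
    have h1 := corr_le_corr_self h hs hs' (hΨ' s hs) (hΨ' s' hs') (fun i => (hm'0 i).le)
    have h2 := corr_path (y := Y s) (ψ := Ψ' s) h y₀ v s s'
    have h3 : corr K (Y s) (Ψ' s) (Y s') = corr K (Y s) (Ψ' s) (Y s) + (s' - s) * corr K (Y s) (Ψ' s) v :=
      h2
    simp only [H', b']
    linarith
  set B : ℝ := 10 * D * ε * √(∑ i, m i * ‖y₁ i - y₀ i‖ ^ 2) * √(∑ i, m i * g i ^ 2) with hBdef
  have hB0 : 0 ≤ B := by positivity
  have hbd : ∀ s, Function.Injective (Y s) → b' s - b s ≤ B := by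
    intro s hs
    exact corr_diff_le hB h hD hKD hs hm0 g hε hg (hΨ s hs) (hΨ' s hs) v
  -- bound on b
  set B₀ : ℝ := D * ∑ i, ‖v i‖ with hB₀
  have hmle : ∀ i, m i ≤ 1 := fun i => by
    rw [← hsum]
    exact Finset.single_le_sum (f := m) (fun j _ => (hm0 j).le) (Finset.mem_univ i)
  have hbabs : ∀ s, Function.Injective (Y s) → |b s| ≤ B₀ := by
    intro s hs
    simp only [b, corr, hB₀, Finset.mul_sum]
    refine (Finset.abs_sum_le_sum_abs _ _).trans (Finset.sum_le_sum fun i _ => ?_)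
    have h1 := abs_mom_le h hKD hD.le (hΨ s hs) (fun i => (hm0 i).le) i (v i)
    refine h1.trans ?_
    have : 0 ≤ D * ‖v i‖ := by positivity
    nlinarith [hmle i]
  -- endpoints
  have hinj0 : Function.Injective (Y 0) := by rw [hY0]; exact hy₀
  have hinj1 : Function.Injective (Y 1) := by rw [hY1]; exact hy₁
  have hH0 : H 0 = corr K y₀ ψ₀ y₀ := by
    have := hΨ 0 hinj0
    simp only [H]
    rw [hY0] at this ⊢
    exact corr_self_eq h hy₀ this h₀ (fun i => (hm0 i).le)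
  have hH1 : H 1 = corr K y₁ ψ₁ y₁ := by
    have := hΨ 1 hinj1
    simp only [H]
    rw [hY1] at this ⊢
    exact corr_self_eq h hy₁ this h₁ (fun i => (hm0 i).le)
  have hH'0 : H' 0 = corr K y₀ ψ'₀ y₀ := by
    have := hΨ' 0 hinj0
    simp only [H']
    rw [hY0] at this ⊢
    exact corr_self_eq h hy₀ this h'₀ (fun i => (hm'0 i).le)
  have hH'1 : H' 1 = corr K y₁ ψ'₁ y₁ := by
    have := hΨ' 1 hinj1
    simp only [H']
    rw [hY1] at this ⊢
    exact corr_self_eq h hy₁ this h'₁ (fun i => (hm'0 i).le)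
  rw [← hH0, ← hH1, ← hH'0, ← hH'1]
  -- the grid
  have hfin := finite_collisions y₀ v hy₀
  have hmain : ∀ N : ℕ, 1 ≤ N → (H' 1 - H' 0) - (H 1 - H 0) ≤ B + 2 / N * (2 * B₀) := by
    intro N hN
    obtain ⟨t, ht0, htN, htpos, htδ, htS⟩ := exists_grid _ hfin N hN
    have hgood : ∀ k ≤ N, Function.Injective (Y (t k)) := by
      intro k hk
      rcases Nat.eq_zero_or_pos k with rfl | hk0
      · rw [ht0]; exact hinj0
      · rcases Nat.lt_or_ge k N with hkN | hkN
        · have := htS k hk0 hkN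
          simp only [Set.mem_ofPred_eq, not_not] at this
          exact this
        · have : k = N := le_antisymm hk hkN
          subst this
          rw [htN]; exact hinj1
    have hNpos : (0 : ℝ) < N := by exact_mod_cast hN
    have key := telescoping_grid t N (fun k => H (t k)) (fun k => H' (t k)) (fun k => b (t k))
      (fun k => b' (t k)) B (2 / N) hB0 ht0 htpos htδ
      (fun k hk => by
        have := hstep (t k) (t (k + 1)) (hgood k hk.le) (hgood _ hk)
        linarith)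
      (fun k hk => by
        have := hstep (t (k + 1)) (t k) (hgood _ hk) (hgood k hk.le)
        nlinarith)
      (fun k hk => by
        have := hstep' (t (k + 1)) (t k) (hgood _ hk) (hgood k hk.le)
        nlinarith)
      (fun k hk => hbd _ (hgood k hk)) N le_rfl
    simp only [htN, ht0, mul_one] at key
    have hb1 := abs_le.mp (hbabs 1 hinj1)
    have hb0 := abs_le.mp (hbabs 0 hinj0)
    have h5 : 2 / (N : ℝ) * (b 1 - b 0) ≤ 2 / N * (2 * B₀) := by
      have : b 1 - b 0 ≤ 2 * B₀ := by linarith [hb1.2, hb0.1]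
      gcongr
    linarith
  -- limit
  refine le_of_forall_pos_le_add fun δ hδ => ?_
  obtain ⟨N, hN⟩ := exists_nat_gt (4 * B₀ / δ + 1)
  have hB₀0 : 0 ≤ B₀ := by positivity
  have hN1 : (1 : ℝ) < N := by
    have : 0 ≤ 4 * B₀ / δ := by positivity
    linarith
  have hN1' : 1 ≤ N := by
    have : (1 : ℝ) ≤ N := hN1.le
    exact_mod_cast this
  refine (hmain N hN1').trans ?_
  have hNpos : (0 : ℝ) < N := by linarith
  have : 2 / (N : ℝ) * (2 * B₀) ≤ δ := by
    have h1 : 4 * B₀ / δ < N := by linarith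
    rw [div_lt_iff₀ hδ] at h1
    rw [div_mul_eq_mul_div, div_le_iff₀ hNpos]
    linarith
  linarith

/-- tested form of the Lipschitz bound on the potentials -/
lemma tested_bound (hB : ThmB d) (hE : SemiDiscreteExistence d) (hC : PotentialContinuity d)
    (h : IsBody K) (hD : 0 < D) (hKD : ∀ x ∈ K, ‖x‖ ≤ D) (m : ι → ℝ) (y₀ y₁ : ι → Eu d)
    (hy₀ : Function.Injective y₀) (hy₁ : Function.Injective y₁) (hm0 : ∀ i, 0 < m i)
    (hsum : ∑ i, m i = 1) (g : ι → ℝ) (hg0 : ∑ i, m i * g i = 0)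
    {ψ₀ ψ₁ : ι → ℝ} (h₀ : HasMasses K y₀ ψ₀ m) (h₁ : HasMasses K y₁ ψ₁ m) :
    ∑ i, m i * g i * (ψ₁ i - ψ₀ i)
      ≤ 10 * D * √(∑ i, m i * ‖y₁ i - y₀ i‖ ^ 2) * √(∑ i, m i * g i ^ 2) := by
  classical
  -- the small parameters
  set S : ℝ := ∑ i, |g i| with hS
  have hS0 : 0 ≤ S := Finset.sum_nonneg fun i _ => abs_nonneg _
  have hgS : ∀ i, |g i| ≤ S := fun i =>
    Finset.single_le_sum (f := fun i => |g i|) (fun j _ => abs_nonneg _) (Finset.mem_univ i)
  let ε₀ : ℝ := 1 / (2 * (1 + S))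
  have hε₀ : 0 < ε₀ := by positivity
  let ε : ℕ → ℝ := fun n => ε₀ / (n + 1)
  have hε : ∀ n, 0 < ε n := fun n => by positivity
  have hεg : ∀ n i, |ε n * g i| ≤ 1 / 2 := by
    intro n i
    rw [abs_mul, abs_of_pos (hε n)]
    have h1 : ε n ≤ ε₀ := div_le_self hε₀.le (by linarith [(Nat.cast_nonneg n : (0 : ℝ) ≤ n)])
    calc ε n * |g i| ≤ ε₀ * (1 + S) := by
          gcongr
          linarith [hgS i]
      _ = 1 / 2 := by simp only [ε₀]; field_simp
  let ms : ℕ → ι → ℝ := fun n i => m i * (1 + ε n * g i)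
  have hlow : ∀ n i, (1 : ℝ) / 2 ≤ 1 + ε n * g i := fun n i => by
    have := (abs_le.mp (hεg n i)).1; linarith
  have hms0 : ∀ n i, 0 < ms n i := fun n i => mul_pos (hm0 i) (by linarith [hlow n i])
  have hmssum : ∀ n, ∑ i, ms n i = 1 := by
    intro n
    have : ∑ i, ms n i = ∑ i, m i + ε n * ∑ i, m i * g i := by
      rw [Finset.mul_sum, ← Finset.sum_add_distrib]
      exact Finset.sum_congr rfl fun i _ => by simp only [ms]; ring
    rw [this, hsum, hg0]; ring
  have hex0 : ∀ n, ∃ ψ, HasMasses K y₀ ψ (ms n) := fun n => hE K h y₀ (ms n) hy₀ (hms0 n) (hmssum n)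
  have hex1 : ∀ n, ∃ ψ, HasMasses K y₁ ψ (ms n) := fun n => hE K h y₁ (ms n) hy₁ (hms0 n) (hmssum n)
  choose Ψ₀ hΨ₀ using hex0
  choose Ψ₁ hΨ₁ using hex1
  set RHS := 10 * D * √(∑ i, m i * ‖y₁ i - y₀ i‖ ^ 2) * √(∑ i, m i * g i ^ 2) with hRHS
  have hn : ∀ n, ∑ i, m i * g i * (Ψ₁ n i - ψ₀ i) ≤ RHS := by
    intro n
    have h1 := mixed_difference hB hE h hD hKD m y₀ y₁ hy₀ hy₁ hm0 hsum g (hε n) (hεg n) hg0
      h₀ h₁ (hΨ₀ n) (hΨ₁ n)
    have h2 := corr_self_le_of_masses h hy₀ h₀ (hΨ₀ n) (fun i => (hm0 i).le)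
      (fun i => (hms0 n i).le)
    have h3 := corr_self_le_of_masses h hy₁ (hΨ₁ n) h₁ (fun i => (hms0 n i).le)
      (fun i => (hm0 i).le)
    have e1 : ∑ i, (ms n i - m i) * ψ₀ i = ε n * ∑ i, m i * g i * ψ₀ i := by
      rw [Finset.mul_sum]; exact Finset.sum_congr rfl fun i _ => by simp only [ms]; ring
    have e2 : ∑ i, (m i - ms n i) * Ψ₁ n i = - (ε n * ∑ i, m i * g i * Ψ₁ n i) := by
      rw [Finset.mul_sum, ← Finset.sum_neg_distrib]
      exact Finset.sum_congr rfl fun i _ => by simp only [ms]; ring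
    rw [e1] at h2
    rw [e2] at h3
    have e3 : ∑ i, m i * g i * (Ψ₁ n i - ψ₀ i)
        = ∑ i, m i * g i * Ψ₁ n i - ∑ i, m i * g i * ψ₀ i := by
      rw [← Finset.sum_sub_distrib]; exact Finset.sum_congr rfl fun i _ => by ring
    rw [e3]
    have h4 : ε n * (∑ i, m i * g i * Ψ₁ n i - ∑ i, m i * g i * ψ₀ i) ≤ ε n * RHS := by
      have : ε n * RHS = 10 * D * ε n * √(∑ i, m i * ‖y₁ i - y₀ i‖ ^ 2) * √(∑ i, m i * g i ^ 2) := by
        rw [hRHS]; ring
      rw [this]
      nlinarith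
    exact le_of_mul_le_mul_left h4 (hε n)
  have hεlim : Tendsto ε atTop (𝓝 0) := by
    have := tendsto_one_div_add_atTop_nhds_zero_nat (𝕜 := ℝ)
    have h2 := this.const_mul ε₀
    simp only [mul_zero] at h2
    refine h2.congr fun n => ?_
    simp only [ε]; ring
  have hmslim : ∀ i, Tendsto (fun n => ms n i) atTop (𝓝 (m i)) := by
    intro i
    have h2 : Tendsto (fun n => m i * (1 + ε n * g i)) atTop (𝓝 (m i * (1 + 0 * g i))) :=
      ((hεlim.mul_const (g i)).const_add 1).const_mul (m i)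
    simpa using h2
  have hlim := hC K h y₁ m ψ₁ hy₁ hm0 hsum h₁ ms Ψ₁ hms0 hmssum hΨ₁ hmslim g hg0
  have e : ∀ n, ∑ i, m i * g i * (Ψ₁ n i - ψ₀ i) - ∑ i, m i * g i * (Ψ₁ n i - ψ₁ i)
      = ∑ i, m i * g i * (ψ₁ i - ψ₀ i) := by
    intro n
    rw [← Finset.sum_sub_distrib]; exact Finset.sum_congr rfl fun i _ => by ring
  have hfinal : Tendsto (fun n => RHS - ∑ i, m i * g i * (Ψ₁ n i - ψ₁ i)) atTop (𝓝 (RHS - 0)) :=
    tendsto_const_nhds.sub hlim
  rw [sub_zero] at hfinal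
  refine ge_of_tendsto' hfinal fun n => ?_
  have := hn n
  have e' := e n
  linarith

end mixed

/-- WP5. -/
theorem discreteBound (d : ℕ) (hB : ThmB d) (hE : SemiDiscreteExistence d)
    (hC : PotentialContinuity d) : DiscreteBound d := by
  intro K D h hD hKD ι _ _ m y₀ y₁ ψ₀ ψ₁ hm0 hsum hy₀ hy₁ h₀ h₁
  classical
  have := h.isProbabilityMeasure
  let Δ : ι → ℝ := fun i => ψ₁ i - ψ₀ i
  let Δb : ℝ := ∑ i, m i * Δ i
  let g : ι → ℝ := fun i => Δ i - Δb
  have hg0 : ∑ i, m i * g i = 0 := by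
    have : ∑ i, m i * g i = ∑ i, m i * Δ i - (∑ i, m i) * Δb := by
      rw [Finset.sum_mul, ← Finset.sum_sub_distrib]
      exact Finset.sum_congr rfl fun i _ => by simp only [g]; ring
    rw [this, hsum]
    simp only [Δb]; ring
  have htest := tested_bound hB hE hC h hD hKD m y₀ y₁ hy₀ hy₁ hm0 hsum g hg0 h₀ h₁
  set Nv := √(∑ i, m i * ‖y₁ i - y₀ i‖ ^ 2) with hNv
  set Ng := √(∑ i, m i * g i ^ 2) with hNg
  have hNv2 : Nv ^ 2 = ∑ i, m i * ‖y₁ i - y₀ i‖ ^ 2 :=
    Real.sq_sqrt (Finset.sum_nonneg fun i _ => mul_nonneg (hm0 i).le (sq_nonneg _))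
  have hNg2 : Ng ^ 2 = ∑ i, m i * g i ^ 2 :=
    Real.sq_sqrt (Finset.sum_nonneg fun i _ => mul_nonneg (hm0 i).le (sq_nonneg _))
  have hNv0 : 0 ≤ Nv := Real.sqrt_nonneg _
  have hNg0 : 0 ≤ Ng := Real.sqrt_nonneg _
  have e1 : ∑ i, m i * g i * (ψ₁ i - ψ₀ i) = Ng ^ 2 := by
    have : ∑ i, m i * g i * (ψ₁ i - ψ₀ i) = ∑ i, m i * g i ^ 2 + Δb * ∑ i, m i * g i := by
      rw [Finset.mul_sum, ← Finset.sum_add_distrib]
      exact Finset.sum_congr rfl fun i _ => by simp only [g, Δ]; ring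
    rw [this, hg0, hNg2]; ring
  rw [e1] at htest
  have hNg10 : Ng ≤ 10 * D * Nv := by
    by_contra hlt
    push Not at hlt
    have hpos : 0 < Ng := lt_of_le_of_lt (by positivity) hlt
    nlinarith
  have hNgsq : Ng ^ 2 ≤ 100 * D ^ 2 * Nv ^ 2 := by nlinarith [mul_nonneg hD.le hNv0]
  -- the pointwise bounds
  let R : ι → ℝ := fun i => D * ‖y₁ i - y₀ i‖ + |g i|
  have hR0 : ∀ i, 0 ≤ R i := fun i => by positivity
  refine ⟨-Δb, ?_⟩
  let u : Eu d → ℝ := fun x => pot y₁ ψ₁ x - pot y₀ ψ₀ x - (-Δb)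
  have hu : Continuous u := (continuous_pot.sub continuous_pot).sub continuous_const
  have hlower : ∀ i, ∀ x ∈ cell K y₀ ψ₀ i, max (-u x) 0 ≤ R i := by
    intro i x hx
    refine max_le ?_ (hR0 i)
    have h1 := pot_eq_of_mem_cell hx
    have h2 := le_pot (y := y₁) (ψ := ψ₁) i x
    have h3 : |⟪x, y₁ i - y₀ i⟫_ℝ| ≤ D * ‖y₁ i - y₀ i‖ :=
      (abs_real_inner_le_norm _ _).trans (by gcongr; exact hKD x hx.1)
    have h4 : ⟪x, y₁ i - y₀ i⟫_ℝ = ⟪x, y₁ i⟫_ℝ - ⟪x, y₀ i⟫_ℝ := inner_sub_right _ _ _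
    have h5 := (abs_le.mp h3).1
    have h6 := le_abs_self (g i)
    simp only [u, R, g, Δ] at *
    linarith
  have hupper : ∀ i, ∀ x ∈ cell K y₁ ψ₁ i, max (u x) 0 ≤ R i := by
    intro i x hx
    refine max_le ?_ (hR0 i)
    have h1 := pot_eq_of_mem_cell hx
    have h2 := le_pot (y := y₀) (ψ := ψ₀) i x
    have h3 : |⟪x, y₁ i - y₀ i⟫_ℝ| ≤ D * ‖y₁ i - y₀ i‖ :=
      (abs_real_inner_le_norm _ _).trans (by gcongr; exact hKD x hx.1)
    have h4 : ⟪x, y₁ i - y₀ i⟫_ℝ = ⟪x, y₁ i⟫_ℝ - ⟪x, y₀ i⟫_ℝ := inner_sub_right _ _ _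
    have h5 := (abs_le.mp h3).2
    have h6 := neg_abs_le (g i)
    simp only [u, R, g, Δ] at *
    linarith
  -- integrate
  have hcellint : ∀ {y : ι → Eu d} {ψ : ι → ℝ} (f : Eu d → ℝ), Continuous f →
      Function.Injective y → HasMasses K y ψ m → (∀ i, ∀ x ∈ cell K y ψ i, max (f x) 0 ≤ R i) →
      ∫ x, (max (f x) 0) ^ 2 ∂(uniformProbOn K) ≤ ∑ i, m i * R i ^ 2 := by
    intro y ψ f hf hy hmass hbound
    have hc : Continuous fun x => (max (f x) 0) ^ 2 := by fun_prop
    rw [integral_uniform_eq_sum (ψ := ψ) h hy hc]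
    refine Finset.sum_le_sum fun i _ => ?_
    have e1 : m i * R i ^ 2 = ∫ _x in cell K y ψ i, R i ^ 2 ∂(uniformProbOn K) := by
      rw [setIntegral_const, real_mass hmass (fun i => (hm0 i).le), smul_eq_mul]
    rw [e1]
    refine setIntegral_mono_on (integrable_uniform h hc).integrableOn (integrable_const _)
      (measurableSet_cell h i) (fun x hx => ?_)
    have := hbound i x hx
    have h0 : 0 ≤ max (f x) 0 := le_max_right _ _
    gcongr
  have hI1 := hcellint (fun x => -u x) hu.neg hy₀ h₀ hlower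
  have hI2 := hcellint u hu hy₁ h₁ hupper
  have hsplit : ∀ x, u x ^ 2 = (max (u x) 0) ^ 2 + (max (-u x) 0) ^ 2 := by
    intro x
    rcases le_total (u x) 0 with hx | hx
    · rw [max_eq_right hx, max_eq_left (by linarith)]; ring
    · rw [max_eq_left hx, max_eq_right (by linarith)]; ring
  have hint : ∫ x, u x ^ 2 ∂(uniformProbOn K) = ∫ x, (max (u x) 0) ^ 2 ∂(uniformProbOn K)
      + ∫ x, (max (-u x) 0) ^ 2 ∂(uniformProbOn K) := by
    simp_rw [hsplit]
    exact integral_add (integrable_uniform h (by fun_prop)) (integrable_uniform h (by fun_prop))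
  have hRsum : ∑ i, m i * R i ^ 2 ≤ 2 * (D ^ 2 * Nv ^ 2 + Ng ^ 2) := by
    rw [hNv2, hNg2, Finset.mul_sum, ← Finset.sum_add_distrib, Finset.mul_sum]
    refine Finset.sum_le_sum fun i _ => ?_
    have hmi := (hm0 i).le
    have : R i ^ 2 ≤ 2 * (D ^ 2 * ‖y₁ i - y₀ i‖ ^ 2 + g i ^ 2) := by
      simp only [R]
      have := sq_nonneg (D * ‖y₁ i - y₀ i‖ - |g i|)
      have e : |g i| ^ 2 = g i ^ 2 := sq_abs _
      nlinarith
    nlinarith
  show ∫ x, u x ^ 2 ∂(uniformProbOn K) ≤ _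
  rw [hint, ← hNv2]
  nlinarith

end Crest.Agent.S0109Lib
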