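/-
WP3 of S0109: existence of a potential realising prescribed masses (semi-discrete transport).
Minimise `Ψ(ψ) = ∫ pot y ψ dρ + Σ m_i ψ_i`, which is continuous, invariant under constants and
coercive modulo constants. At the minimum, pushing `ψ_j` up by `t > 0` decreases the potential by
`t` on the set where the `j`-th affine function wins by at least `t`; so these sets have mass at
most `m_j`, hence the open cell `j` does, hence so does the closed cell (interfaces are null).
Since the masses of the cells and the `m_j` both sum to one, they agree.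
-/
import Crest.Agent.S0109Lib.Basic

set_option autoImplicit false
open MeasureTheory Set Filter Topology
open scoped ENNReal NNReal InnerProductSpace
open Crest.AnalysisR.OT

namespace Crest.Agent.S0109Lib

section exist

set_option linter.unusedSectionVars false

variable {d : ℕ} {K : Set (Eu d)} {ι : Type} [Fintype ι] [Nonempty ι] {y : ι → Eu d}

lemma exist_integrable_of_cont (h : IsBody K) {f : Eu d → ℝ} (hf : Continuous f) :
    Integrable f (uniformProbOn K) := by
  have h1 : IntegrableOn f K volume := hf.continuousOn.integrableOn_compact h.compact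
  unfold uniformProbOn
  exact Integrable.smul_measure h1 (ENNReal.inv_ne_top.mpr h.vol_ne_zero)

lemma exist_pot_le_of_forall {ψ : ι → ℝ} {x : Eu d} {c : ℝ}
    (hc : ∀ i, ⟪x, y i⟫_ℝ - ψ i ≤ c) : pot y ψ x ≤ c := ciSup_le hc

lemma exist_pot_le_add {ψ ψ' : ι → ℝ} {δ : ℝ} (hδ : ∀ i, ψ i - ψ' i ≤ δ) (x : Eu d) :
    pot y ψ' x ≤ pot y ψ x + δ := by
  refine exist_pot_le_of_forall fun i => ?_
  have h1 := le_pot (y := y) (ψ := ψ) i x
  have h2 := hδ i
  linarith

/-- the integrated potential -/
noncomputable def potInt (K : Set (Eu d)) (y : ι → Eu d) (ψ : ι → ℝ) : ℝ :=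
  ∫ x, pot y ψ x ∂(uniformProbOn K)

/-- the Kantorovich functional -/
noncomputable def kantFun (K : Set (Eu d)) (y : ι → Eu d) (m ψ : ι → ℝ) : ℝ :=
  potInt K y ψ + ∑ i, m i * ψ i

lemma potInt_le_add (h : IsBody K) {ψ ψ' : ι → ℝ} {δ : ℝ} (hδ : ∀ i, ψ i - ψ' i ≤ δ) :
    potInt K y ψ' ≤ potInt K y ψ + δ := by
  have := h.isProbabilityMeasure
  have hi1 : Integrable (pot y ψ') (uniformProbOn K) := exist_integrable_of_cont h continuous_pot
  have hi2 : Integrable (pot y ψ) (uniformProbOn K) := exist_integrable_of_cont h continuous_pot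
  have key : ∫ x, pot y ψ' x ∂(uniformProbOn K) ≤ ∫ x, (pot y ψ x + δ) ∂(uniformProbOn K) :=
    integral_mono hi1 (hi2.add (integrable_const δ)) (fun x => exist_pot_le_add hδ x)
  rw [integral_add hi2 (integrable_const δ)] at key
  simpa [potInt] using key

lemma continuous_potInt (h : IsBody K) : Continuous (potInt K y) := by
  refine (LipschitzWith.of_dist_le_mul (K := 1) ?_).continuous
  intro ψ ψ'
  have hd : ∀ i, |ψ i - ψ' i| ≤ dist ψ ψ' := fun i => by
    rw [← Real.dist_eq]; exact dist_le_pi_dist ψ ψ' i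
  rw [Real.dist_eq, abs_le]
  simp only [NNReal.coe_one, one_mul]
  constructor
  · have := potInt_le_add (y := y) h (ψ := ψ) (ψ' := ψ') (δ := dist ψ ψ')
      (fun i => (le_abs_self _).trans (hd i))
    linarith
  · have := potInt_le_add (y := y) h (ψ := ψ') (ψ' := ψ) (δ := dist ψ ψ')
      (fun i => by
        have := hd i
        rw [abs_sub_comm] at this
        exact (le_abs_self _).trans this)
    linarith

lemma continuous_kantFun (h : IsBody K) (m : ι → ℝ) : Continuous (kantFun K y m) := by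
  unfold kantFun
  have := continuous_potInt (y := y) h
  fun_prop

lemma pot_add_const (ψ : ι → ℝ) (c : ℝ) (x : Eu d) :
    pot y (fun i => ψ i + c) x = pot y ψ x - c := by
  apply le_antisymm
  · refine exist_pot_le_of_forall fun i => ?_
    have := le_pot (y := y) (ψ := ψ) i x
    linarith
  · have : pot y ψ x ≤ pot y (fun i => ψ i + c) x + c := by
      refine exist_pot_le_of_forall fun i => ?_
      have := le_pot (y := y) (ψ := fun i => ψ i + c) i x
      linarith
    linarith

lemma kantFun_add_const (h : IsBody K) {m : ι → ℝ} (hm : ∑ i, m i = 1) (ψ : ι → ℝ) (c : ℝ) :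
    kantFun K y m (fun i => ψ i + c) = kantFun K y m ψ := by
  have := h.isProbabilityMeasure
  unfold kantFun potInt
  simp_rw [pot_add_const]
  have hi2 : Integrable (pot y ψ) (uniformProbOn K) := exist_integrable_of_cont h continuous_pot
  rw [integral_sub hi2 (integrable_const c)]
  simp only [integral_const, smul_eq_mul, mul_add, Finset.sum_add_distrib, ← Finset.sum_mul, hm]
  simp

/-- lower bound: coercivity modulo constants -/
lemma kantFun_lower (h : IsBody K) (m ψ : ι → ℝ) (hm : ∑ i, m i = 1) (i₀ : ι) :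
    (∫ x, ⟪x, y i₀⟫_ℝ ∂(uniformProbOn K)) + ∑ i, m i * (ψ i - ψ i₀) ≤ kantFun K y m ψ := by
  have := h.isProbabilityMeasure
  have hc : Continuous fun x : Eu d => ⟪x, y i₀⟫_ℝ := by fun_prop
  have hi1 := exist_integrable_of_cont h hc
  have hi2 : Integrable (pot y ψ) (uniformProbOn K) := exist_integrable_of_cont h continuous_pot
  have this : ∫ x, (⟪x, y i₀⟫_ℝ - ψ i₀) ∂(uniformProbOn K) ≤ ∫ x, pot y ψ x ∂(uniformProbOn K) :=
    integral_mono (hi1.sub (integrable_const (ψ i₀))) hi2
      (fun x => le_pot (y := y) (ψ := ψ) i₀ x)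
  rw [integral_sub hi1 (integrable_const _)] at this
  simp only [integral_const, smul_eq_mul, probReal_univ, one_mul] at this
  have e2 : ∑ i, m i * (ψ i - ψ i₀) = ∑ i, m i * ψ i - ψ i₀ := by
    simp only [mul_sub, Finset.sum_sub_distrib, ← Finset.sum_mul, hm, one_mul]
  rw [e2]
  unfold kantFun potInt
  linarith

/-- existence of a global minimiser -/
lemma exists_minimiser (h : IsBody K) {m : ι → ℝ} (hm0 : ∀ i, 0 < m i) (hm : ∑ i, m i = 1) :
    ∃ ψ : ι → ℝ, ∀ φ, kantFun K y m ψ ≤ kantFun K y m φ := by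
  classical
  -- smallest mass
  obtain ⟨i₁, hi₁⟩ := Finite.exists_min m
  have hmin : 0 < m i₁ := hm0 i₁
  set A : ι → ℝ := fun i => ∫ x, ⟪x, y i⟫_ℝ ∂(uniformProbOn K) with hA
  set SA : ℝ := ∑ i, |A i| with hSA
  have hSA' : ∀ i, -SA ≤ A i := fun i => by
    have : |A i| ≤ SA := Finset.single_le_sum (f := fun i => |A i|) (fun i _ => abs_nonneg _)
      (Finset.mem_univ i)
    have := neg_abs_le (A i)
    linarith
  set B : ℝ := (|kantFun K y m (fun _ => 0)| + SA + 1) / m i₁ with hB
  have hSA0 : 0 ≤ SA := Finset.sum_nonneg fun i _ => abs_nonneg _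
  have hB0 : 0 ≤ B := by positivity
  have hBm : m i₁ * B = |kantFun K y m (fun _ => 0)| + SA + 1 := by
    rw [hB]; field_simp
  let Q : Set (ι → ℝ) := Set.pi univ fun _ => Icc 0 B
  have hQ : IsCompact Q := isCompact_univ_pi fun _ => isCompact_Icc
  have hQ0 : (fun _ => (0 : ℝ)) ∈ Q := fun i _ => ⟨le_rfl, hB0⟩
  obtain ⟨ψ, hψQ, hψ⟩ := hQ.exists_isMinOn ⟨_, hQ0⟩ (continuous_kantFun (y := y) h m).continuousOn
  refine ⟨ψ, fun φ => ?_⟩
  obtain ⟨i₀, hi₀⟩ := Finite.exists_min φ
  have hinv := kantFun_add_const (y := y) h hm φ (-φ i₀)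
  rw [← hinv]
  set φ' : ι → ℝ := fun i => φ i + -φ i₀ with hφ'
  by_cases hin : φ' ∈ Q
  · exact hψ hin
  · -- some coordinate exceeds `B`
    have hψ0 : kantFun K y m ψ ≤ kantFun K y m (fun _ => 0) := hψ hQ0
    have hnon : ∀ i, 0 ≤ φ' i := fun i => by
      have := hi₀ i
      simp only [hφ']; linarith
    have : ∃ j, B < φ' j := by
      by_contra hcon
      push Not at hcon
      exact hin fun i _ => ⟨hnon i, hcon i⟩
    obtain ⟨j, hj⟩ := this
    have hlow := kantFun_lower (y := y) h m φ' hm i₀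
    have h0 : φ' i₀ = 0 := by simp [hφ']
    have hs : m i₁ * B ≤ ∑ i, m i * (φ' i - φ' i₀) := by
      calc m i₁ * B ≤ m j * φ' j := by
            apply mul_le_mul (hi₁ j) hj.le hB0 (hm0 j).le
        _ = m j * (φ' j - φ' i₀) := by rw [h0, sub_zero]
        _ ≤ _ := Finset.single_le_sum (f := fun i => m i * (φ' i - φ' i₀))
            (fun i _ => by
              have := hnon i
              rw [h0, sub_zero]
              exact mul_nonneg (hm0 i).le this) (Finset.mem_univ j)
    have hA0 := hSA' i₀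
    have habs := le_abs_self (kantFun K y m (fun _ => 0))
    simp only [hA] at hA0
    linarith

/-- the superlevel sets of the gap have mass at most `m j` -/
lemma superlevel_mass_le (h : IsBody K) {m ψ : ι → ℝ}
    (hψ : ∀ φ, kantFun K y m ψ ≤ kantFun K y m φ) (j : ι) {t : ℝ} (ht : 0 < t) :
    uniformProbOn K {x | ∀ i, i ≠ j → ⟪x, y i⟫_ℝ - ψ i ≤ ⟪x, y j⟫_ℝ - ψ j - t}
      ≤ ENNReal.ofReal (m j) := by
  classical
  have := h.isProbabilityMeasure
  set S : Set (Eu d) := {x | ∀ i, i ≠ j → ⟪x, y i⟫_ℝ - ψ i ≤ ⟪x, y j⟫_ℝ - ψ j - t} with hS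
  have hSc : IsClosed S := by
    have : S = ⋂ i, ⋂ (_ : i ≠ j), {x | ⟪x, y i⟫_ℝ - ψ i ≤ ⟪x, y j⟫_ℝ - ψ j - t} := by
      ext x; simp [hS]
    rw [this]
    refine isClosed_iInter fun i => isClosed_iInter fun _ => isClosed_le ?_ ?_ <;> fun_prop
  set ψt : ι → ℝ := fun i => ψ i + if i = j then t else 0 with hψt
  have hpt : ∀ x, pot y ψt x + S.indicator (fun _ => t) x ≤ pot y ψ x := by
    intro x
    by_cases hx : x ∈ S
    · rw [indicator_of_mem hx]
      have : pot y ψt x ≤ ⟪x, y j⟫_ℝ - ψ j - t := by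
        refine exist_pot_le_of_forall fun i => ?_
        by_cases hij : i = j
        · subst hij; simp only [hψt, if_true]; linarith
        · simp only [hψt, if_neg hij, add_zero]; exact hx i hij
      have h2 := le_pot (y := y) (ψ := ψ) j x
      linarith
    · rw [indicator_of_notMem hx, add_zero]
      have := exist_pot_le_add (y := y) (ψ := ψ) (ψ' := ψt) (δ := 0) (fun i => by
        simp only [hψt]
        split_ifs <;> linarith) x
      linarith
  have hi1 : Integrable (pot y ψt) (uniformProbOn K) := exist_integrable_of_cont h continuous_pot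
  have hi2 : Integrable (pot y ψ) (uniformProbOn K) := exist_integrable_of_cont h continuous_pot
  have hi3 : Integrable (S.indicator fun _ => t) (uniformProbOn K) :=
    (integrable_const t).indicator hSc.measurableSet
  have hint : ∫ x, (pot y ψt x + S.indicator (fun _ => t) x) ∂(uniformProbOn K)
      ≤ ∫ x, pot y ψ x ∂(uniformProbOn K) := integral_mono (hi1.add hi3) hi2 hpt
  have e1 : ∫ x, (pot y ψt x + S.indicator (fun _ => t) x) ∂(uniformProbOn K)
      = potInt K y ψt + (uniformProbOn K S).toReal * t := by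
    rw [integral_add hi1 hi3, integral_indicator hSc.measurableSet]
    simp [potInt, Measure.real]
  rw [e1] at hint
  have hsum : ∑ i, m i * ψt i = ∑ i, m i * ψ i + m j * t := by
    simp only [hψt, mul_add, Finset.sum_add_distrib, mul_ite, mul_zero, Finset.sum_ite_eq',
      Finset.mem_univ, if_true]
  have hmin := hψ ψt
  unfold kantFun at hmin
  rw [hsum] at hmin
  have hle : (uniformProbOn K S).toReal * t ≤ m j * t := by
    have : potInt K y ψ = ∫ x, pot y ψ x ∂(uniformProbOn K) := rfl
    linarith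
  have hle' : (uniformProbOn K S).toReal ≤ m j := le_of_mul_le_mul_right hle ht
  have hfin : uniformProbOn K S ≠ ∞ := measure_ne_top _ _
  calc uniformProbOn K S = ENNReal.ofReal (uniformProbOn K S).toReal :=
        (ENNReal.ofReal_toReal hfin).symm
    _ ≤ _ := ENNReal.ofReal_le_ofReal hle'

/-- every cell has mass at most `m j` -/
lemma cell_mass_le (h : IsBody K) (hy : Function.Injective y) {m ψ : ι → ℝ}
    (hψ : ∀ φ, kantFun K y m ψ ≤ kantFun K y m φ) (j : ι) :
    uniformProbOn K (cell K y ψ j) ≤ ENNReal.ofReal (m j) := by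
  classical
  have := h.isProbabilityMeasure
  let S : ℕ → Set (Eu d) := fun n =>
    {x | ∀ i, i ≠ j → ⟪x, y i⟫_ℝ - ψ i ≤ ⟪x, y j⟫_ℝ - ψ j - 1 / ((n : ℝ) + 1)}
  have hSmono : Monotone S := by
    intro a b hab x hx i hi
    have h1 := hx i hi
    have : 1 / ((b : ℝ) + 1) ≤ 1 / ((a : ℝ) + 1) := by
      apply one_div_le_one_div_of_le (by positivity)
      have : (a : ℝ) ≤ b := by exact_mod_cast hab
      linarith
    linarith
  have hU : uniformProbOn K (⋃ n, S n) ≤ ENNReal.ofReal (m j) := by
    rw [hSmono.measure_iUnion]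
    exact iSup_le fun n => superlevel_mass_le h hψ j (by positivity)
  -- the hyperplanes
  let H : Set (Eu d) := ⋃ i, ⋃ (_ : i ≠ j), {x | ⟪x, y j - y i⟫_ℝ = ψ j - ψ i}
  have hHvol : volume H = 0 := by
    refine (measure_iUnion_null_iff).mpr fun i => (measure_iUnion_null_iff).mpr fun hij => ?_
    exact volume_hyperplane (sub_ne_zero.mpr (hy.ne (Ne.symm hij))) _
  have hH : uniformProbOn K H = 0 := uniformProbOn_absolutelyContinuous hHvol
  have hsub : cell K y ψ j ⊆ (⋃ n, S n) ∪ H := by
    intro x hx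
    by_cases hxH : x ∈ H
    · exact Or.inr hxH
    · left
      have hgap : ∀ i, i ≠ j → 0 < (⟪x, y j⟫_ℝ - ψ j) - (⟪x, y i⟫_ℝ - ψ i) := by
        intro i hi
        have h1 := hx.2 i
        have h2 : ⟪x, y j - y i⟫_ℝ ≠ ψ j - ψ i := fun he =>
          hxH (mem_iUnion.mpr ⟨i, mem_iUnion.mpr ⟨hi, he⟩⟩)
        rw [inner_sub_right] at h2
        rcases lt_or_eq_of_le h1 with h3 | h3
        · linarith
        · exact absurd (by linarith) h2
      have hn : ∀ i, ∃ n : ℕ, i ≠ j → 1 / ((n : ℝ) + 1) < (⟪x, y j⟫_ℝ - ψ j) - (⟪x, y i⟫_ℝ - ψ i) := by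
        intro i
        by_cases hi : i = j
        · exact ⟨0, fun hne => absurd hi hne⟩
        · obtain ⟨n, hn⟩ := exists_nat_one_div_lt (hgap i hi)
          exact ⟨n, fun _ => hn⟩
      choose n hn using hn
      refine mem_iUnion.mpr ⟨Finset.univ.sup n, fun i hi => ?_⟩
      have h1 := hn i hi
      have h2 : n i ≤ Finset.univ.sup n := Finset.le_sup (Finset.mem_univ i)
      have h3 : 1 / (((Finset.univ.sup n : ℕ) : ℝ) + 1) ≤ 1 / ((n i : ℝ) + 1) := by
        apply one_div_le_one_div_of_le (by positivity)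
        have : (n i : ℝ) ≤ (Finset.univ.sup n : ℕ) := by exact_mod_cast h2
        linarith
      linarith
  calc uniformProbOn K (cell K y ψ j) ≤ uniformProbOn K ((⋃ n, S n) ∪ H) := measure_mono hsub
    _ ≤ uniformProbOn K (⋃ n, S n) + uniformProbOn K H := measure_union_le _ _
    _ ≤ _ := by rw [hH, add_zero]; exact hU

end exist

/-- WP3: semi-discrete existence -/
theorem semiDiscreteExistence (d : ℕ) : SemiDiscreteExistence d := by
  intro K h ι _ _ y m hy hm0 hm
  have := h.isProbabilityMeasure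
  obtain ⟨ψ, hψ⟩ := exists_minimiser (y := y) h hm0 hm
  refine ⟨ψ, ?_⟩
  have hle : ∀ j, uniformProbOn K (cell K y ψ j) ≤ ENNReal.ofReal (m j) := cell_mass_le h hy hψ
  have hfin : ∀ j, uniformProbOn K (cell K y ψ j) ≠ ∞ := fun j => measure_ne_top _ _
  have hle' : ∀ j, (uniformProbOn K (cell K y ψ j)).toReal ≤ m j := fun j =>
    ENNReal.toReal_le_of_le_ofReal (hm0 j).le (hle j)
  have hsum : ∑ j, uniformProbOn K (cell K y ψ j) = uniformProbOn K K :=
    sum_measure_cells h hy uniformProbOn_absolutelyContinuous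
  have hone : uniformProbOn K K = 1 := by
    have := uniformProbOn_compl h
    exact (prob_compl_eq_zero_iff h.measurableSet).mp this
  have hsum' : ∑ j, (uniformProbOn K (cell K y ψ j)).toReal = ∑ j, m j := by
    rw [hm, ← ENNReal.toReal_sum (fun j _ => hfin j), hsum, hone]; simp
  have heq := (Finset.sum_eq_sum_iff_of_le (fun j _ => hle' j)).mp hsum'
  intro j
  have := heq j (Finset.mem_univ j)
  rw [← this, ENNReal.ofReal_toReal (hfin j)]

end Crest.Agent.S0109Lib
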