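/-
S0109: final assembly from the work-package statements.
-/
import Crest.Agent.S0109Lib.Discrete

set_option autoImplicit false
set_option linter.unusedSectionVars false
set_option linter.style.haveILetI false
set_option linter.unusedVariables false
set_option linter.deprecated false
open MeasureTheory Set Filter Topology
open scoped ENNReal NNReal InnerProductSpace BoundedContinuousFunction
open Crest.AnalysisR.OT

namespace Crest.Agent.S0109Lib

variable {d : ℕ} {K : Set (Eu d)}

/-- Arzelà–Ascoli extraction -/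
lemma exists_subseq_limit (h : IsBody K) (B Lip : ℝ) (hLip0 : 0 ≤ Lip) (φs : ℕ → Eu d → ℝ)
    (hLip : ∀ n, ∀ x ∈ K, ∀ x' ∈ K, |φs n x - φs n x'| ≤ Lip * ‖x - x'‖)
    (hbd : ∀ n, ∀ x ∈ K, |φs n x| ≤ B) :
    ∃ (φ : Eu d → ℝ) (σ : ℕ → ℕ), StrictMono σ ∧ ContinuousOn φ K ∧
      ∀ x ∈ K, Tendsto (fun k => φs (σ k) x) atTop (𝓝 (φ x)) := by
  classical
  haveI : CompactSpace K := isCompact_iff_compactSpace.mp h.compact
  have hL : ∀ n, LipschitzWith ⟨Lip, hLip0⟩ (fun x : K => φs n x) := by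
    intro n
    refine LipschitzWith.of_dist_le_mul fun x x' => ?_
    rw [Real.dist_eq, Subtype.dist_eq, dist_eq_norm]
    exact hLip n x x.2 x' x'.2
  let F : ℕ → (K →ᵇ ℝ) := fun n => BoundedContinuousFunction.mkOfCompact ⟨_, (hL n).continuous⟩
  let A : Set (K →ᵇ ℝ) := Set.range F
  have hcomp : IsCompact (closure A) := by
    refine BoundedContinuousFunction.arzela_ascoli (Icc (-B) B) isCompact_Icc A ?_ ?_
    · rintro f x ⟨n, rfl⟩
      exact abs_le.mp (hbd n x x.2)
    · have hL' : ∀ i : A, LipschitzWith ⟨Lip, hLip0⟩ (i : K → ℝ) := by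
        rintro ⟨_, n, rfl⟩
        exact hL n
      exact (LipschitzWith.uniformEquicontinuous (fun i : A => (i : K → ℝ)) _ hL').equicontinuous
  obtain ⟨a, -, σ, hσ, hlim⟩ := hcomp.tendsto_subseq (x := F) (fun n => subset_closure ⟨n, rfl⟩)
  refine ⟨fun x => if hx : x ∈ K then a ⟨x, hx⟩ else 0, σ, hσ, ?_, ?_⟩
  · rw [continuousOn_iff_continuous_restrict]
    convert a.continuous using 1
    funext x
    simp [Set.domRestrict]
  · intro x hx
    have h1 := (continuous_eval_const (F := K →ᵇ ℝ) (⟨x, hx⟩ : K)).tendsto a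
    have h2 := h1.comp hlim
    simpa [hx, F, Function.comp_def] using h2

/-- the optimal map of an atomic target -/
lemma exists_atomic_map {L : ℕ} (h : IsBody K) {y : Fin (L + 1) → Eu d} {ψ : Fin (L + 1) → ℝ}
    {m : Fin (L + 1) → ℝ} (hy : Function.Injective y) (hm : HasMasses K y ψ m)
    (hm0 : ∀ i, 0 ≤ m i) (hsum : ∑ i, m i = 1) :
    ∃ T : Eu d → Eu d, Measurable T ∧ (∀ x ∈ K, ∃ i, x ∈ cell K y ψ i ∧ T x = y i) ∧
      ∀ f : Eu d → ℝ, Continuous f → ∫ x, f (T x) ∂(uniformProbOn K) = ∑ i, m i * f (y i) := by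
  classical
  have hprob := h.isProbabilityMeasure
  let C : Fin (L + 1) → Set (Eu d) := fun i => cell K y ψ i
  let D : Fin (L + 1) → Set (Eu d) := disjointed C
  have hDsub : ∀ i, D i ⊆ C i := fun i => disjointed_subset C i
  have hDdisj : Pairwise (Function.onFun Disjoint D) := disjoint_disjointed C
  have hDU : ⋃ i, D i = K := by
    rw [iUnion_disjointed]
    exact iUnion_cell
  have hDmeas : ∀ i, MeasurableSet (D i) := by
    intro i
    have : D i = C i ∩ ⋂ j, ⋂ (_ : j < i), (C j)ᶜ := disjointed_eq_inter_compl C i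
    rw [this]
    refine (measurableSet_cell h i).inter (MeasurableSet.iInter fun j => MeasurableSet.iInter
      fun _ => (measurableSet_cell h j).compl)
  let T : Eu d → Eu d := fun x => ∑ i, (D i).indicator (fun _ => y i) x
  have hT : ∀ i, ∀ x ∈ D i, T x = y i := by
    intro i x hx
    simp only [T]
    rw [Finset.sum_eq_single i]
    · simp [hx]
    · intro j _ hj
      have : x ∉ D j := fun hxj => (hDdisj hj).le_bot ⟨hxj, hx⟩
      simp [this]
    · simp
  have hT0 : ∀ x, x ∉ K → T x = 0 := by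
    intro x hx
    simp only [T]
    refine Finset.sum_eq_zero fun j _ => ?_
    have : x ∉ D j := fun hxj => hx ((hDsub j hxj).1)
    simp [this]
  have hTm : Measurable T := by
    refine Finset.measurable_sum _ fun i _ => ?_
    exact measurable_const.indicator (hDmeas i)
  refine ⟨T, hTm, ?_, ?_⟩
  · intro x hx
    rw [← hDU] at hx
    obtain ⟨i, hi⟩ := mem_iUnion.mp hx
    exact ⟨i, hDsub i hi, hT i x hi⟩
  · intro f hf
    -- the masses of the disjointed cells
    have hreal : ∀ i, (uniformProbOn K).real (D i) = m i := by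
      have hle : ∀ i ∈ (Finset.univ : Finset (Fin (L + 1))), (uniformProbOn K).real (D i) ≤ m i := by
        intro i _
        rw [← real_mass hm hm0 i]
        exact measureReal_mono (hDsub i)
      have hs : ∑ i, (uniformProbOn K).real (D i) = ∑ i, m i := by
        rw [hsum, ← measureReal_iUnion_fintype (fun i j hij => hDdisj hij) hDmeas, hDU]
        have : (uniformProbOn K) K = 1 := by
          have h1 := prob_compl_eq_zero_iff (μ := uniformProbOn K) h.measurableSet
          exact h1.mp (uniformProbOn_compl h)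
        simp [Measure.real, this]
      have := (Finset.sum_eq_sum_iff_of_le hle).mp hs
      exact fun i => this i (Finset.mem_univ i)
    -- integrability
    have hbd : ∀ x, |f (T x)| ≤ |f 0| + ∑ i, |f (y i)| := by
      intro x
      have hsum0 : 0 ≤ ∑ i, |f (y i)| := Finset.sum_nonneg fun _ _ => abs_nonneg _
      by_cases hx : x ∈ K
      · rw [← hDU] at hx
        obtain ⟨i, hi⟩ := mem_iUnion.mp hx
        rw [hT i x hi]
        have := Finset.single_le_sum (f := fun i => |f (y i)|) (fun _ _ => abs_nonneg _)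
          (Finset.mem_univ i)
        have h0 := abs_nonneg (f 0)
        linarith
      · rw [hT0 x hx]
        linarith
    have hint : Integrable (fun x => f (T x)) (uniformProbOn K) :=
      Integrable.of_bound (hf.measurable.comp hTm).aestronglyMeasurable _
        (Eventually.of_forall fun x => by simpa [Real.norm_eq_abs] using hbd x)
    have e0 : ∫ x, f (T x) ∂(uniformProbOn K) = ∫ x in ⋃ i, D i, f (T x) ∂(uniformProbOn K) := by
      rw [hDU, restrict_uniform h]
    rw [e0, integral_iUnion hDmeas (fun i j hij => hDdisj hij) hint.integrableOn, tsum_fintype]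
    refine Finset.sum_congr rfl fun i _ => ?_
    have e1 : ∫ x in D i, f (T x) ∂(uniformProbOn K) = ∫ _x in D i, f (y i) ∂(uniformProbOn K) :=
      setIntegral_congr_fun (hDmeas i) fun x hx => by simp only [hT i x hx]
    rw [e1, setIntegral_const, hreal, smul_eq_mul]

lemma integral_sq_sub_const {μ : Measure (Eu d)} [IsProbabilityMeasure μ] {w : Eu d → ℝ}
    (hi1 : Integrable w μ) (hi2 : Integrable (fun x => w x ^ 2) μ) (c : ℝ) :
    ∫ x, (w x - c) ^ 2 ∂μ = ∫ x, w x ^ 2 ∂μ - 2 * c * ∫ x, w x ∂μ + c ^ 2 := by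
  have e : ∀ x, (w x - c) ^ 2 = (w x ^ 2 - (2 * c) * w x) + c ^ 2 := fun x => by ring
  simp_rw [e]
  have hs : Integrable (fun x => w x ^ 2 - (2 * c) * w x) μ := hi2.sub (hi1.const_mul _)
  rw [integral_add hs (integrable_const _), integral_sub hi2 (hi1.const_mul _), integral_const_mul]
  simp

/-- the main theorem, from the work packages. -/
theorem mainBound (hA : CouplingApprox d) (hE : SemiDiscreteExistence d) (hDB : DiscreteBound d)
    (hO : OptimalIsSubgradient d) (hG : GagliardoNirenberg d) (h : IsBody K)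
    (Y : Set (Eu d)) (hYc : IsCompact Y) :
    ∃ C : ℝ≥0, ∀ μ ν : Measure (Eu d), IsProbabilityOn Y μ → IsProbabilityOn Y ν →
      ∀ Tμ Tν : Eu d → Eu d,
        IsOptimalMap (uniformProbOn K) μ Tμ → IsOptimalMap (uniformProbOn K) ν Tν →
        ∀ π : Measure (Eu d × Eu d), IsPairCoupling μ ν π →
          ∫⁻ x, ‖Tμ x - Tν x‖ₑ ^ 2 ∂(uniformProbOn K) ≤ C * quadCost π ^ (1 / 3 : ℝ) := by
  classical
  have hprob := h.isProbabilityMeasure
  obtain ⟨r, hr⟩ := hYc.isBounded.subset_closedBall (0 : Eu d)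
  let R : ℝ := max r 0
  have hR : 0 ≤ R := le_max_right _ _
  have hYR : Y ⊆ Metric.closedBall 0 R :=
    hr.trans (Metric.closedBall_subset_closedBall (le_max_left _ _))
  obtain ⟨r', hr'⟩ := h.compact.isBounded.subset_closedBall (0 : Eu d)
  let D : ℝ := max r' 1
  have hD : 0 < D := lt_of_lt_of_le one_pos (le_max_right _ _)
  have hKD : ∀ x ∈ K, ‖x‖ ≤ D := fun x hx => by
    have := hr' hx
    rw [mem_closedBall_zero_iff] at this
    exact this.trans (le_max_left _ _)
  obtain ⟨C₁, hC₁⟩ := hG K R h hR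
  let C₂ : ℝ≥0 := (Real.toNNReal (500 * D ^ 2)) ^ (1 / 3 : ℝ)
  refine ⟨C₁ * C₂, ?_⟩
  rintro μ ν ⟨hμp, hμY⟩ ⟨hνp, hνY⟩ Tμ Tν hTμ hTν π hπ
  have hμR : μ (Metric.closedBall 0 R)ᶜ = 0 := measure_mono_null (compl_subset_compl.mpr hYR) hμY
  have hνR : ν (Metric.closedBall 0 R)ᶜ = 0 := measure_mono_null (compl_subset_compl.mpr hYR) hνY
  obtain ⟨L, m, a, b, hm0, hsum, ha, hb, haR, hbR, hfa, hfb, hQ⟩ := hA R μ ν π hR hμp hνp hμR hνR hπ
  -- potentials and maps
  have hexa := fun n => hE K h (a n) (m n) (ha n) (hm0 n) (hsum n)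
  have hexb := fun n => hE K h (b n) (m n) (hb n) (hm0 n) (hsum n)
  choose ψa hψa using hexa
  choose ψb hψb using hexb
  have hmapa := fun n => exists_atomic_map h (ha n) (hψa n) (fun i => (hm0 n i).le) (hsum n)
  have hmapb := fun n => exists_atomic_map h (hb n) (hψb n) (fun i => (hm0 n i).le) (hsum n)
  choose Ta hTam hTac hTai using hmapa
  choose Tb hTbm hTbc hTbi using hmapb
  obtain ⟨x₀, hx₀⟩ : K.Nonempty := h.interior_nonempty.mono interior_subset
  let φa : ℕ → Eu d → ℝ := fun n x => pot (a n) (ψa n) x - pot (a n) (ψa n) x₀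
  let φb : ℕ → Eu d → ℝ := fun n x => pot (b n) (ψb n) x - pot (b n) (ψb n) x₀
  have hLa : ∀ n, ∀ x ∈ K, ∀ x' ∈ K, |φa n x - φa n x'| ≤ (R + 1) * ‖x - x'‖ := by
    intro n x _ x' _
    have := abs_pot_sub_le (y := a n) (ψ := ψa n) (B := R + 1) (haR n) x x'
    simpa [φa] using this
  have hLb : ∀ n, ∀ x ∈ K, ∀ x' ∈ K, |φb n x - φb n x'| ≤ (R + 1) * ‖x - x'‖ := by
    intro n x _ x' _
    have := abs_pot_sub_le (y := b n) (ψ := ψb n) (B := R + 1) (hbR n) x x'
    simpa [φb] using this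
  let B : ℝ := (R + 1) * (2 * D)
  have hdist : ∀ x ∈ K, ‖x - x₀‖ ≤ 2 * D := fun x hx => by
    have := norm_sub_le x x₀
    have h1 := hKD x hx
    have h2 := hKD x₀ hx₀
    linarith
  have hbda : ∀ n, ∀ x ∈ K, |φa n x| ≤ B := by
    intro n x hx
    have := abs_pot_sub_le (y := a n) (ψ := ψa n) (B := R + 1) (haR n) x x₀
    refine this.trans ?_
    simp only [B]
    gcongr
    exact hdist x hx
  have hbdb : ∀ n, ∀ x ∈ K, |φb n x| ≤ B := by
    intro n x hx
    have := abs_pot_sub_le (y := b n) (ψ := ψb n) (B := R + 1) (hbR n) x x₀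
    refine this.trans ?_
    simp only [B]
    gcongr
    exact hdist x hx
  have hR1 : 0 ≤ R + 1 := by linarith
  -- extraction
  obtain ⟨φA, σ₁, hσ₁, hφAc, hφAl⟩ := exists_subseq_limit h B (R + 1) hR1 φa hLa hbda
  obtain ⟨φB, σ₂, hσ₂, hφBc, hφBl⟩ := exists_subseq_limit h B (R + 1) hR1 (fun n => φb (σ₁ n))
    (fun n => hLb _) (fun n => hbdb _)
  let σ : ℕ → ℕ := fun k => σ₁ (σ₂ k)
  have hσ : StrictMono σ := hσ₁.comp hσ₂
  have hφAl' : ∀ x ∈ K, Tendsto (fun k => φa (σ k) x) atTop (𝓝 (φA x)) :=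
    fun x hx => (hφAl x hx).comp hσ₂.tendsto_atTop
  -- subgradients
  have hsubA : ∀ᵐ x ∂(uniformProbOn K), ∀ a' ∈ K, φA x + ⟪Tμ x, a' - x⟫_ℝ ≤ φA a' := by
    refine hO K R h hR μ Tμ hμp hμR hTμ (fun k => φa (σ k)) (fun k => Ta (σ k)) φA
      (fun k => hTam _) ?_ ?_ hφAl' ?_
    · intro k x hx
      obtain ⟨i, -, hi⟩ := hTac (σ k) x hx
      rw [hi]
      exact haR _ _
    · intro k x hx a' _
      obtain ⟨i, hi, hTi⟩ := hTac (σ k) x hx
      rw [hTi]
      have := subgradient_of_mem_cell hi a'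
      simp only [φa]
      linarith
    · intro f hf
      have h1 := (hfa f hf).comp hσ.tendsto_atTop
      refine h1.congr fun k => ?_
      simp only [Function.comp]
      rw [hTai _ f hf]
  have hsubB : ∀ᵐ x ∂(uniformProbOn K), ∀ a' ∈ K, φB x + ⟪Tν x, a' - x⟫_ℝ ≤ φB a' := by
    refine hO K R h hR ν Tν hνp hνR hTν (fun k => φb (σ k)) (fun k => Tb (σ k)) φB
      (fun k => hTbm _) ?_ ?_ hφBl ?_
    · intro k x hx
      obtain ⟨i, -, hi⟩ := hTbc (σ k) x hx
      rw [hi]
      exact hbR _ _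
    · intro k x hx a' _
      obtain ⟨i, hi, hTi⟩ := hTbc (σ k) x hx
      rw [hTi]
      have := subgradient_of_mem_cell hi a'
      simp only [φb]
      linarith
    · intro f hf
      have h1 := (hfb f hf).comp hσ.tendsto_atTop
      refine h1.congr fun k => ?_
      simp only [Function.comp]
      rw [hTbi _ f hf]
  -- a.e. bounds
  have haeT : ∀ {T : Eu d → Eu d} {μ' : Measure (Eu d)}, IsOptimalMap (uniformProbOn K) μ' T →
      μ' (Metric.closedBall 0 R)ᶜ = 0 → ∀ᵐ x ∂(uniformProbOn K), ‖T x‖ ≤ R := by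
    intro T μ' hT hμ'
    have h1 : ∀ᵐ y ∂((uniformProbOn K).map T), y ∈ Metric.closedBall (0 : Eu d) R := by
      rw [hT.2.1]
      exact measure_eq_zero_iff_ae_notMem.mp hμ' |>.mono fun y hy => by simpa using hy
    have h2 := ae_of_ae_map hT.1.aemeasurable h1
    exact h2.mono fun x hx => by simpa using hx
  -- the limit functions
  let U : Eu d → ℝ := fun x => φB x - φA x
  let Us : ℕ → Eu d → ℝ := fun k x => φb (σ k) x - φa (σ k) x
  have hUsc : ∀ k, Continuous (Us k) := by
    intro k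
    simp only [Us, φa, φb]
    exact ((continuous_pot.sub continuous_const).sub (continuous_pot.sub continuous_const))
  have hUl : ∀ x ∈ K, Tendsto (fun k => Us k x) atTop (𝓝 (U x)) :=
    fun x hx => (hφBl x hx).sub (hφAl' x hx)
  have hUsbd : ∀ k, ∀ x ∈ K, |Us k x| ≤ 2 * B := by
    intro k x hx
    have h1 := hbdb (σ k) x hx
    have h2 := hbda (σ k) x hx
    have := abs_sub (φb (σ k) x) (φa (σ k) x)
    simp only [Us]
    linarith
  have hae_K := ae_uniform_mem h
  have hUlae : ∀ᵐ x ∂(uniformProbOn K), Tendsto (fun k => Us k x) atTop (𝓝 (U x)) :=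
    hae_K.mono fun x hx => hUl x hx
  have hUm : AEStronglyMeasurable U (uniformProbOn K) :=
    aestronglyMeasurable_of_tendsto_ae atTop
      (fun k => (hUsc k).aestronglyMeasurable) hUlae
  have hUbd : ∀ᵐ x ∂(uniformProbOn K), |U x| ≤ 2 * B :=
    hae_K.mono fun x hx => le_of_tendsto (((hUl x hx).abs))
      (Eventually.of_forall fun k => hUsbd k x hx)
  have hUi : Integrable U (uniformProbOn K) :=
    Integrable.of_bound hUm (2 * B) (hUbd.mono fun x hx => by simpa [Real.norm_eq_abs] using hx)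
  have hUsq_bd : ∀ᵐ x ∂(uniformProbOn K), |U x ^ 2| ≤ (2 * B) ^ 2 :=
    hUbd.mono fun x hx => by
      rw [abs_pow]
      exact pow_le_pow_left₀ (abs_nonneg _) hx 2
  have hUi2 : Integrable (fun x => U x ^ 2) (uniformProbOn K) :=
    Integrable.of_bound (hUm.pow 2) ((2 * B) ^ 2)
      (hUsq_bd.mono fun x hx => by simpa [Real.norm_eq_abs] using hx)
  -- dominated convergence
  have hlim1 : Tendsto (fun k => ∫ x, Us k x ∂(uniformProbOn K)) atTop
      (𝓝 (∫ x, U x ∂(uniformProbOn K))) := by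
    refine tendsto_integral_of_dominated_convergence (fun _ => 2 * B)
      (fun k => (hUsc k).aestronglyMeasurable) (integrable_const _) ?_ hUlae
    intro k
    exact hae_K.mono fun x hx => by simpa [Real.norm_eq_abs] using hUsbd k x hx
  have hlim2 : Tendsto (fun k => ∫ x, Us k x ^ 2 ∂(uniformProbOn K)) atTop
      (𝓝 (∫ x, U x ^ 2 ∂(uniformProbOn K))) := by
    refine tendsto_integral_of_dominated_convergence (fun _ => (2 * B) ^ 2)
      (fun k => ((hUsc k).pow 2).aestronglyMeasurable) (integrable_const _) ?_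
      (hUlae.mono fun x hx => hx.pow 2)
    intro k
    refine hae_K.mono fun x hx => ?_
    rw [Real.norm_eq_abs, abs_pow]
    exact pow_le_pow_left₀ (abs_nonneg _) (hUsbd k x hx) 2
  -- variance along the sequence
  let Qs : ℕ → ℝ := fun n => ∑ i, m n i * ‖a n i - b n i‖ ^ 2
  have hvar : ∀ k, ∫ x, Us k x ^ 2 ∂(uniformProbOn K) - (∫ x, Us k x ∂(uniformProbOn K)) ^ 2
      ≤ 500 * D ^ 2 * Qs (σ k) := by
    intro k
    obtain ⟨c, hc⟩ := hDB K D h hD hKD (m (σ k)) (a (σ k)) (b (σ k)) (ψa (σ k)) (ψb (σ k))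
      (hm0 _) (hsum _) (ha _) (hb _) (hψa _) (hψb _)
    have e1 : ∑ i, m (σ k) i * ‖b (σ k) i - a (σ k) i‖ ^ 2 = Qs (σ k) := by
      simp only [Qs]
      exact Finset.sum_congr rfl fun i _ => by rw [norm_sub_rev]
    rw [e1] at hc
    -- shift constant
    let c' : ℝ := c - (pot (b (σ k)) (ψb (σ k)) x₀ - pot (a (σ k)) (ψa (σ k)) x₀)
    have e2 : ∀ x, pot (b (σ k)) (ψb (σ k)) x - pot (a (σ k)) (ψa (σ k)) x - c = Us k x - c' := by
      intro x
      simp only [Us, φa, φb, c']
      ring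
    simp only [e2] at hc
    have hi1 : Integrable (Us k) (uniformProbOn K) := integrable_uniform h (hUsc k)
    have hi2 : Integrable (fun x => Us k x ^ 2) (uniformProbOn K) :=
      integrable_uniform h ((hUsc k).pow 2)
    have e3 := integral_sq_sub_const hi1 hi2 c'
    rw [e3] at hc
    nlinarith [sq_nonneg (∫ x, Us k x ∂(uniformProbOn K) - c')]
  -- the limit
  set c : ℝ := ∫ x, U x ∂(uniformProbOn K) with hcdef
  have hX : ∫ x, (φB x - φA x - c) ^ 2 ∂(uniformProbOn K)
      = ∫ x, U x ^ 2 ∂(uniformProbOn K) - c ^ 2 := by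
    have e3 := integral_sq_sub_const hUi hUi2 c
    have e4 : ∫ x, (φB x - φA x - c) ^ 2 ∂(uniformProbOn K)
        = ∫ x, (U x - c) ^ 2 ∂(uniformProbOn K) := rfl
    rw [e4, e3, ← hcdef]
    ring
  set X : ℝ := ∫ x, (φB x - φA x - c) ^ 2 ∂(uniformProbOn K) with hXdef
  have hlimvar : Tendsto (fun k => ∫ x, Us k x ^ 2 ∂(uniformProbOn K)
      - (∫ x, Us k x ∂(uniformProbOn K)) ^ 2) atTop (𝓝 X) := by
    rw [hX]
    exact hlim2.sub (hlim1.pow 2)
  have hXle : ENNReal.ofReal X ≤ ENNReal.ofReal (500 * D ^ 2) * quadCost π := by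
    by_cases hQtop : quadCost π = ∞
    · rw [hQtop, ENNReal.mul_top]
      · exact le_top
      · simp only [ne_eq, ENNReal.ofReal_eq_zero, not_le]
        positivity
    · have hQreal : ∀ ε : ℝ, 0 < ε → X ≤ 500 * D ^ 2 * ((quadCost π).toReal + ε) := by
        intro ε hε
        have hev := hσ.tendsto_atTop.eventually (hQ ε hε)
        refine le_of_tendsto hlimvar (hev.mono fun k hk => ?_)
        refine (hvar k).trans ?_
        have : Qs (σ k) ≤ (quadCost π).toReal + ε := by
          have h3 : ENNReal.ofReal (Qs (σ k)) ≤ ENNReal.ofReal ((quadCost π).toReal + ε) := by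
            rw [ENNReal.ofReal_add ENNReal.toReal_nonneg hε.le, ENNReal.ofReal_toReal hQtop]
            exact hk
          exact (ENNReal.ofReal_le_ofReal_iff (by positivity)).mp h3
        gcongr
      have hXq : X ≤ 500 * D ^ 2 * (quadCost π).toReal := by
        refine le_of_forall_pos_le_add fun δ hδ => ?_
        have hpos : 0 < 500 * D ^ 2 := by positivity
        have := hQreal (δ / (500 * D ^ 2)) (by positivity)
        have e : 500 * D ^ 2 * ((quadCost π).toReal + δ / (500 * D ^ 2))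
            = 500 * D ^ 2 * (quadCost π).toReal + δ := by
          field_simp
        linarith
      calc ENNReal.ofReal X ≤ ENNReal.ofReal (500 * D ^ 2 * (quadCost π).toReal) :=
            ENNReal.ofReal_le_ofReal hXq
        _ = _ := by
            rw [ENNReal.ofReal_mul (by positivity), ENNReal.ofReal_toReal hQtop]
  -- Gagliardo–Nirenberg
  have hGN := hC₁ φA φB Tμ Tν c hφAc hφBc hTμ.1 hTν.1 (haeT hTμ hμR) (haeT hTν hνR) hsubA hsubB
  refine hGN.trans ?_
  have hthird : (0 : ℝ) ≤ 1 / 3 := by norm_num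
  have e5 : ((C₁ * C₂ : ℝ≥0) : ℝ≥0∞) * quadCost π ^ (1 / 3 : ℝ)
      = (C₁ : ℝ≥0∞) * ((ENNReal.ofReal (500 * D ^ 2)) * quadCost π) ^ (1 / 3 : ℝ) := by
    rw [ENNReal.mul_rpow_of_nonneg _ _ hthird, ENNReal.coe_mul, mul_assoc]
    congr 2
    simp only [C₂]
    rw [ENNReal.coe_rpow_of_nonneg _ hthird]
    rfl
  rw [e5]
  gcongr

end Crest.Agent.S0109Lib
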