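/-
WP: the Gagliardo–Nirenberg step for S0109 (translation argument).
-/
import Crest.Agent.S0109Lib.Basic

set_option autoImplicit false
open MeasureTheory Set Filter Topology
open scoped ENNReal NNReal InnerProductSpace
open Crest.AnalysisR.OT

namespace Crest.Agent.S0109Lib

namespace GNAux

variable {d : ℕ}

lemma sq_le_of_bounds {W s a b B : ℝ} (hW : |W| ≤ B) (h1 : W - s ≤ a) (h2 : s - W ≤ b)
    (ha : 0 ≤ a) (hb : 0 ≤ b) : W ^ 2 ≤ s ^ 2 + 2 * B * (a + b) := by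
  have hB : 0 ≤ B := (abs_nonneg _).trans hW
  have h3 : |W - s| ≤ a + b := by
    rw [abs_le]; constructor <;> linarith
  have h4 : W * (W - s) ≤ B * (a + b) := by
    calc W * (W - s) ≤ |W * (W - s)| := le_abs_self _
      _ = |W| * |W - s| := abs_mul _ _
      _ ≤ B * (a + b) := by gcongr
  nlinarith [sq_nonneg (W - s)]

/-- Pointwise estimate from the subgradient inequalities at `x` and `x + t e`. -/
lemma pointwise {K : Set (Eu d)} {R : ℝ} {φ₀ φ₁ : Eu d → ℝ} {T₀ T₁ : Eu d → Eu d} {c : ℝ}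
    {e : Eu d} (he : ‖e‖ = 1) {t : ℝ} (ht : 0 < t) {x : Eu d}
    (hx : x ∈ K) (hx' : x + t • e ∈ K)
    (b₀ : ‖T₀ x‖ ≤ R) (b₁ : ‖T₁ x‖ ≤ R)
    (s₀ : ∀ a ∈ K, φ₀ x + ⟪T₀ x, a - x⟫_ℝ ≤ φ₀ a)
    (s₁ : ∀ a ∈ K, φ₁ x + ⟪T₁ x, a - x⟫_ℝ ≤ φ₁ a)
    (s₀' : ∀ a ∈ K, φ₀ (x + t • e) + ⟪T₀ (x + t • e), a - (x + t • e)⟫_ℝ ≤ φ₀ a)
    (s₁' : ∀ a ∈ K, φ₁ (x + t • e) + ⟪T₁ (x + t • e), a - (x + t • e)⟫_ℝ ≤ φ₁ a) :
    ⟪T₀ x - T₁ x, e⟫_ℝ ^ 2 ≤
      2 / t ^ 2 * ((φ₁ x - φ₀ x - c) ^ 2 + (φ₁ (x + t • e) - φ₀ (x + t • e) - c) ^ 2) +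
      4 * R * ((⟪T₀ (x + t • e), e⟫_ℝ - ⟪T₀ x, e⟫_ℝ) + (⟪T₁ (x + t • e), e⟫_ℝ - ⟪T₁ x, e⟫_ℝ)) := by
  set x' := x + t • e with hx'def
  have e1 : x' - x = t • e := by simp [hx'def]
  have e2 : x - x' = -(t • e) := by simp [hx'def]
  have a1 := s₀ x' hx'
  have a2 := s₁ x' hx'
  have a3 := s₀' x hx
  have a4 := s₁' x hx
  rw [e1, inner_smul_right] at a1 a2
  rw [e2, inner_neg_right, inner_smul_right] at a3 a4
  set G₀ := ⟪T₀ x, e⟫_ℝ
  set G₁ := ⟪T₁ x, e⟫_ℝ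
  set G₀' := ⟪T₀ x', e⟫_ℝ
  set G₁' := ⟪T₁ x', e⟫_ℝ
  have hW : ⟪T₀ x - T₁ x, e⟫_ℝ = G₀ - G₁ := by rw [inner_sub_left]
  have hbd : |G₀ - G₁| ≤ 2 * R := by
    have h0 : |G₀| ≤ R := by
      calc |G₀| ≤ ‖T₀ x‖ * ‖e‖ := abs_real_inner_le_norm _ _
        _ ≤ R := by rw [he, mul_one]; exact b₀
    have h1 : |G₁| ≤ R := by
      calc |G₁| ≤ ‖T₁ x‖ * ‖e‖ := abs_real_inner_le_norm _ _
        _ ≤ R := by rw [he, mul_one]; exact b₁
    calc |G₀ - G₁| ≤ |G₀| + |G₁| := abs_sub _ _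
      _ ≤ 2 * R := by linarith
  have hmono₀ : 0 ≤ G₀' - G₀ := by
    have : 0 ≤ t * (G₀' - G₀) := by nlinarith
    exact nonneg_of_mul_nonneg_right this ht
  have hmono₁ : 0 ≤ G₁' - G₁ := by
    have : 0 ≤ t * (G₁' - G₁) := by nlinarith
    exact nonneg_of_mul_nonneg_right this ht
  set Δu := (φ₁ x - φ₀ x - c) - (φ₁ x' - φ₀ x' - c) with hΔu
  have h1 : (G₀ - G₁) - Δu / t ≤ G₁' - G₁ := by
    have : t * G₀ - t * G₁' ≤ Δu := by simp only [hΔu]; nlinarith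
    have h' : G₀ - G₁' ≤ Δu / t := by
      rw [le_div_iff₀ ht]; nlinarith
    linarith
  have h2 : Δu / t - (G₀ - G₁) ≤ G₀' - G₀ := by
    have : Δu ≤ t * G₀' - t * G₁ := by simp only [hΔu]; nlinarith
    have h' : Δu / t ≤ G₀' - G₁ := by
      rw [div_le_iff₀ ht]; nlinarith
    linarith
  have key := sq_le_of_bounds hbd h1 h2 hmono₁ hmono₀
  rw [hW]
  have hs : (Δu / t) ^ 2 ≤
      2 / t ^ 2 * ((φ₁ x - φ₀ x - c) ^ 2 + (φ₁ x' - φ₀ x' - c) ^ 2) := by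
    rw [div_pow, div_mul_eq_mul_div, div_le_div_iff_of_pos_right (by positivity)]
    simp only [hΔu]
    nlinarith [sq_nonneg ((φ₁ x - φ₀ x - c) + (φ₁ x' - φ₀ x' - c))]
  nlinarith

/-- The volume lost when a convex body is shifted. -/
lemma volume_shift {K : Set (Eu d)} (hK : IsBody K) :
    ∃ κ : ℝ, 0 ≤ κ ∧ ∀ h : Eu d, vol {x | x ∈ K ∧ x + h ∉ K} ≤ κ * ‖h‖ * vol K := by
  obtain ⟨z, hz⟩ := hK.interior_nonempty
  have hznhds : K ∈ 𝓝 z := mem_interior_iff_mem_nhds.mp hz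
  obtain ⟨r, hr, hball⟩ := Metric.nhds_basis_closedBall.mem_iff.mp hznhds
  refine ⟨(d + 1) / r, by positivity, fun h => ?_⟩
  have hvK := hK.real_vol_pos
  have hfin : volume K ≠ ∞ := hK.vol_ne_top
  have hsub : {x | x ∈ K ∧ x + h ∉ K} ⊆ K := fun x hx => hx.1
  by_cases hh : r ≤ ‖h‖
  · have h1 : vol {x | x ∈ K ∧ x + h ∉ K} ≤ vol K :=
      ENNReal.toReal_mono hfin (measure_mono hsub)
    have h2 : 1 ≤ ((d : ℝ) + 1) / r * ‖h‖ := by
      rw [div_mul_eq_mul_div, one_le_div hr]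
      have : (0 : ℝ) ≤ d := Nat.cast_nonneg d
      nlinarith [norm_nonneg h]
    nlinarith
  · push Not at hh
    set lam : ℝ := 1 - ‖h‖ / r with hlam
    have hq : ‖h‖ / r < 1 := (div_lt_one hr).mpr hh
    have hq0 : 0 ≤ ‖h‖ / r := by positivity
    have hlam0 : 0 < lam := by simp only [hlam]; linarith
    have hlam1 : lam ≤ 1 := by simp only [hlam]; linarith
    let S : Set (Eu d) := AffineMap.homothety z lam '' K
    have hzK : z ∈ K := hball (Metric.mem_closedBall_self hr.le)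
    let v : Eu d := (r / ‖h‖) • h
    have hv : (1 - lam) • v = h := by
      by_cases h0 : h = 0
      · simp [v, h0]
      · have : ‖h‖ ≠ 0 := norm_ne_zero_iff.mpr h0
        simp only [v, hlam, smul_smul]
        have e : (1 - (1 - ‖h‖ / r)) * (r / ‖h‖) = 1 := by field_simp; ring
        rw [e, one_smul]
    have hvn : ‖v‖ ≤ r := by
      by_cases h0 : h = 0
      · simp [v, h0, hr.le]
      · have : ‖h‖ ≠ 0 := norm_ne_zero_iff.mpr h0
        simp only [v, norm_smul, Real.norm_eq_abs]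
        rw [abs_of_nonneg (by positivity)]
        field_simp
        exact le_refl _
    have hzv : z + v ∈ K := hball (by simpa [Metric.mem_closedBall, dist_eq_norm] using hvn)
    have hSsub : S ⊆ {x | x ∈ K ∧ x + h ∈ K} := by
      rintro x ⟨k, hk, rfl⟩
      have hx : AffineMap.homothety z lam k = (1 - lam) • z + lam • k := by
        simp only [AffineMap.homothety_apply, vsub_eq_sub, vadd_eq_add, smul_sub, sub_smul, one_smul]
        abel
      constructor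
      · rw [hx]
        exact hK.convex hzK hk (by linarith) hlam0.le (by ring)
      · rw [hx]
        have : (1 - lam) • z + lam • k + h = (1 - lam) • (z + v) + lam • k := by
          rw [smul_add, hv]; abel
        rw [this]
        exact hK.convex hzv hk (by linarith) hlam0.le (by ring)
    have hScomp : IsCompact S :=
      hK.compact.image (AffineMap.homothety_continuous z lam)
    have hSm : MeasurableSet S := hScomp.isClosed.measurableSet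
    have hSvol : volume S = ENNReal.ofReal (|lam ^ Module.finrank ℝ (Eu d)|) * volume K :=
      Measure.addHaar_image_homothety volume z lam K
    have hdim : Module.finrank ℝ (Eu d) = d := by simp
    rw [hdim, abs_of_nonneg (by positivity)] at hSvol
    have hdiff : {x | x ∈ K ∧ x + h ∉ K} ⊆ K \ S := by
      rintro x ⟨hxK, hxh⟩
      refine ⟨hxK, fun hxS => hxh (hSsub hxS).2⟩
    have hSK : S ⊆ K := fun x hx => (hSsub hx).1
    have hSfin : volume S ≠ ∞ := ne_top_of_le_ne_top hfin (measure_mono hSK)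
    have h3 : vol {x | x ∈ K ∧ x + h ∉ K} ≤ vol K - vol S := by
      have : vol {x | x ∈ K ∧ x + h ∉ K} ≤ vol (K \ S) := by
        refine ENNReal.toReal_mono ?_ (measure_mono hdiff)
        exact ne_top_of_le_ne_top hfin (measure_mono sdiff_subset)
      refine this.trans (le_of_eq ?_)
      unfold vol
      rw [measure_sdiff hSK hSm.nullMeasurableSet hSfin, ENNReal.toReal_sub_of_le (measure_mono hSK) hfin]
    have h4 : vol S = lam ^ d * vol K := by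
      unfold vol
      rw [hSvol, ENNReal.toReal_mul, ENNReal.toReal_ofReal (by positivity)]
    have h5 : 1 + (d : ℝ) * (lam - 1) ≤ lam ^ d := by
      have := one_add_mul_le_pow (a := lam - 1) (by linarith) d
      simpa using this
    rw [h4] at h3
    have h6 : 1 - lam ^ d ≤ ((d : ℝ) + 1) / r * ‖h‖ := by
      have e : ((d : ℝ) + 1) / r * ‖h‖ = ((d : ℝ) + 1) * (1 - lam) := by
        simp only [hlam]; ring
      rw [e]
      have : (0 : ℝ) ≤ 1 - lam := by linarith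
      have hd : (0 : ℝ) ≤ d := Nat.cast_nonneg d
      nlinarith
    nlinarith

/-- Differences of integrals over big subsets of `K`. -/
lemma delta_bound {K S₁ S₂ : Set (Eu d)} (hK : IsBody K) {R : ℝ} {g : Eu d → ℝ}
    (hg : IntegrableOn g K) (hgb : ∀ᵐ x ∂(volume.restrict K), |g x| ≤ R)
    (hS₁ : MeasurableSet S₁) (hS₂ : MeasurableSet S₂) (h₁ : S₁ ⊆ K) (h₂ : S₂ ⊆ K) :
    (∫ x in S₁, g x) - ∫ x in S₂, g x ≤ R * (vol (K \ S₁) + vol (K \ S₂)) := by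
  have e₁ := setIntegral_sdiff hS₁ hg h₁
  have e₂ := setIntegral_sdiff hS₂ hg h₂
  have hfin : volume K < ∞ := hK.compact.measure_lt_top
  have b : ∀ S : Set (Eu d), |∫ x in K \ S, g x| ≤ R * vol (K \ S) := by
    intro S
    have h := norm_setIntegral_le_of_norm_le_const_ae (μ := volume) (s := K \ S) (f := g) (C := R)
      (lt_of_le_of_lt (measure_mono sdiff_subset) hfin)
      (ae_mono (Measure.restrict_mono sdiff_subset le_rfl)
        (by filter_upwards [hgb] with x hx; simpa using hx))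
    simpa [vol, Measure.real] using h
  have b₁ := (abs_le.mp (b S₁)).1
  have b₂ := (abs_le.mp (b S₂)).2
  rw [e₁] at b₁
  rw [e₂] at b₂
  rw [mul_add]
  linarith

/-- The estimate in one direction. -/
lemma one_direction {K : Set (Eu d)} (hK : IsBody K) {R : ℝ} (hR : 0 ≤ R)
    {φ₀ φ₁ : Eu d → ℝ} {T₀ T₁ : Eu d → Eu d} {c : ℝ}
    (hφ₀ : ContinuousOn φ₀ K) (hφ₁ : ContinuousOn φ₁ K) (hT₀ : Measurable T₀) (hT₁ : Measurable T₁)
    (hgood : ∀ᵐ x ∂(volume : Measure (Eu d)), x ∈ K →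
        ‖T₀ x‖ ≤ R ∧ ‖T₁ x‖ ≤ R ∧ (∀ a ∈ K, φ₀ x + ⟪T₀ x, a - x⟫_ℝ ≤ φ₀ a) ∧
          (∀ a ∈ K, φ₁ x + ⟪T₁ x, a - x⟫_ℝ ≤ φ₁ a))
    {e : Eu d} (he : ‖e‖ = 1) {t : ℝ} (ht : 0 < t) :
    ∫ x in K, ⟪T₀ x - T₁ x, e⟫_ℝ ^ 2 ≤
      4 / t ^ 2 * (∫ x in K, (φ₁ x - φ₀ x - c) ^ 2)
        + 12 * R ^ 2 * vol {x | x ∈ K ∧ x + t • e ∉ K}
        + 8 * R ^ 2 * vol {x | x ∈ K ∧ x + -(t • e) ∉ K} := by
  set h : Eu d := t • e with hh
  have hKm : MeasurableSet K := hK.measurableSet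
  have hfin : volume K ≠ ∞ := hK.vol_ne_top
  set Kp : Set (Eu d) := {x | x ∈ K ∧ x + h ∈ K} with hKp
  set Km : Set (Eu d) := {x | x ∈ K ∧ x + -h ∈ K} with hKm'
  have hshift_meas : Measurable fun x : Eu d => x + h := measurable_add_const h
  have hKpm : MeasurableSet Kp := hKm.inter (hshift_meas hKm)
  have hKmm : MeasurableSet Km := hKm.inter ((measurable_add_const (-h)) hKm)
  have hKpK : Kp ⊆ K := fun x hx => hx.1
  have hKmK : Km ⊆ K := fun x hx => hx.1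
  have hpre : (fun x : Eu d => x + h) ⁻¹' Km = Kp := by
    ext x
    simp only [mem_preimage, hKm', hKp, mem_ofPred_eq, add_neg_cancel_right]
    tauto
  have hmp : MeasurePreserving (fun x : Eu d => x + h) volume volume :=
    measurePreserving_add_right volume h
  have hme : MeasurableEmbedding (fun x : Eu d => x + h) :=
    (MeasurableEquiv.addRight h).measurableEmbedding
  have shift_int : ∀ f : Eu d → ℝ, ∫ x in Kp, f (x + h) = ∫ x in Km, f x := by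
    intro f
    rw [← hpre]
    exact hmp.setIntegral_preimage_emb hme f Km
  have shift_intble : ∀ f : Eu d → ℝ, IntegrableOn f Km → IntegrableOn (fun x => f (x + h)) Kp := by
    intro f hf
    rw [← hpre]
    exact (hmp.integrableOn_comp_preimage hme).mpr hf
  have hgoodr : ∀ᵐ x ∂(volume.restrict K), ‖T₀ x‖ ≤ R ∧ ‖T₁ x‖ ≤ R := by
    rw [ae_restrict_iff' hKm]
    filter_upwards [hgood] with x hx hxK
    exact ⟨(hx hxK).1, (hx hxK).2.1⟩
  -- integrability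
  set U : Eu d → ℝ := fun x => (φ₁ x - φ₀ x - c) ^ 2 with hU
  have hUc : ContinuousOn U K := ((hφ₁.sub hφ₀).sub continuousOn_const).pow 2
  have hUi : IntegrableOn U K := hUc.integrableOn_compact hK.compact
  have hU0 : ∀ x, 0 ≤ U x := fun x => sq_nonneg _
  set G₀ : Eu d → ℝ := fun x => ⟪T₀ x, e⟫_ℝ with hG₀
  set G₁ : Eu d → ℝ := fun x => ⟪T₁ x, e⟫_ℝ with hG₁
  have hG₀m : Measurable G₀ := hT₀.inner measurable_const
  have hG₁m : Measurable G₁ := hT₁.inner measurable_const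
  have hG₀b : ∀ᵐ x ∂(volume.restrict K), |G₀ x| ≤ R := by
    filter_upwards [hgoodr] with x hx
    calc |G₀ x| ≤ ‖T₀ x‖ * ‖e‖ := abs_real_inner_le_norm _ _
      _ ≤ R := by rw [he, mul_one]; exact hx.1
  have hG₁b : ∀ᵐ x ∂(volume.restrict K), |G₁ x| ≤ R := by
    filter_upwards [hgoodr] with x hx
    calc |G₁ x| ≤ ‖T₁ x‖ * ‖e‖ := abs_real_inner_le_norm _ _
      _ ≤ R := by rw [he, mul_one]; exact hx.2
  have hG₀i : IntegrableOn G₀ K :=
    Measure.integrableOn_of_bounded (M := R) hfin hG₀m.aestronglyMeasurable (by filter_upwards [hG₀b] with x hx; simpa using hx)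
  have hG₁i : IntegrableOn G₁ K :=
    Measure.integrableOn_of_bounded (M := R) hfin hG₁m.aestronglyMeasurable (by filter_upwards [hG₁b] with x hx; simpa using hx)
  set F : Eu d → ℝ := fun x => ⟪T₀ x - T₁ x, e⟫_ℝ ^ 2 with hF
  have hFm : Measurable F := ((hT₀.sub hT₁).inner measurable_const).pow_const 2
  have hFb : ∀ᵐ x ∂(volume.restrict K), |F x| ≤ 4 * R ^ 2 := by
    filter_upwards [hgoodr] with x hx
    have h1 : |⟪T₀ x - T₁ x, e⟫_ℝ| ≤ 2 * R := by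
      calc |⟪T₀ x - T₁ x, e⟫_ℝ| ≤ ‖T₀ x - T₁ x‖ * ‖e‖ := abs_real_inner_le_norm _ _
        _ ≤ ‖T₀ x‖ + ‖T₁ x‖ := by rw [he, mul_one]; exact norm_sub_le _ _
        _ ≤ 2 * R := by linarith [hx.1, hx.2]
    simp only [hF, abs_pow]
    have : |⟪T₀ x - T₁ x, e⟫_ℝ| ^ 2 ≤ (2 * R) ^ 2 := by gcongr
    nlinarith
  have hFi : IntegrableOn F K :=
    Measure.integrableOn_of_bounded (M := 4 * R ^ 2) hfin hFm.aestronglyMeasurable
      (by filter_upwards [hFb] with x hx; simpa using hx)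
  -- pointwise inequality
  have hgood' : ∀ᵐ x ∂(volume : Measure (Eu d)), x + h ∈ K →
      ‖T₀ (x + h)‖ ≤ R ∧ ‖T₁ (x + h)‖ ≤ R ∧
        (∀ a ∈ K, φ₀ (x + h) + ⟪T₀ (x + h), a - (x + h)⟫_ℝ ≤ φ₀ a) ∧
        (∀ a ∈ K, φ₁ (x + h) + ⟪T₁ (x + h), a - (x + h)⟫_ℝ ≤ φ₁ a) :=
    (eventually_add_right_iff volume h (p := fun x => x ∈ K →
        ‖T₀ x‖ ≤ R ∧ ‖T₁ x‖ ≤ R ∧ (∀ a ∈ K, φ₀ x + ⟪T₀ x, a - x⟫_ℝ ≤ φ₀ a) ∧
          (∀ a ∈ K, φ₁ x + ⟪T₁ x, a - x⟫_ℝ ≤ φ₁ a))).mpr hgood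
  have hpt : F ≤ᵐ[volume.restrict Kp] fun x =>
      2 / t ^ 2 * (U x + U (x + h)) +
        4 * R * ((G₀ (x + h) - G₀ x) + (G₁ (x + h) - G₁ x)) := by
    rw [Filter.EventuallyLE, ae_restrict_iff' hKpm]
    filter_upwards [hgood, hgood'] with x hx hx' hxp
    obtain ⟨b₀, b₁, s₀, s₁⟩ := hx hxp.1
    obtain ⟨-, -, s₀', s₁'⟩ := hx' hxp.2
    exact pointwise he ht hxp.1 hxp.2 b₀ b₁ s₀ s₁ s₀' s₁'
  -- integrate
  have hFp : IntegrableOn F Kp := hFi.mono_set hKpK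
  have hUp : IntegrableOn U Kp := hUi.mono_set hKpK
  have hUp' : IntegrableOn (fun x => U (x + h)) Kp := shift_intble U (hUi.mono_set hKmK)
  have hG₀p : IntegrableOn G₀ Kp := hG₀i.mono_set hKpK
  have hG₁p : IntegrableOn G₁ Kp := hG₁i.mono_set hKpK
  have hG₀p' : IntegrableOn (fun x => G₀ (x + h)) Kp := shift_intble G₀ (hG₀i.mono_set hKmK)
  have hG₁p' : IntegrableOn (fun x => G₁ (x + h)) Kp := shift_intble G₁ (hG₁i.mono_set hKmK)
  have hRHSeq : ∫ x in Kp, (2 / t ^ 2 * (U x + U (x + h)) +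
        4 * R * ((G₀ (x + h) - G₀ x) + (G₁ (x + h) - G₁ x)))
      = 2 / t ^ 2 * ((∫ x in Kp, U x) + ∫ x in Km, U x) +
        4 * R * (((∫ x in Km, G₀ x) - ∫ x in Kp, G₀ x) + ((∫ x in Km, G₁ x) - ∫ x in Kp, G₁ x)) := by
    have i1 : IntegrableOn (fun x => 2 / t ^ 2 * (U x + U (x + h))) Kp :=
      (hUp.add hUp').const_mul _
    have i2 : IntegrableOn (fun x => 4 * R * ((G₀ (x + h) - G₀ x) + (G₁ (x + h) - G₁ x))) Kp :=
      ((hG₀p'.sub hG₀p).add (hG₁p'.sub hG₁p)).const_mul _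
    have i3 : IntegrableOn (fun x => G₀ (x + h) - G₀ x) Kp := hG₀p'.sub hG₀p
    have i4 : IntegrableOn (fun x => G₁ (x + h) - G₁ x) Kp := hG₁p'.sub hG₁p
    rw [integral_add i1 i2, integral_const_mul, integral_const_mul,
      integral_add hUp hUp', integral_add i3 i4,
      integral_sub hG₀p' hG₀p, integral_sub hG₁p' hG₁p,
      shift_int U, shift_int G₀, shift_int G₁]
  have hint : ∫ x in Kp, F x ≤ 2 / t ^ 2 * ((∫ x in Kp, U x) + ∫ x in Km, U x) +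
        4 * R * (((∫ x in Km, G₀ x) - ∫ x in Kp, G₀ x) + ((∫ x in Km, G₁ x) - ∫ x in Kp, G₁ x)) := by
    rw [← hRHSeq]
    exact setIntegral_mono_ae_restrict hFp
      (((hUp.add hUp').const_mul _).add (((hG₀p'.sub hG₀p).add (hG₁p'.sub hG₁p)).const_mul _)) hpt
  -- the pieces
  have hUle1 : ∫ x in Kp, U x ≤ ∫ x in K, U x :=
    setIntegral_mono_set hUi (Filter.Eventually.of_forall hU0) hKpK.eventuallyLE
  have hUle2 : ∫ x in Km, U x ≤ ∫ x in K, U x :=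
    setIntegral_mono_set hUi (Filter.Eventually.of_forall hU0) hKmK.eventuallyLE
  have hd₀ := delta_bound hK hG₀i hG₀b hKmm hKpm hKmK hKpK
  have hd₁ := delta_bound hK hG₁i hG₁b hKmm hKpm hKmK hKpK
  have hp_eq : K \ Kp = {x | x ∈ K ∧ x + h ∉ K} := by
    ext x; simp only [hKp, Set.mem_sdiff, mem_ofPred_eq]; tauto
  have hm_eq : K \ Km = {x | x ∈ K ∧ x + -h ∉ K} := by
    ext x; simp only [hKm', Set.mem_sdiff, mem_ofPred_eq]; tauto
  rw [hp_eq, hm_eq] at hd₀ hd₁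
  have hrest : ∫ x in K \ Kp, F x ≤ 4 * R ^ 2 * vol {x | x ∈ K ∧ x + h ∉ K} := by
    have hb := norm_setIntegral_le_of_norm_le_const_ae (μ := volume) (s := K \ Kp) (f := F)
      (C := 4 * R ^ 2) (lt_of_le_of_lt (measure_mono sdiff_subset) hK.compact.measure_lt_top)
      (ae_mono (Measure.restrict_mono sdiff_subset le_rfl)
        (by filter_upwards [hFb] with x hx; simpa using hx))
    rw [hp_eq] at hb
    rw [hp_eq]
    have := (abs_le.mp (by simpa [vol, Measure.real] using hb)).2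
    exact this
  have hsplit : ∫ x in K, F x = (∫ x in K \ Kp, F x) + ∫ x in Kp, F x := by
    rw [setIntegral_sdiff hKpm hFi hKpK]; ring
  set δp := vol {x | x ∈ K ∧ x + h ∉ K}
  set δm := vol {x | x ∈ K ∧ x + -h ∉ K}
  have htpos : 0 < 2 / t ^ 2 := by positivity
  have h1 : 2 / t ^ 2 * ((∫ x in Kp, U x) + ∫ x in Km, U x) ≤ 2 / t ^ 2 * (2 * ∫ x in K, U x) := by
    gcongr; linarith
  have h2 : 4 * R * (((∫ x in Km, G₀ x) - ∫ x in Kp, G₀ x) + ((∫ x in Km, G₁ x) - ∫ x in Kp, G₁ x))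
      ≤ 4 * R * (R * (δm + δp) + R * (δm + δp)) := by
    gcongr
  have e4 : 4 / t ^ 2 * (∫ x in K, U x) = 2 / t ^ 2 * (2 * ∫ x in K, U x) := by ring
  rw [e4]
  calc ∫ x in K, F x = (∫ x in K \ Kp, F x) + ∫ x in Kp, F x := hsplit
    _ ≤ 4 * R ^ 2 * δp + (2 / t ^ 2 * (2 * ∫ x in K, U x) +
          4 * R * (R * (δm + δp) + R * (δm + δp))) := by linarith
    _ = _ := by ring

end GNAux

open GNAux in
/-- WP8: the Gagliardo–Nirenberg step. -/
theorem gagliardoNirenberg (d : ℕ) : GagliardoNirenberg d := by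
  intro K R hK hR
  obtain ⟨κ, hκ, hshift⟩ := GNAux.volume_shift hK
  refine ⟨Real.toNNReal ((d : ℝ) * (4 + 20 * R ^ 2 * κ)), ?_⟩
  intro φ₀ φ₁ T₀ T₁ c hφ₀ hφ₁ hT₀ hT₁ hb₀ hb₁ hs₀ hs₁
  have hvK := hK.real_vol_pos
  have hmK := hK.measurableSet
  have hne : (volume K)⁻¹ ≠ 0 := ENNReal.inv_ne_zero.mpr hK.vol_ne_top
  have hntop : (volume K)⁻¹ ≠ ∞ := ENNReal.inv_ne_top.mpr hK.vol_ne_zero
  have hfin : volume K ≠ ∞ := hK.vol_ne_top
  have ae_conv : ∀ P : Eu d → Prop, (∀ᵐ x ∂(uniformProbOn K), P x) →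
      ∀ᵐ x ∂(volume : Measure (Eu d)), x ∈ K → P x := by
    intro P hP
    have : ∀ᵐ x ∂(volume.restrict K), P x := by
      have h2 : uniformProbOn K = (volume K)⁻¹ • volume.restrict K := rfl
      rw [h2] at hP
      exact (Measure.ae_ennreal_smul_measure_iff hne).mp hP
    exact (ae_restrict_iff' hmK).mp this
  have hgood : ∀ᵐ x ∂(volume : Measure (Eu d)), x ∈ K →
      ‖T₀ x‖ ≤ R ∧ ‖T₁ x‖ ≤ R ∧ (∀ a ∈ K, φ₀ x + ⟪T₀ x, a - x⟫_ℝ ≤ φ₀ a) ∧
        (∀ a ∈ K, φ₁ x + ⟪T₁ x, a - x⟫_ℝ ≤ φ₁ a) := by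
    filter_upwards [ae_conv _ hb₀, ae_conv _ hb₁, ae_conv _ hs₀, ae_conv _ hs₁]
      with x h1 h2 h3 h4 hx
    exact ⟨h1 hx, h2 hx, h3 hx, h4 hx⟩
  have hgoodr : ∀ᵐ x ∂(volume.restrict K), ‖T₀ x‖ ≤ R ∧ ‖T₁ x‖ ≤ R := by
    rw [ae_restrict_iff' hmK]
    filter_upwards [hgood] with x hx hxK
    exact ⟨(hx hxK).1, (hx hxK).2.1⟩
  set U : Eu d → ℝ := fun x => (φ₁ x - φ₀ x - c) ^ 2 with hU
  set a : ℝ := ∫ x, U x ∂(uniformProbOn K) with ha
  have ha' : a = (vol K)⁻¹ * ∫ x in K, U x := integral_uniform _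
  have ha0 : 0 ≤ a := integral_nonneg (fun x => sq_nonneg _)
  set D : Eu d → ℝ := fun x => ‖T₀ x - T₁ x‖ ^ 2 with hD
  let E' : Fin d → Eu d := fun j => EuclideanSpace.single j (1 : ℝ)
  have hE'n : ∀ j, ‖E' j‖ = 1 := fun j => by simp [E']
  have hDsum : ∀ x, D x = ∑ j, ⟪T₀ x - T₁ x, E' j⟫_ℝ ^ 2 := by
    intro x
    simp only [hD, E', EuclideanSpace.inner_single_right, EuclideanSpace.real_norm_sq_eq]
    simp
  have hWi : ∀ j, IntegrableOn (fun x => ⟪T₀ x - T₁ x, E' j⟫_ℝ ^ 2) K := by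
    intro j
    have hm : Measurable fun x => ⟪T₀ x - T₁ x, E' j⟫_ℝ ^ 2 :=
      ((hT₀.sub hT₁).inner measurable_const).pow_const 2
    refine Measure.integrableOn_of_bounded (M := 4 * R ^ 2) hfin hm.aestronglyMeasurable ?_
    filter_upwards [hgoodr] with x hx
    have h1 : |⟪T₀ x - T₁ x, E' j⟫_ℝ| ≤ 2 * R := by
      calc |⟪T₀ x - T₁ x, E' j⟫_ℝ| ≤ ‖T₀ x - T₁ x‖ * ‖E' j‖ := abs_real_inner_le_norm _ _
        _ ≤ ‖T₀ x‖ + ‖T₁ x‖ := by rw [hE'n, mul_one]; exact norm_sub_le _ _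
        _ ≤ 2 * R := by linarith [hx.1, hx.2]
    simp only [Real.norm_eq_abs, abs_pow]
    have : |⟪T₀ x - T₁ x, E' j⟫_ℝ| ^ 2 ≤ (2 * R) ^ 2 := by gcongr
    nlinarith
  have hDK : ∫ x in K, D x = ∑ j, ∫ x in K, ⟪T₀ x - T₁ x, E' j⟫_ℝ ^ 2 := by
    simp_rw [hDsum]
    exact integral_finsetSum _ fun j _ => hWi j
  have hDi : IntegrableOn D K := by
    have : D = fun x => ∑ j, ⟪T₀ x - T₁ x, E' j⟫_ℝ ^ 2 := funext hDsum
    rw [this]
    exact integrable_finsetSum _ fun j _ => hWi j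
  set X : ℝ := ∫ x, D x ∂(uniformProbOn K) with hX
  have hX' : X = (vol K)⁻¹ * ∫ x in K, D x := integral_uniform _
  have key : ∀ t : ℝ, 0 < t → X ≤ d * (4 / t ^ 2 * a + 20 * R ^ 2 * κ * t) := by
    intro t ht
    have hj : ∀ j, ∫ x in K, ⟪T₀ x - T₁ x, E' j⟫_ℝ ^ 2 ≤
        vol K * (4 / t ^ 2 * a + 20 * R ^ 2 * κ * t) := by
      intro j
      have h1 := one_direction hK hR (c := c) hφ₀ hφ₁ hT₀ hT₁ hgood (hE'n j) ht
      have h2 := hshift (t • E' j)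
      have h3 := hshift (-(t • E' j))
      have hn : ‖t • E' j‖ = t := by
        rw [norm_smul, hE'n, mul_one, Real.norm_eq_abs, abs_of_pos ht]
      rw [norm_neg, hn] at h3
      rw [hn] at h2
      have hUK : ∫ x in K, (φ₁ x - φ₀ x - c) ^ 2 = vol K * a := by
        rw [ha']; field_simp; rfl
      rw [hUK] at h1
      have hR2 : 0 ≤ R ^ 2 := sq_nonneg R
      have h4 : 12 * R ^ 2 * vol {x | x ∈ K ∧ x + t • E' j ∉ K} ≤ 12 * R ^ 2 * (κ * t * vol K) := by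
        gcongr
      have h5 : 8 * R ^ 2 * vol {x | x ∈ K ∧ x + -(t • E' j) ∉ K} ≤ 8 * R ^ 2 * (κ * t * vol K) := by
        gcongr
      calc _ ≤ _ := h1
        _ ≤ 4 / t ^ 2 * (vol K * a) + 12 * R ^ 2 * (κ * t * vol K) + 8 * R ^ 2 * (κ * t * vol K) := by
            linarith
        _ = _ := by ring
    rw [hX', hDK]
    have hsum : ∑ j, ∫ x in K, ⟪T₀ x - T₁ x, E' j⟫_ℝ ^ 2 ≤
        ∑ _j : Fin d, vol K * (4 / t ^ 2 * a + 20 * R ^ 2 * κ * t) :=
      Finset.sum_le_sum fun j _ => hj j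
    rw [Finset.sum_const, Finset.card_univ, Fintype.card_fin, nsmul_eq_mul] at hsum
    calc (vol K)⁻¹ * ∑ j, ∫ x in K, ⟪T₀ x - T₁ x, E' j⟫_ℝ ^ 2
        ≤ (vol K)⁻¹ * (d * (vol K * (4 / t ^ 2 * a + 20 * R ^ 2 * κ * t))) := by gcongr
      _ = _ := by field_simp
  set Cr : ℝ := (d : ℝ) * (4 + 20 * R ^ 2 * κ) with hCr
  have hCr0 : 0 ≤ Cr := by positivity
  have hmain : X ≤ Cr * a ^ (1 / 3 : ℝ) := by
    rcases ha0.eq_or_lt with h0 | hpos
    · rw [← h0, Real.zero_rpow (by norm_num), mul_zero]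
      by_contra hcon
      push Not at hcon
      set B : ℝ := (d : ℝ) * (20 * R ^ 2 * κ) with hB
      have hB0 : 0 ≤ B := by positivity
      have ht : 0 < X / (2 * (B + 1)) := by positivity
      have := key _ ht
      rw [← h0] at this
      have e : (d : ℝ) * (4 / (X / (2 * (B + 1))) ^ 2 * 0 + 20 * R ^ 2 * κ * (X / (2 * (B + 1))))
          = B * (X / (2 * (B + 1))) := by
        simp only [hB]; ring
      rw [e] at this
      have h3 : B * (X / (2 * (B + 1))) ≤ X / 2 := by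
        rw [mul_div_assoc', div_le_div_iff₀ (by positivity) (by norm_num)]
        nlinarith
      linarith
    · set t : ℝ := a ^ (1 / 3 : ℝ) with ht
      have htpos : 0 < t := Real.rpow_pos_of_pos hpos _
      have ht3 : t ^ 3 = a := by
        rw [ht, ← Real.rpow_natCast, ← Real.rpow_mul hpos.le]
        norm_num
      have := key t htpos
      have e : (d : ℝ) * (4 / t ^ 2 * a + 20 * R ^ 2 * κ * t) = Cr * t := by
        rw [← ht3, hCr]; field_simp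
      rwa [e] at this
  -- back to `ℝ≥0∞`
  have hρ : uniformProbOn K = (volume K)⁻¹ • volume.restrict K := rfl
  have hDiρ : Integrable D (uniformProbOn K) := by
    rw [hρ]
    exact hDi.integrable.smul_measure hntop
  have hlint : ∫⁻ x, ‖T₀ x - T₁ x‖ₑ ^ 2 ∂(uniformProbOn K) = ENNReal.ofReal X := by
    rw [hX, ofReal_integral_eq_lintegral_ofReal hDiρ (Filter.Eventually.of_forall fun x => sq_nonneg _)]
    refine lintegral_congr fun x => ?_
    simp only [hD]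
    rw [ENNReal.ofReal_pow (norm_nonneg _), ofReal_norm]
  rw [hlint]
  have hCcoe : ((Real.toNNReal Cr : ℝ≥0) : ℝ≥0∞) = ENNReal.ofReal Cr := rfl
  rw [hCcoe, ENNReal.ofReal_rpow_of_nonneg ha0 (by norm_num), ← ENNReal.ofReal_mul hCr0]
  exact ENNReal.ofReal_le_ofReal hmain

end Crest.Agent.S0109Lib
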