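/-
WP10 of S0109: an optimal map is an a.e. subgradient of any limit of potentials whose subgradient
maps converge weakly to the target measure.
-/
import Crest.Agent.S0109Lib.Basic

set_option autoImplicit false
open MeasureTheory Set Filter Topology
open scoped ENNReal NNReal InnerProductSpace
open Crest.AnalysisR.OT

namespace Crest.Agent.S0109Lib

variable {d : ℕ}

/-- A subgradient at an interior differentiability point computes the derivative. -/
lemma fderiv_eq_inner_of_subgrad {K : Set (Eu d)} {φ : Eu d → ℝ} {x : Eu d} (hx : x ∈ interior K)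
    (hd : DifferentiableAt ℝ φ x) {q : Eu d} (hq : ∀ a ∈ K, φ x + ⟪q, a - x⟫_ℝ ≤ φ a) (v : Eu d) :
    fderiv ℝ φ x v = ⟪q, v⟫_ℝ := by
  have hline : HasDerivAt (fun t : ℝ => φ (x + t • v)) (fderiv ℝ φ x v) 0 := by
    have := hd.hasFDerivAt.hasLineDerivAt v
    simpa [HasLineDerivAt] using this
  have hg : HasDerivAt (fun t : ℝ => φ (x + t • v) - t * ⟪q, v⟫_ℝ)
      (fderiv ℝ φ x v - ⟪q, v⟫_ℝ) 0 := by
    have h1 : HasDerivAt (fun t : ℝ => t * ⟪q, v⟫_ℝ) ⟪q, v⟫_ℝ 0 := by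
      simpa using (hasDerivAt_id (0:ℝ)).mul_const ⟪q, v⟫_ℝ
    exact hline.fun_sub h1
  have hmin : IsLocalMin (fun t : ℝ => φ (x + t • v) - t * ⟪q, v⟫_ℝ) 0 := by
    have hcont : Tendsto (fun t : ℝ => x + t • v) (𝓝 0) (𝓝 x) := by
      have : Continuous (fun t : ℝ => x + t • v) := by fun_prop
      simpa using this.tendsto 0
    have hev : ∀ᶠ t : ℝ in 𝓝 0, x + t • v ∈ K :=
      hcont.eventually (mem_interior_iff_mem_nhds.mp hx)
    filter_upwards [hev] with t ht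
    have := hq _ ht
    simp only [add_sub_cancel_left, inner_smul_right] at this
    simp only [zero_smul, add_zero, zero_mul, sub_zero]
    linarith
  have := hmin.hasDerivAt_eq_zero hg
  linarith

/-- Uniqueness of subgradients at interior differentiability points. -/
lemma subgrad_eq {K : Set (Eu d)} {φ : Eu d → ℝ} {x : Eu d} (hx : x ∈ interior K)
    (hd : DifferentiableAt ℝ φ x) {q₁ q₂ : Eu d} (h₁ : ∀ a ∈ K, φ x + ⟪q₁, a - x⟫_ℝ ≤ φ a)
    (h₂ : ∀ a ∈ K, φ x + ⟪q₂, a - x⟫_ℝ ≤ φ a) : q₁ = q₂ := by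
  have : ⟪q₁ - q₂, q₁ - q₂⟫_ℝ = 0 := by
    rw [inner_sub_left, ← fderiv_eq_inner_of_subgrad hx hd h₁, ← fderiv_eq_inner_of_subgrad hx hd h₂]
    ring
  exact sub_eq_zero.mp (inner_self_eq_zero.mp this)

/-- Cauchy-Schwarz style integrability facts for a bounded measurable map. -/
lemma integrable_inner_map {K : Set (Eu d)} (hK : IsBody K) {D B : ℝ} (hD : ∀ x ∈ K, ‖x‖ ≤ D)
    {G : Eu d → Eu d} (hG : Measurable G) (hGb : ∀ᵐ x ∂(uniformProbOn K), ‖G x‖ ≤ B) :
    Integrable (fun x => ⟪x, G x⟫_ℝ) (uniformProbOn K) := by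
  have := hK.isProbabilityMeasure
  refine Integrable.of_bound (by
    apply Measurable.aestronglyMeasurable
    fun_prop) (D * |B|) ?_
  filter_upwards [hGb, ae_uniform_mem hK] with x hx hxK
  rw [Real.norm_eq_abs]
  calc |⟪x, G x⟫_ℝ| ≤ ‖x‖ * ‖G x‖ := abs_real_inner_le_norm _ _
    _ ≤ D * |B| := by
      have h0 : 0 ≤ D := (norm_nonneg _).trans (hD x hxK)
      exact mul_le_mul (hD x hxK) (hx.trans (le_abs_self _)) (norm_nonneg _) h0

lemma integrable_normsq_map {K : Set (Eu d)} (hK : IsBody K) {B : ℝ}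
    {G : Eu d → Eu d} (hG : Measurable G) (hGb : ∀ᵐ x ∂(uniformProbOn K), ‖G x‖ ≤ B) :
    Integrable (fun x => ‖G x‖ ^ 2) (uniformProbOn K) := by
  have := hK.isProbabilityMeasure
  refine Integrable.of_bound (by
    apply Measurable.aestronglyMeasurable
    fun_prop) (B ^ 2) ?_
  filter_upwards [hGb] with x hx
  rw [Real.norm_eq_abs, abs_of_nonneg (by positivity)]
  exact pow_le_pow_left₀ (norm_nonneg _) hx 2

/-- The quadratic cost of a bounded measurable map, expanded. -/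
lemma cost_expand {K : Set (Eu d)} (hK : IsBody K) {D B : ℝ} (hD : ∀ x ∈ K, ‖x‖ ≤ D)
    {G : Eu d → Eu d} (hG : Measurable G) (hGb : ∀ᵐ x ∂(uniformProbOn K), ‖G x‖ ≤ B) :
    ∫⁻ x, ‖x - G x‖ₑ ^ 2 ∂(uniformProbOn K) =
      ENNReal.ofReal (∫ x, ‖x‖ ^ 2 ∂(uniformProbOn K) - 2 * ∫ x, ⟪x, G x⟫_ℝ ∂(uniformProbOn K)
        + ∫ x, ‖G x‖ ^ 2 ∂(uniformProbOn K)) := by
  have := hK.isProbabilityMeasure
  have hid : Integrable (fun x : Eu d => ‖x‖ ^ 2) (uniformProbOn K) :=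
    integrable_normsq_map hK (G := id) measurable_id (B := D)
      ((ae_uniform_mem hK).mono fun x hx => hD x hx)
  have hin := integrable_inner_map hK hD hG hGb
  have hn := integrable_normsq_map hK hG hGb
  have h2 : Integrable (fun x => ‖x‖ ^ 2 - 2 * ⟪x, G x⟫_ℝ) (uniformProbOn K) :=
    hid.sub (hin.const_mul 2)
  have hall : Integrable (fun x => ‖x‖ ^ 2 - 2 * ⟪x, G x⟫_ℝ + ‖G x‖ ^ 2) (uniformProbOn K) :=
    h2.add hn
  have e1 : ∀ x, ‖x - G x‖ₑ ^ 2 = ENNReal.ofReal (‖x‖ ^ 2 - 2 * ⟪x, G x⟫_ℝ + ‖G x‖ ^ 2) := by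
    intro x
    rw [← norm_sub_sq_real, ENNReal.ofReal_pow (norm_nonneg _), ofReal_norm]
  simp_rw [e1]
  rw [← ofReal_integral_eq_lintegral_ofReal hall
    (ae_of_all _ fun x => by
      show 0 ≤ ‖x‖ ^ 2 - 2 * ⟪x, G x⟫_ℝ + ‖G x‖ ^ 2
      rw [← norm_sub_sq_real]; positivity)]
  congr 1
  rw [integral_add h2 hn, integral_sub hid (hin.const_mul 2), integral_const_mul]

theorem optimalIsSubgradient (d : ℕ) : OptimalIsSubgradient d := by
  intro K R hK hR μ T hμ hμR hT φs Ts φ hTsm hTsb hsub hφ hlim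
  classical
  haveI hρp : IsProbabilityMeasure (uniformProbOn K) := hK.isProbabilityMeasure
  have hKae : ∀ᵐ x ∂(uniformProbOn K), x ∈ K := ae_uniform_mem hK
  have hR1 : 0 ≤ R + 1 := by linarith
  -- Lipschitz bound
  have hLip : ∀ x ∈ K, ∀ a ∈ K, φ x - φ a ≤ (R + 1) * ‖x - a‖ := by
    intro x hx a ha
    refine le_of_tendsto' ((hφ x hx).sub (hφ a ha)) fun n => ?_
    have h1 := hsub n x hx a ha
    have h2 : -⟪Ts n x, a - x⟫_ℝ ≤ (R + 1) * ‖x - a‖ := by
      have : |⟪Ts n x, a - x⟫_ℝ| ≤ ‖Ts n x‖ * ‖a - x‖ := abs_real_inner_le_norm _ _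
      have h3 : ‖Ts n x‖ * ‖a - x‖ ≤ (R + 1) * ‖x - a‖ := by
        rw [norm_sub_rev a x]
        exact mul_le_mul_of_nonneg_right (hTsb n x hx) (norm_nonneg _)
      linarith [neg_abs_le ⟪Ts n x, a - x⟫_ℝ]
    linarith
  let C : ℝ≥0 := ⟨R + 1, hR1⟩
  have hLipOn : LipschitzOnWith C φ K := by
    refine LipschitzOnWith.of_dist_le_mul fun x hx a ha => ?_
    rw [Real.dist_eq, dist_eq_norm, abs_le]
    constructor
    · have := hLip a ha x hx
      rw [norm_sub_rev] at this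
      show -( (R + 1) * ‖x - a‖) ≤ _
      linarith
    · exact hLip x hx a ha
  have hφcont : ContinuousOn φ K := hLipOn.continuousOn
  -- differentiability a.e.
  have hae1 : ∀ᵐ x ∂(uniformProbOn K), x ∈ interior K ∧ DifferentiableAt ℝ φ x := by
    have hfront : volume (frontier K) = 0 := hK.convex.addHaar_frontier volume
    have h1 : ∀ᵐ x ∂(uniformProbOn K), x ∉ frontier K := by
      have : uniformProbOn K (frontier K) = 0 := uniformProbOn_absolutelyContinuous hfront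
      exact measure_eq_zero_iff_ae_notMem.mp this
    have h2 : ∀ᵐ x ∂(uniformProbOn K), x ∈ K → DifferentiableWithinAt ℝ φ K x :=
      uniformProbOn_absolutelyContinuous.ae_le hLipOn.ae_differentiableWithinAt_of_mem
    filter_upwards [hKae, h1, h2] with x hxK hxf hxd
    have hint : x ∈ interior K := by
      by_contra hni
      exact hxf ⟨subset_closure hxK, hni⟩
    exact ⟨hint, (hxd hxK).differentiableAt (mem_interior_iff_mem_nhds.mp hint)⟩
  -- limit points are subgradients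
  have hcl : ∀ x ∈ K, ∀ (q : Eu d) (σ : ℕ → ℕ), StrictMono σ →
      Tendsto (fun k => Ts (σ k) x) atTop (𝓝 q) → (∀ a ∈ K, φ x + ⟪q, a - x⟫_ℝ ≤ φ a) ∧ ‖q‖ ≤ R + 1 := by
    intro x hx q σ hσ hq
    constructor
    · intro a ha
      have hlhs : Tendsto (fun k => φs (σ k) x + ⟪Ts (σ k) x, a - x⟫_ℝ) atTop
          (𝓝 (φ x + ⟪q, a - x⟫_ℝ)) :=
        ((hφ x hx).comp hσ.tendsto_atTop).add (hq.inner tendsto_const_nhds)
      have hrhs : Tendsto (fun k => φs (σ k) a) atTop (𝓝 (φ a)) :=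
        (hφ a ha).comp hσ.tendsto_atTop
      exact le_of_tendsto_of_tendsto' hlhs hrhs fun k => hsub (σ k) x hx a ha
    · exact le_of_tendsto' hq.norm fun k => hTsb (σ k) x hx
  have hconv : ∀ x, x ∈ interior K → DifferentiableAt ℝ φ x →
      ∃ p, Tendsto (fun n => Ts n x) atTop (𝓝 p) ∧ (∀ a ∈ K, φ x + ⟪p, a - x⟫_ℝ ≤ φ a) ∧
        ‖p‖ ≤ R + 1 := by
    intro x hx hd
    have hxK : x ∈ K := interior_subset hx
    have hball : ∀ n, Ts n x ∈ Metric.closedBall (0 : Eu d) (R + 1) := fun n => by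
      simpa using hTsb n x hxK
    obtain ⟨p, -, σ, hσ, hp⟩ := (isCompact_closedBall (0 : Eu d) (R + 1)).tendsto_subseq hball
    obtain ⟨hpsub, hpnorm⟩ := hcl x hxK p σ hσ hp
    refine ⟨p, ?_, hpsub, hpnorm⟩
    refine (isCompact_closedBall (0 : Eu d) (R + 1)).tendsto_nhds_of_unique_mapClusterPt
      (Eventually.of_forall hball) ?_
    intro q _ hq
    obtain ⟨τ, hτ, hτq⟩ := hq.tendsto_subseq
    exact subgrad_eq hx hd (hcl x hxK q τ hτ hτq).1 hpsub
  -- the limit map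
  have hex : ∀ᵐ x ∂(uniformProbOn K), ∃ l, Tendsto (fun n => Ts n x) atTop (𝓝 l) := by
    filter_upwards [hae1] with x hx
    obtain ⟨p, hp, -⟩ := hconv x hx.1 hx.2
    exact ⟨p, hp⟩
  obtain ⟨S, hSm, hSconv⟩ := measurable_limit_of_tendsto_metrizable_ae
    (fun n => (hTsm n).aemeasurable) hex
  have hSsub : ∀ᵐ x ∂(uniformProbOn K), (∀ a ∈ K, φ x + ⟪S x, a - x⟫_ℝ ≤ φ a) ∧ ‖S x‖ ≤ R + 1 := by
    filter_upwards [hae1, hSconv] with x hx hxS
    obtain ⟨p, hp, hpsub, hpn⟩ := hconv x hx.1 hx.2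
    have := tendsto_nhds_unique hxS hp
    rw [this]
    exact ⟨hpsub, hpn⟩
  have hSmap : (uniformProbOn K).map S = μ := by
    haveI : IsProbabilityMeasure ((uniformProbOn K).map S) := Measure.isProbabilityMeasure_map hSm.aemeasurable
    refine ext_of_forall_integral_eq_of_IsFiniteMeasure fun f => ?_
    rw [integral_map hSm.aemeasurable f.continuous.aestronglyMeasurable]
    have h1 := hlim f f.continuous
    have h2 : Tendsto (fun n => ∫ x, f (Ts n x) ∂(uniformProbOn K)) atTop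
        (𝓝 (∫ x, f (S x) ∂(uniformProbOn K))) := by
      refine tendsto_integral_of_dominated_convergence (fun _ => ‖f‖) ?_ (integrable_const _) ?_ ?_
      · intro n
        exact (f.continuous.comp_aestronglyMeasurable (hTsm n).aestronglyMeasurable)
      · intro n
        exact ae_of_all _ fun x => f.norm_coe_le_norm _
      · filter_upwards [hSconv] with x hx
        exact (f.continuous.tendsto _).comp hx
    exact tendsto_nhds_unique h2 h1
  -- bound for T
  have hTb : ∀ᵐ x ∂(uniformProbOn K), ‖T x‖ ≤ R := by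
    have h0 : ∀ᵐ y ∂μ, y ∈ Metric.closedBall (0 : Eu d) R :=
      measure_eq_zero_iff_ae_notMem.mp hμR |>.mono fun y hy => by simpa using hy
    rw [← hT.2.1] at h0
    have := (ae_map_iff hT.1.aemeasurable Metric.isClosed_closedBall.measurableSet).mp h0
    exact this.mono fun x hx => by simpa using hx
  -- constants
  obtain ⟨D, hD⟩ : ∃ D, ∀ x ∈ K, ‖x‖ ≤ D := hK.compact.isBounded.exists_norm_le
  obtain ⟨M, hM⟩ : ∃ M, ∀ x ∈ K, ‖φ x‖ ≤ M :=
    (hK.compact.image_of_continuousOn hφcont).isBounded.exists_norm_le.imp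
      fun M hM x hx => hM _ (mem_image_of_mem _ hx)
  have hKne : K.Nonempty := hK.interior_nonempty.mono interior_subset
  haveI : Nonempty K := hKne.to_subtype
  have hD0 : 0 ≤ D := by
    obtain ⟨x, hx⟩ := hKne
    exact (norm_nonneg _).trans (hD x hx)
  -- the conjugate
  let ψ : Eu d → ℝ := fun y => ⨆ a : K, (⟪(a : Eu d), y⟫_ℝ - φ a)
  have hupper : ∀ y (a : K), ⟪(a : Eu d), y⟫_ℝ - φ a ≤ D * ‖y‖ + M := by
    intro y a
    have h1 : ⟪(a : Eu d), y⟫_ℝ ≤ ‖(a : Eu d)‖ * ‖y‖ := real_inner_le_norm _ _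
    have h2 : ‖(a : Eu d)‖ * ‖y‖ ≤ D * ‖y‖ :=
      mul_le_mul_of_nonneg_right (hD _ a.2) (norm_nonneg _)
    have h3 : -φ a ≤ M := by
      have := hM _ a.2
      rw [Real.norm_eq_abs] at this
      linarith [neg_le_abs (φ a)]
    linarith
  have hbdd : ∀ y, BddAbove (range fun a : K => ⟪(a : Eu d), y⟫_ℝ - φ a) := fun y =>
    ⟨_, by rintro _ ⟨a, rfl⟩; exact hupper y a⟩
  have hψle : ∀ y, ∀ a ∈ K, ⟪a, y⟫_ℝ - φ a ≤ ψ y := fun y a ha =>
    le_ciSup (f := fun a : K => ⟪(a : Eu d), y⟫_ℝ - φ a) (hbdd y) ⟨a, ha⟩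
  have hψle' : ∀ y, ψ y ≤ D * ‖y‖ + M := fun y => ciSup_le fun a => hupper y a
  have hψge : ∀ y, -(D * ‖y‖ + M) ≤ ψ y := by
    intro y
    obtain ⟨x, hx⟩ := hKne
    have h := hψle y x hx
    have h1 : -(‖x‖ * ‖y‖) ≤ ⟪x, y⟫_ℝ := by
      have := abs_real_inner_le_norm x y
      linarith [neg_abs_le ⟪x, y⟫_ℝ]
    have h2 : ‖x‖ * ‖y‖ ≤ D * ‖y‖ := mul_le_mul_of_nonneg_right (hD x hx) (norm_nonneg _)
    have h3 : φ x ≤ M := by
      have := hM x hx
      rw [Real.norm_eq_abs] at this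
      linarith [le_abs_self (φ x)]
    linarith
  have hψLip : ∀ y y', ψ y - ψ y' ≤ D * ‖y - y'‖ := by
    intro y y'
    have : ψ y ≤ ψ y' + D * ‖y - y'‖ := by
      refine ciSup_le fun a => ?_
      have h1 := hψle y' a a.2
      have h2 : ⟪(a : Eu d), y⟫_ℝ - ⟪(a : Eu d), y'⟫_ℝ ≤ D * ‖y - y'‖ := by
        rw [← inner_sub_right]
        calc _ ≤ ‖(a : Eu d)‖ * ‖y - y'‖ := real_inner_le_norm _ _
          _ ≤ _ := mul_le_mul_of_nonneg_right (hD _ a.2) (norm_nonneg _)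
      linarith
    linarith
  have hψcont : Continuous ψ := by
    let D' : ℝ≥0 := ⟨D, hD0⟩
    refine (LipschitzWith.of_dist_le_mul (K := D') fun y y' => ?_).continuous
    rw [Real.dist_eq, dist_eq_norm, abs_le]
    constructor
    · have := hψLip y' y
      rw [norm_sub_rev] at this
      show -(D * ‖y - y'‖) ≤ _
      linarith
    · exact hψLip y y'
  -- integrability
  have hφae : AEStronglyMeasurable φ (uniformProbOn K) :=
    (hφcont.aestronglyMeasurable hK.measurableSet).smul_measure _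
  have hintφ : Integrable φ (uniformProbOn K) := by
    refine Integrable.of_bound hφae M ?_
    filter_upwards [hKae] with x hx
    exact hM x hx
  have hintψ : ∀ (G : Eu d → Eu d), Measurable G → ∀ B, (∀ᵐ x ∂(uniformProbOn K), ‖G x‖ ≤ B) →
      Integrable (fun x => ψ (G x)) (uniformProbOn K) := by
    intro G hG B hB
    refine Integrable.of_bound (hψcont.measurable.comp hG).aestronglyMeasurable (D * B + M) ?_
    filter_upwards [hB] with x hx
    rw [Real.norm_eq_abs, abs_le]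
    have h1 := hψle' (G x)
    have h2 := hψge (G x)
    have h3 : D * ‖G x‖ ≤ D * B := mul_le_mul_of_nonneg_left hx hD0
    constructor <;> linarith
  have hSb : ∀ᵐ x ∂(uniformProbOn K), ‖S x‖ ≤ R + 1 := hSsub.mono fun x hx => hx.2
  have hTb' : ∀ᵐ x ∂(uniformProbOn K), ‖T x‖ ≤ R + 1 := hTb.mono fun x hx => by linarith
  have hintψT := hintψ T hT.1 _ hTb'
  have hintψS := hintψ S hSm _ hSb
  have hinT := integrable_inner_map hK hD hT.1 hTb'
  have hinS := integrable_inner_map hK hD hSm hSb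
  -- the two integrals of ψ agree
  have hψT : ∫ x, ψ (T x) ∂(uniformProbOn K) = ∫ y, ψ y ∂μ := by
    rw [← hT.2.1, integral_map hT.1.aemeasurable hψcont.aestronglyMeasurable]
  have hψS : ∫ x, ψ (S x) ∂(uniformProbOn K) = ∫ y, ψ y ∂μ := by
    rw [← hSmap, integral_map hSm.aemeasurable hψcont.aestronglyMeasurable]
  -- second moments agree
  have hcontn : Continuous fun y : Eu d => ‖y‖ ^ 2 := by fun_prop
  have hnT : ∫ x, ‖T x‖ ^ 2 ∂(uniformProbOn K) = ∫ y, ‖y‖ ^ 2 ∂μ := by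
    rw [← hT.2.1, integral_map hT.1.aemeasurable hcontn.aestronglyMeasurable]
  have hnS : ∫ x, ‖S x‖ ^ 2 ∂(uniformProbOn K) = ∫ y, ‖y‖ ^ 2 ∂μ := by
    rw [← hSmap, integral_map hSm.aemeasurable hcontn.aestronglyMeasurable]
  -- equality for S
  have hSeq : ∀ᵐ x ∂(uniformProbOn K), ⟪x, S x⟫_ℝ = φ x + ψ (S x) := by
    filter_upwards [hSsub, hKae] with x hx hxK
    have h1 := hψle (S x) x hxK
    have h2 : ψ (S x) ≤ ⟪x, S x⟫_ℝ - φ x := by
      refine ciSup_le fun a => ?_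
      have := hx.1 a a.2
      have e : ⟪S x, (a : Eu d) - x⟫_ℝ = ⟪(a : Eu d), S x⟫_ℝ - ⟪x, S x⟫_ℝ := by
        rw [inner_sub_right, real_inner_comm, real_inner_comm x]
      rw [e] at this
      linarith
    linarith
  have hIS : ∫ x, ⟪x, S x⟫_ℝ ∂(uniformProbOn K) =
      ∫ x, φ x ∂(uniformProbOn K) + ∫ y, ψ y ∂μ := by
    rw [integral_congr_ae hSeq, integral_add hintφ hintψS, hψS]
  -- optimality
  have hopt : ∫ x, ⟪x, S x⟫_ℝ ∂(uniformProbOn K) ≤ ∫ x, ⟪x, T x⟫_ℝ ∂(uniformProbOn K) := by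
    have h := hT.2.2 S hSm hSmap
    rw [cost_expand hK hD hT.1 hTb', cost_expand hK hD hSm hSb, hnT, hnS] at h
    have hpos : 0 ≤ ∫ x, ‖x‖ ^ 2 ∂(uniformProbOn K) - 2 * ∫ x, ⟪x, S x⟫_ℝ ∂(uniformProbOn K)
        + ∫ y, ‖y‖ ^ 2 ∂μ := by
      rw [← hnS]
      have hid : Integrable (fun x : Eu d => ‖x‖ ^ 2) (uniformProbOn K) :=
        integrable_normsq_map hK (G := id) measurable_id (B := D)
          ((ae_uniform_mem hK).mono fun x hx => hD x hx)
      have hn := integrable_normsq_map hK hSm hSb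
      have : ∫ x, ‖x‖ ^ 2 ∂(uniformProbOn K) - 2 * ∫ x, ⟪x, S x⟫_ℝ ∂(uniformProbOn K)
          + ∫ x, ‖S x‖ ^ 2 ∂(uniformProbOn K) = ∫ x, ‖x - S x‖ ^ 2 ∂(uniformProbOn K) := by
        simp_rw [norm_sub_sq_real]
        have h2 : Integrable (fun x => ‖x‖ ^ 2 - 2 * ⟪x, S x⟫_ℝ) (uniformProbOn K) :=
          hid.sub (hinS.const_mul 2)
        rw [integral_add h2 hn, integral_sub hid (hinS.const_mul 2), integral_const_mul]
      rw [this]
      exact integral_nonneg fun x => by positivity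
    have := (ENNReal.ofReal_le_ofReal_iff hpos).mp h
    linarith
  -- the gap vanishes
  have hgapnn : 0 ≤ᵐ[uniformProbOn K] fun x => φ x + ψ (T x) - ⟪x, T x⟫_ℝ := by
    filter_upwards [hKae] with x hx
    have := hψle (T x) x hx
    show (0 : ℝ) ≤ _
    linarith
  have hgapint : Integrable (fun x => φ x + ψ (T x) - ⟪x, T x⟫_ℝ) (uniformProbOn K) :=
    (hintφ.add hintψT).sub hinT
  have hgapval : ∫ x, (φ x + ψ (T x) - ⟪x, T x⟫_ℝ) ∂(uniformProbOn K) ≤ 0 := by
    have h1 : Integrable (fun x => φ x + ψ (T x)) (uniformProbOn K) := hintφ.add hintψT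
    rw [integral_sub h1 hinT, integral_add hintφ hintψT, hψT]
    linarith
  have hgap0 : ∫ x, (φ x + ψ (T x) - ⟪x, T x⟫_ℝ) ∂(uniformProbOn K) = 0 :=
    le_antisymm hgapval (integral_nonneg_of_ae hgapnn)
  have hzero := (integral_eq_zero_iff_of_nonneg_ae hgapnn hgapint).mp hgap0
  filter_upwards [hzero] with x hx a ha
  have h0 : φ x + ψ (T x) - ⟪x, T x⟫_ℝ = 0 := hx
  have h1 := hψle (T x) a ha
  have e : ⟪T x, a - x⟫_ℝ = ⟪a, T x⟫_ℝ - ⟪x, T x⟫_ℝ := by
    rw [inner_sub_right, real_inner_comm, real_inner_comm x]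
  rw [e]
  linarith

end Crest.Agent.S0109Lib
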