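/-
Prékopa–Leindler inequality (midpoint form) on `EuclideanSpace ℝ (Fin d)`.
-/
import Crest.Agent.S0109Lib.Spec

set_option autoImplicit false
open MeasureTheory Set Filter Topology
open scoped ENNReal NNReal

namespace Crest.Agent.S0109Lib

/-- `a + b ≤ 2 c → a b ≤ c²` in `ℝ≥0∞`. -/
lemma ennreal_mul_le_sq {a b c : ℝ≥0∞} (h : a + b ≤ 2 * c) : a * b ≤ c ^ 2 := by
  by_cases hc : c = ∞
  · subst hc; simp
  have h2 : 2 * c ≠ ∞ := ENNReal.mul_ne_top (by simp) hc
  have ha : a ≠ ∞ := fun e => h2 (top_le_iff.mp (by rw [← e]; exact le_trans le_self_add h))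
  have hb : b ≠ ∞ := fun e => h2 (top_le_iff.mp (by rw [← e]; exact le_trans le_add_self h))
  lift a to ℝ≥0 using ha
  lift b to ℝ≥0 using hb
  lift c to ℝ≥0 using hc
  norm_cast at h ⊢
  have h' : (a : ℝ) + b ≤ 2 * c := by exact_mod_cast h
  have : (a : ℝ) * b ≤ c ^ 2 := by
    nlinarith [sq_nonneg ((a : ℝ) - b), a.2, b.2, c.2, sq_nonneg ((a : ℝ) + b), mul_nonneg a.2 b.2,
      mul_self_le_mul_self (add_nonneg a.2 b.2) h']
  exact_mod_cast this

/-- the volume of `{x | 2 x - t ∈ A}` is half the volume of `A`. -/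
lemma volume_preimage_two_mul_sub (A : Set ℝ) (t : ℝ) :
    2 * volume ((fun x : ℝ => 2 * x - t) ⁻¹' A) = volume A := by
  have h1 : (fun x : ℝ => 2 * x - t) ⁻¹' A =
      (fun x : ℝ => 2 * x) ⁻¹' ((fun y : ℝ => y + (-t)) ⁻¹' A) := by
    ext x; simp [sub_eq_add_neg]
  rw [h1, Real.volume_preimage_mul_left (by norm_num : (2 : ℝ) ≠ 0),
    measure_preimage_add_right]
  rw [← mul_assoc]
  have : (2 : ℝ≥0∞) * ENNReal.ofReal |(2 : ℝ)⁻¹| = 1 := by
    rw [abs_of_pos (by norm_num : (0 : ℝ) < 2⁻¹), ENNReal.ofReal_inv_of_pos (by norm_num)]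
    simp [ENNReal.mul_inv_cancel]
  rw [this, one_mul]

/-- 1D Brunn–Minkowski for compact sets. -/
lemma bm_compact {A B C : Set ℝ} (hA : IsCompact A) (hB : IsCompact B)
    (hAn : A.Nonempty) (hBn : B.Nonempty) (hABC : ∀ a ∈ A, ∀ b ∈ B, (a + b) / 2 ∈ C) :
    volume A + volume B ≤ 2 * volume C := by
  set a₁ := sSup A with ha₁
  set b₀ := sInf B with hb₀
  have ha₁m : a₁ ∈ A := hA.sSup_mem hAn
  have hb₀m : b₀ ∈ B := hB.sInf_mem hBn
  set S := (fun x : ℝ => 2 * x - b₀) ⁻¹' A with hS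
  set S' := (fun x : ℝ => 2 * x - a₁) ⁻¹' B with hS'
  have hSm : MeasurableSet S := (measurable_const.mul measurable_id |>.sub measurable_const)
    hA.measurableSet
  have hS'm : MeasurableSet S' := (measurable_const.mul measurable_id |>.sub measurable_const)
    hB.measurableSet
  have hSC : S ⊆ C := by
    intro x hx
    have := hABC _ hx _ hb₀m
    have e : (2 * x - b₀ + b₀) / 2 = x := by ring
    rwa [e] at this
  have hS'C : S' ⊆ C := by
    intro x hx
    have := hABC _ ha₁m _ hx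
    have e : (a₁ + (2 * x - a₁)) / 2 = x := by ring
    rwa [e] at this
  have hinter : S ∩ S' ⊆ {(a₁ + b₀) / 2} := by
    intro x hx
    have h1 : 2 * x - b₀ ≤ a₁ := le_csSup hA.bddAbove hx.1
    have h2 : b₀ ≤ 2 * x - a₁ := csInf_le hB.bddBelow hx.2
    simp only [mem_singleton_iff]
    linarith
  have hnull : volume (S ∩ S') = 0 :=
    measure_mono_null hinter (by simp)
  have hadd : volume S + volume S' ≤ volume C := by
    have := measure_union_add_inter (μ := volume) S hS'm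
    rw [hnull, add_zero] at this
    rw [← this]
    exact measure_mono (union_subset hSC hS'C)
  rw [← volume_preimage_two_mul_sub A b₀, ← volume_preimage_two_mul_sub B a₁, ← mul_add]
  gcongr

/-- 1D Brunn–Minkowski for measurable sets. -/
lemma bm_measurable {A B C : Set ℝ} (hA : MeasurableSet A) (hB : MeasurableSet B)
    (hC : MeasurableSet C) (hAn : A.Nonempty) (hBn : B.Nonempty)
    (hABC : ∀ a ∈ A, ∀ b ∈ B, (a + b) / 2 ∈ C) :
    volume A + volume B ≤ 2 * volume C := by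
  classical
  obtain ⟨a₀, ha₀⟩ := hAn
  obtain ⟨b₀, hb₀⟩ := hBn
  have key : ∀ {U : Set ℝ} {u₀ : ℝ}, MeasurableSet U → u₀ ∈ U →
      volume U ≤ ⨆ K : {K : Set ℝ // K ⊆ U ∧ IsCompact K ∧ K.Nonempty}, volume K.1 := by
    intro U u₀ hU hu₀
    rw [hU.measure_eq_iSup_isCompact]
    refine iSup_le fun K => iSup_le fun hK => iSup_le fun hKc => ?_
    refine le_trans (measure_mono (subset_union_left (t := {u₀}))) ?_
    exact le_iSup (fun K : {K : Set ℝ // K ⊆ U ∧ IsCompact K ∧ K.Nonempty} => volume K.1)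
      ⟨K ∪ {u₀}, union_subset hK (by simpa using hu₀),
        hKc.union isCompact_singleton, ⟨u₀, by simp⟩⟩
  have : Nonempty {K : Set ℝ // K ⊆ A ∧ IsCompact K ∧ K.Nonempty} :=
    ⟨⟨{a₀}, by simpa using ha₀, isCompact_singleton, ⟨a₀, by simp⟩⟩⟩
  have : Nonempty {K : Set ℝ // K ⊆ B ∧ IsCompact K ∧ K.Nonempty} :=
    ⟨⟨{b₀}, by simpa using hb₀, isCompact_singleton, ⟨b₀, by simp⟩⟩⟩
  refine le_trans (add_le_add (key hA ha₀) (key hB hb₀)) ?_
  refine ENNReal.iSup_add_iSup_le fun K L => ?_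
  exact bm_compact K.2.2.1 L.2.2.1 K.2.2.2 L.2.2.2
    fun a ha b hb => hABC a (K.2.1 ha) b (L.2.1 hb)


/-- Normalised 1D Prékopa–Leindler. -/
lemma pl_normalized {F G H : ℝ → ℝ≥0∞} (hF : Measurable F) (hG : Measurable G) (hH : Measurable H)
    (hF1 : ∀ x, F x ≤ 1) (hG1 : ∀ x, G x ≤ 1)
    (hFs : ∀ t : ℝ≥0∞, t < 1 → ∃ x, t < F x) (hGs : ∀ t : ℝ≥0∞, t < 1 → ∃ x, t < G x)
    (h : ∀ a b, F a * G b ≤ H ((1 / 2 : ℝ) • (a + b)) ^ 2) :
    (∫⁻ x, F x) + ∫⁻ x, G x ≤ 2 * ∫⁻ x, H x := by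
  set f : ℝ → ℝ := fun x => (F x).toReal with hf
  set g : ℝ → ℝ := fun x => (G x).toReal with hg
  set k : ℝ → ℝ := fun x => (min (H x) 1).toReal with hk
  have hFt : ∀ x, F x ≠ ∞ := fun x => ne_top_of_le_ne_top ENNReal.one_ne_top (hF1 x)
  have hGt : ∀ x, G x ≠ ∞ := fun x => ne_top_of_le_ne_top ENNReal.one_ne_top (hG1 x)
  have hkt : ∀ x, min (H x) 1 ≠ ∞ :=
    fun x => ne_top_of_le_ne_top ENNReal.one_ne_top (min_le_right _ _)
  have hfm : Measurable f := hF.ennreal_toReal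
  have hgm : Measurable g := hG.ennreal_toReal
  have hkm : Measurable k := (hH.min measurable_const).ennreal_toReal
  have hf0 : 0 ≤ᵐ[volume] f := Filter.Eventually.of_forall fun x => ENNReal.toReal_nonneg
  have hg0 : 0 ≤ᵐ[volume] g := Filter.Eventually.of_forall fun x => ENNReal.toReal_nonneg
  have hk0 : 0 ≤ᵐ[volume] k := Filter.Eventually.of_forall fun x => ENNReal.toReal_nonneg
  have e1 : ∫⁻ x, F x = ∫⁻ t in Ioi (0 : ℝ), volume {a | t < f a} := by
    rw [← lintegral_eq_lintegral_meas_lt volume hf0 hfm.aemeasurable]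
    exact lintegral_congr fun x => (ENNReal.ofReal_toReal (hFt x)).symm
  have e2 : ∫⁻ x, G x = ∫⁻ t in Ioi (0 : ℝ), volume {a | t < g a} := by
    rw [← lintegral_eq_lintegral_meas_lt volume hg0 hgm.aemeasurable]
    exact lintegral_congr fun x => (ENNReal.ofReal_toReal (hGt x)).symm
  have e3 : ∫⁻ t in Ioi (0 : ℝ), volume {a | t < k a} ≤ ∫⁻ x, H x := by
    rw [← lintegral_eq_lintegral_meas_lt volume hk0 hkm.aemeasurable]
    refine lintegral_mono fun x => ?_
    show ENNReal.ofReal (min (H x) 1).toReal ≤ H x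
    rw [ENNReal.ofReal_toReal (hkt x)]
    exact min_le_left _ _
  have hfle : ∀ x, f x ≤ 1 := fun x => by
    have := ENNReal.toReal_mono ENNReal.one_ne_top (hF1 x)
    simpa using this
  have hgle : ∀ x, g x ≤ 1 := fun x => by
    have := ENNReal.toReal_mono ENNReal.one_ne_top (hG1 x)
    simpa using this
  have hpt : ∀ t ∈ Ioi (0 : ℝ),
      volume {a | t < f a} + volume {a | t < g a} ≤ 2 * volume {a | t < k a} := by
    intro t ht
    have ht0 : (0 : ℝ) < t := ht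
    rcases lt_or_ge t 1 with ht1 | ht1
    · have htE : ENNReal.ofReal t < 1 := by
        rw [← ENNReal.ofReal_one]; exact (ENNReal.ofReal_lt_ofReal_iff one_pos).2 ht1
      have hlt_iff : ∀ {z : ℝ≥0∞}, z ≠ ∞ → (t < z.toReal ↔ ENNReal.ofReal t < z) := by
        intro z hz
        rw [ENNReal.ofReal_lt_iff_lt_toReal ht0.le hz]
      refine bm_measurable (measurableSet_lt measurable_const hfm)
        (measurableSet_lt measurable_const hgm) (measurableSet_lt measurable_const hkm) ?_ ?_ ?_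
      · obtain ⟨x, hx⟩ := hFs _ htE
        exact ⟨x, (hlt_iff (hFt x)).2 hx⟩
      · obtain ⟨x, hx⟩ := hGs _ htE
        exact ⟨x, (hlt_iff (hGt x)).2 hx⟩
      · intro a ha b hb
        have ha' : ENNReal.ofReal t < F a := (hlt_iff (hFt a)).1 ha
        have hb' : ENNReal.ofReal t < G b := (hlt_iff (hGt b)).1 hb
        have hmid : (1 / 2 : ℝ) • (a + b) = (a + b) / 2 := by
          simp only [smul_eq_mul]; ring
        have hprod : ENNReal.ofReal t ^ 2 < H ((a + b) / 2) ^ 2 := by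
          rw [← hmid]
          refine lt_of_lt_of_le ?_ (h a b)
          rw [sq]
          exact ENNReal.mul_lt_mul ha' hb'
        have hH' : ENNReal.ofReal t < H ((a + b) / 2) := by
          by_contra hcon
          push Not at hcon
          exact absurd hprod (not_lt.mpr (by gcongr))
        show t < (min (H ((a + b) / 2)) 1).toReal
        rw [hlt_iff (hkt _)]
        exact lt_min hH' htE
    · have h1 : {a | t < f a} = ∅ := by
        ext a; simp only [mem_ofPred_eq, mem_empty_iff_false, iff_false, not_lt]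
        exact le_trans (hfle a) ht1
      have h2 : {a | t < g a} = ∅ := by
        ext a; simp only [mem_ofPred_eq, mem_empty_iff_false, iff_false, not_lt]
        exact le_trans (hgle a) ht1
      simp [h1, h2]
  have hanti : ∀ φ : ℝ → ℝ, Measurable fun t : ℝ => volume {a | t < φ a} := by
    intro φ
    apply Antitone.measurable
    intro s t hst
    exact measure_mono fun a (ha : t < φ a) => lt_of_le_of_lt hst ha
  calc (∫⁻ x, F x) + ∫⁻ x, G x
      = ∫⁻ t in Ioi (0 : ℝ), (volume {a | t < f a} + volume {a | t < g a}) := by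
        rw [e1, e2, lintegral_add_left (hanti f)]
    _ ≤ ∫⁻ t in Ioi (0 : ℝ), 2 * volume {a | t < k a} :=
        setLIntegral_mono' measurableSet_Ioi hpt
    _ = 2 * ∫⁻ t in Ioi (0 : ℝ), volume {a | t < k a} :=
        lintegral_const_mul' _ _ (by simp)
    _ ≤ 2 * ∫⁻ x, H x := by gcongr


/-- 1D Prékopa–Leindler for bounded functions that are not identically zero. -/
lemma pl_bounded {f g h : ℝ → ℝ≥0∞} (hf : Measurable f) (hg : Measurable g) (hh : Measurable h)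
    (hf0 : (⨆ x, f x) ≠ 0) (hg0 : (⨆ x, g x) ≠ 0) (hft : (⨆ x, f x) ≠ ∞) (hgt : (⨆ x, g x) ≠ ∞)
    (H : ∀ a b, f a * g b ≤ h ((1 / 2 : ℝ) • (a + b)) ^ 2) :
    (∫⁻ x, f x) * (∫⁻ x, g x) ≤ (∫⁻ x, h x) ^ 2 := by
  set M := ⨆ x, f x with hM
  set N := ⨆ x, g x with hN
  obtain ⟨M', hM'⟩ : ∃ M' : ℝ≥0, (M' : ℝ≥0∞) = M := ⟨M.toNNReal, ENNReal.coe_toNNReal hft⟩
  obtain ⟨N', hN'⟩ : ∃ N' : ℝ≥0, (N' : ℝ≥0∞) = N := ⟨N.toNNReal, ENNReal.coe_toNNReal hgt⟩
  set s' : ℝ≥0 := NNReal.sqrt (M' * N') with hs'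
  set s : ℝ≥0∞ := (s' : ℝ≥0∞) with hs
  have hM'0 : M' ≠ 0 := by
    intro e; apply hf0; rw [← hM', e]; simp
  have hN'0 : N' ≠ 0 := by
    intro e; apply hg0; rw [← hN', e]; simp
  have hs'0 : s' ≠ 0 := by
    rw [hs']; simpa [NNReal.sqrt_eq_zero] using ⟨hM'0, hN'0⟩
  have hs0 : s ≠ 0 := by simpa [hs] using hs'0
  have hst : s ≠ ∞ := by simp [hs]
  have hss : s ^ 2 = M * N := by
    rw [hs, ← hM', ← hN']
    norm_cast
    rw [hs', NNReal.sq_sqrt]
  have hMinv : M⁻¹ * M = 1 := ENNReal.inv_mul_cancel hf0 hft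
  have hNinv : N⁻¹ * N = 1 := ENNReal.inv_mul_cancel hg0 hgt
  have hkey : (M⁻¹ * N⁻¹) = (s⁻¹) ^ 2 := by
    rw [← ENNReal.inv_pow, hss, ENNReal.mul_inv (Or.inl hf0) (Or.inl hft)]
  have hnorm := pl_normalized (F := fun x => M⁻¹ * f x) (G := fun x => N⁻¹ * g x)
    (H := fun x => s⁻¹ * h x) (hf.const_mul _) (hg.const_mul _) (hh.const_mul _) ?_ ?_ ?_ ?_ ?_
  · rw [lintegral_const_mul _ hf, lintegral_const_mul _ hg, lintegral_const_mul _ hh] at hnorm
    have h3 := ennreal_mul_le_sq hnorm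
    have h4 : (M⁻¹ * N⁻¹) * ((∫⁻ x, f x) * (∫⁻ x, g x)) ≤ (M⁻¹ * N⁻¹) * (∫⁻ x, h x) ^ 2 := by
      calc (M⁻¹ * N⁻¹) * ((∫⁻ x, f x) * (∫⁻ x, g x))
          = (M⁻¹ * ∫⁻ x, f x) * (N⁻¹ * ∫⁻ x, g x) := by ring
        _ ≤ (s⁻¹ * ∫⁻ x, h x) ^ 2 := h3
        _ = (M⁻¹ * N⁻¹) * (∫⁻ x, h x) ^ 2 := by rw [hkey]; ring
    have hne0 : M⁻¹ * N⁻¹ ≠ 0 := by
      simp [hft, hgt]
    have hnet : M⁻¹ * N⁻¹ ≠ ∞ := by
      exact ENNReal.mul_ne_top (ENNReal.inv_ne_top.2 hf0) (ENNReal.inv_ne_top.2 hg0)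
    exact (ENNReal.mul_le_mul_iff_right hne0 hnet).1 h4
  · intro x
    calc M⁻¹ * f x ≤ M⁻¹ * M := by gcongr; exact le_iSup f x
      _ = 1 := hMinv
  · intro x
    calc N⁻¹ * g x ≤ N⁻¹ * N := by gcongr; exact le_iSup g x
      _ = 1 := hNinv
  · intro t ht
    have hlt : t * M < M := by
      have := (ENNReal.mul_lt_mul_iff_left hf0 hft).2 ht
      simpa using this
    rw [hM] at hlt
    obtain ⟨x, hx⟩ := lt_iSup_iff.1 (by simpa [hM] using hlt)
    refine ⟨x, ?_⟩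
    rw [← hM] at hx
    calc t = M⁻¹ * (t * M) := by
            rw [mul_comm t, ← mul_assoc, hMinv, one_mul]
      _ < M⁻¹ * f x := by
            exact (ENNReal.mul_lt_mul_iff_right (ENNReal.inv_ne_zero.2 hft)
              (ENNReal.inv_ne_top.2 hf0)).2 hx
  · intro t ht
    have hlt : t * N < N := by
      have := (ENNReal.mul_lt_mul_iff_left hg0 hgt).2 ht
      simpa using this
    rw [hN] at hlt
    obtain ⟨x, hx⟩ := lt_iSup_iff.1 (by simpa [hN] using hlt)
    refine ⟨x, ?_⟩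
    rw [← hN] at hx
    calc t = N⁻¹ * (t * N) := by
            rw [mul_comm t, ← mul_assoc, hNinv, one_mul]
      _ < N⁻¹ * g x := by
            exact (ENNReal.mul_lt_mul_iff_right (ENNReal.inv_ne_zero.2 hgt)
              (ENNReal.inv_ne_top.2 hg0)).2 hx
  · intro a b
    calc (M⁻¹ * f a) * (N⁻¹ * g b) = (M⁻¹ * N⁻¹) * (f a * g b) := by ring
      _ ≤ (M⁻¹ * N⁻¹) * h ((1 / 2 : ℝ) • (a + b)) ^ 2 := by gcongr; exact H a b
      _ = (s⁻¹ * h ((1 / 2 : ℝ) • (a + b))) ^ 2 := by rw [hkey]; ring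

/-- 1D Prékopa–Leindler. -/
lemma pl_one_dim {f g h : ℝ → ℝ≥0∞} (hf : Measurable f) (hg : Measurable g) (hh : Measurable h)
    (H : ∀ a b, f a * g b ≤ h ((1 / 2 : ℝ) • (a + b)) ^ 2) :
    (∫⁻ x, f x) * (∫⁻ x, g x) ≤ (∫⁻ x, h x) ^ 2 := by
  -- truncations
  have htrunc : ∀ {f : ℝ → ℝ≥0∞}, Measurable f →
      ∫⁻ x, f x = ⨆ n : ℕ, ∫⁻ x, f x ⊓ ((n : ℝ≥0∞) + 1) := by
    intro f hf
    have hmono : Monotone fun (n : ℕ) (x : ℝ) => f x ⊓ ((n : ℝ≥0∞) + 1) := by
      intro n m hnm x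
      simp only
      gcongr
    rw [← lintegral_iSup (f := fun (n : ℕ) (x : ℝ) => f x ⊓ ((n : ℝ≥0∞) + 1))
      (fun n => hf.inf measurable_const) hmono]
    refine lintegral_congr fun x => ?_
    rw [← inf_iSup_eq]
    have : (⨆ n : ℕ, ((n : ℝ≥0∞) + 1)) = ⊤ := by
      refine top_le_iff.1 ?_
      rw [← ENNReal.iSup_natCast]
      exact iSup_le fun n => le_trans (by simp) (le_iSup _ n)
    rw [this, inf_top_eq]
  rw [htrunc hf, htrunc hg, ENNReal.iSup_mul]
  refine iSup_le fun n => ?_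
  rw [ENNReal.mul_iSup]
  refine iSup_le fun m => ?_
  set fn : ℝ → ℝ≥0∞ := fun x => f x ⊓ ((n : ℝ≥0∞) + 1) with hfn
  set gm : ℝ → ℝ≥0∞ := fun x => g x ⊓ ((m : ℝ≥0∞) + 1) with hgm
  have hfnm : Measurable fn := hf.inf measurable_const
  have hgmm : Measurable gm := hg.inf measurable_const
  by_cases hf0 : (⨆ x, fn x) = 0
  · have : ∫⁻ x, fn x = 0 := by
      have : ∀ x, fn x = 0 := fun x => le_antisymm (hf0 ▸ le_iSup fn x) bot_le
      simp [this]
    rw [this, zero_mul]; exact bot_le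
  by_cases hg0 : (⨆ x, gm x) = 0
  · have : ∫⁻ x, gm x = 0 := by
      have : ∀ x, gm x = 0 := fun x => le_antisymm (hg0 ▸ le_iSup gm x) bot_le
      simp [this]
    rw [this, mul_zero]; exact bot_le
  have hft : (⨆ x, fn x) ≠ ∞ :=
    ne_top_of_le_ne_top (by simp : ((n : ℝ≥0∞) + 1) ≠ ∞) (iSup_le fun x => inf_le_right)
  have hgt : (⨆ x, gm x) ≠ ∞ :=
    ne_top_of_le_ne_top (by simp : ((m : ℝ≥0∞) + 1) ≠ ∞) (iSup_le fun x => inf_le_right)
  refine pl_bounded hfnm hgmm hh hf0 hg0 hft hgt fun a b => le_trans ?_ (H a b)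
  exact mul_le_mul' inf_le_left inf_le_left

/-- Prékopa–Leindler on `Fin n → ℝ`. -/
lemma pl_pi : ∀ (n : ℕ) (u v w : (Fin n → ℝ) → ℝ≥0∞), Measurable u → Measurable v → Measurable w →
    (∀ x y, u x * v y ≤ w ((1 / 2 : ℝ) • (x + y)) ^ 2) →
    (∫⁻ x, u x) * (∫⁻ x, v x) ≤ (∫⁻ x, w x) ^ 2 := by
  intro n
  induction n with
  | zero =>
    intro u v w hu hv hw H
    have hvol : (volume : Measure (Fin 0 → ℝ)) = Measure.dirac 0 := by
      rw [volume_pi, Measure.pi_of_empty _ 0]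
    simp only [hvol, lintegral_dirac' _ hu, lintegral_dirac' _ hv, lintegral_dirac' _ hw]
    have := H 0 0
    simpa using this
  | succ n ih =>
    intro u v w hu hv hw H
    set e := MeasurableEquiv.piFinSuccAbove (fun _ : Fin (n + 1) => ℝ) 0 with he
    have hmp : MeasurePreserving e.symm (volume : Measure (ℝ × (Fin n → ℝ))) volume :=
      (volume_preserving_piFinSuccAbove (fun _ : Fin (n + 1) => ℝ) 0).symm e
    have hc : ∀ p : ℝ × (Fin n → ℝ), e.symm p = Fin.cons p.1 p.2 := fun p => by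
      simp [he]; rfl
    have hlin : ∀ p q : ℝ × (Fin n → ℝ),
        (1 / 2 : ℝ) • (e.symm p + e.symm q) = e.symm ((1 / 2 : ℝ) • (p + q)) := by
      intro p q
      rw [hc, hc, hc]
      funext i
      refine Fin.cases ?_ (fun j => ?_) i <;> simp <;> ring
    have hint : ∀ {f : (Fin (n + 1) → ℝ) → ℝ≥0∞}, Measurable f →
        ∫⁻ x, f x = ∫⁻ s, ∫⁻ t, f (e.symm (s, t)) := by
      intro f hf
      rw [← hmp.lintegral_comp hf, Measure.volume_eq_prod]
      exact lintegral_prod (fun a => f (e.symm a)) (hf.comp e.symm.measurable).aemeasurable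
    rw [hint hu, hint hv, hint hw]
    have hmeas : ∀ {f : (Fin (n + 1) → ℝ) → ℝ≥0∞}, Measurable f →
        Measurable fun s : ℝ => ∫⁻ t, f (e.symm (s, t)) :=
      fun hf => Measurable.lintegral_prod_right' (hf.comp e.symm.measurable)
    refine pl_one_dim (hmeas hu) (hmeas hv) (hmeas hw) fun s s' => ?_
    refine ih _ _ _ (hu.comp (e.symm.measurable.comp measurable_prodMk_left))
      (hv.comp (e.symm.measurable.comp measurable_prodMk_left))
      (hw.comp (e.symm.measurable.comp measurable_prodMk_left)) fun t t' => ?_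
    have := H (e.symm (s, t)) (e.symm (s', t'))
    rw [hlin] at this
    simpa using this

/-- **Prékopa–Leindler** on `EuclideanSpace ℝ (Fin d)`. -/
theorem prekopaLeindler (d : ℕ) : PrekopaLeindler d := by
  intro u v w hu hv hw H
  have hmp := PiLp.volume_preserving_toLp (Fin d)
  have hint : ∀ {f : Eu d → ℝ≥0∞}, Measurable f →
      ∫⁻ x, f x = ∫⁻ z : Fin d → ℝ, f (WithLp.toLp 2 z) := by
    intro f hf
    exact (hmp.lintegral_comp hf).symm
  have hm : Measurable (WithLp.toLp 2 : (Fin d → ℝ) → Eu d) := hmp.measurable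
  rw [hint hu, hint hv, hint hw]
  refine pl_pi d _ _ _ (hu.comp hm) (hv.comp hm) (hw.comp hm) fun x y => ?_
  have := H (WithLp.toLp 2 x) (WithLp.toLp 2 y)
  simpa using this

end Crest.Agent.S0109Lib
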