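/-
S0109, WP "ThmB from PL": the barycentric Hellinger-Lipschitz estimate, from Prékopa–Leindler.
-/
import Crest.Agent.S0109Lib.Spec

set_option autoImplicit false
open MeasureTheory Set Filter Topology
open scoped ENNReal NNReal InnerProductSpace
open Crest.AnalysisR.OT

namespace Crest.Agent.S0109Lib

variable {d : ℕ}

namespace ThmBAux

/-- Prékopa–Leindler, real form for sets. -/
lemma pl_sets (hPL : PrekopaLeindler d) {A B M : Set (Eu d)}
    (hA : MeasurableSet A) (hB : MeasurableSet B) (hM : MeasurableSet M)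
    {α β η : Eu d → ℝ} (hαc : Continuous α) (hβc : Continuous β) (hηc : Continuous η)
    (hαi : IntegrableOn α A) (hβi : IntegrableOn β B) (hηi : IntegrableOn η M)
    (hα0 : ∀ x ∈ A, 0 ≤ α x) (hβ0 : ∀ x ∈ B, 0 ≤ β x) (hη0 : ∀ x ∈ M, 0 ≤ η x)
    (hmid : ∀ x ∈ A, ∀ x' ∈ B, (1 / 2 : ℝ) • (x + x') ∈ M ∧
      α x * β x' ≤ η ((1 / 2 : ℝ) • (x + x')) ^ 2) :
    (∫ x in A, α x) * (∫ x in B, β x) ≤ (∫ x in M, η x) ^ 2 := by
  classical
  set u : Eu d → ℝ≥0∞ := A.indicator fun x => ENNReal.ofReal (α x) with hu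
  set v : Eu d → ℝ≥0∞ := B.indicator fun x => ENNReal.ofReal (β x) with hv
  set w : Eu d → ℝ≥0∞ := M.indicator fun x => ENNReal.ofReal (η x) with hw
  have hum : Measurable u := (hαc.measurable.ennreal_ofReal).indicator hA
  have hvm : Measurable v := (hβc.measurable.ennreal_ofReal).indicator hB
  have hwm : Measurable w := (hηc.measurable.ennreal_ofReal).indicator hM
  have hle : ∀ x y, u x * v y ≤ w ((1 / 2 : ℝ) • (x + y)) ^ 2 := by
    intro x y
    by_cases hx : x ∈ A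
    · by_cases hy : y ∈ B
      · obtain ⟨hm, hl⟩ := hmid x hx y hy
        rw [hu, hv, hw, indicator_of_mem hx, indicator_of_mem hy, indicator_of_mem hm,
          ← ENNReal.ofReal_mul (hα0 x hx), ← ENNReal.ofReal_pow (hη0 _ hm)]
        exact ENNReal.ofReal_le_ofReal hl
      · simp [hv, indicator_of_notMem hy]
    · simp [hu, indicator_of_notMem hx]
  have key := hPL u v w hum hvm hwm hle
  have e1 : ∫⁻ x, u x = ENNReal.ofReal (∫ x in A, α x) := by
    rw [hu, lintegral_indicator hA,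
      ofReal_integral_eq_lintegral_ofReal hαi (ae_restrict_of_forall_mem hA hα0)]
  have e2 : ∫⁻ x, v x = ENNReal.ofReal (∫ x in B, β x) := by
    rw [hv, lintegral_indicator hB,
      ofReal_integral_eq_lintegral_ofReal hβi (ae_restrict_of_forall_mem hB hβ0)]
  have e3 : ∫⁻ x, w x = ENNReal.ofReal (∫ x in M, η x) := by
    rw [hw, lintegral_indicator hM,
      ofReal_integral_eq_lintegral_ofReal hηi (ae_restrict_of_forall_mem hM hη0)]
  have hA0 : 0 ≤ ∫ x in A, α x := setIntegral_nonneg hA hα0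
  have hM0 : 0 ≤ ∫ x in M, η x := setIntegral_nonneg hM hη0
  rw [e1, e2, e3, ← ENNReal.ofReal_mul hA0, ← ENNReal.ofReal_pow hM0] at key
  exact (ENNReal.ofReal_le_ofReal_iff (by positivity)).mp key

/-- the concave weight -/
noncomputable def eta (D : ℝ) (x : Eu d) : ℝ := 3 * D ^ 2 - ‖x‖ ^ 2 / 2

lemma continuous_eta (D : ℝ) : Continuous (eta (d := d) D) := by
  unfold eta; fun_prop

lemma eta_bounds {D : ℝ} {x : Eu d} (_hD : 0 < D) (hx : ‖x‖ ≤ D) :
    5 / 2 * D ^ 2 ≤ eta D x ∧ eta D x ≤ 3 * D ^ 2 := by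
  unfold eta
  have h0 := norm_nonneg x
  have h1 : ‖x‖ ^ 2 ≤ D ^ 2 := by gcongr
  constructor <;> nlinarith [sq_nonneg ‖x‖]

lemma eta_midpoint (D : ℝ) (x x' : Eu d) :
    eta D ((1 / 2 : ℝ) • (x + x')) = (eta D x + eta D x') / 2 + ‖x - x'‖ ^ 2 / 8 := by
  unfold eta
  have hp := parallelogram_law_with_norm ℝ x x'
  have hn : ‖(1 / 2 : ℝ) • (x + x')‖ = 1 / 2 * ‖x + x'‖ := by
    rw [norm_smul]; norm_num
  rw [hn]
  nlinarith [hp]

lemma integrableOn_of_bdd {S : Set (Eu d)} (hS : MeasurableSet S) (hf : volume S ≠ ∞)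
    {f : Eu d → ℝ} (hc : Continuous f) {C : ℝ} (hb : ∀ x ∈ S, |f x| ≤ C) :
    IntegrableOn f S := by
  refine Measure.integrableOn_of_bounded (M := C) hf hc.aestronglyMeasurable ?_
  exact ae_restrict_of_forall_mem hS fun x hx => by simpa using hb x hx

lemma vol_eq_zero_iff {S : Set (Eu d)} (hf : volume S ≠ ∞) : vol S = 0 ↔ volume S = 0 := by
  unfold vol
  rw [ENNReal.toReal_eq_zero_iff]
  simp [hf]

lemma vol_nonneg (S : Set (Eu d)) : 0 ≤ vol S := ENNReal.toReal_nonneg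

/-- upper bound for an average -/
lemma setIntegral_le_mul {S : Set (Eu d)} (hS : MeasurableSet S) (hf : volume S ≠ ∞)
    {f : Eu d → ℝ} (hi : IntegrableOn f S) {C : ℝ} (hb : ∀ x ∈ S, f x ≤ C) :
    ∫ x in S, f x ≤ vol S * C := by
  have hci : IntegrableOn (fun _ : Eu d => C) S := integrableOn_const hf
  have := setIntegral_mono_on hi hci hS hb
  rwa [setIntegral_const, smul_eq_mul] at this

lemma mul_le_setIntegral {S : Set (Eu d)} (hS : MeasurableSet S) (hf : volume S ≠ ∞)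
    {f : Eu d → ℝ} (hi : IntegrableOn f S) {C : ℝ} (hb : ∀ x ∈ S, C ≤ f x) :
    vol S * C ≤ ∫ x in S, f x := by
  have hci : IntegrableOn (fun _ : Eu d => C) S := integrableOn_const hf
  have := setIntegral_mono_on hci hi hS hb
  rwa [setIntegral_const, smul_eq_mul] at this

lemma avg_le {S : Set (Eu d)} (hS : MeasurableSet S) (hf : volume S ≠ ∞) (hv : 0 < vol S)
    {f : Eu d → ℝ} (hi : IntegrableOn f S) {C : ℝ} (hb : ∀ x ∈ S, f x ≤ C) :
    avg S f ≤ C := by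
  unfold avg
  rw [inv_mul_le_iff₀ hv]
  exact setIntegral_le_mul hS hf hi hb

lemma le_avg {S : Set (Eu d)} (hS : MeasurableSet S) (hf : volume S ≠ ∞) (hv : 0 < vol S)
    {f : Eu d → ℝ} (hi : IntegrableOn f S) {C : ℝ} (hb : ∀ x ∈ S, C ≤ f x) :
    C ≤ avg S f := by
  unfold avg
  rw [le_inv_mul_iff₀ hv]
  exact mul_le_setIntegral hS hf hi hb

lemma mul_avg {S : Set (Eu d)} (hv : 0 < vol S) (f : Eu d → ℝ) :
    vol S * avg S f = ∫ x in S, f x := by
  unfold avg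
  field_simp

lemma mid_algebra {e0 e1 em ε l0 l1 κ L n : ℝ}
    (hm : em = (e0 + e1) / 2 + n ^ 2 / 8) (hlip : |l0 - l1| ≤ L * n)
    (h0 : 0 ≤ e0 + ε * l0 + κ) (h1 : 0 ≤ e1 - ε * l1 - ε ^ 2 * L ^ 2 - κ) :
    (e0 + ε * l0 + κ) * (e1 - ε * l1 - ε ^ 2 * L ^ 2 - κ) ≤ em ^ 2 := by
  have h2 : ε * (l0 - l1) ≤ |ε| * (L * n) := by
    calc ε * (l0 - l1) ≤ |ε * (l0 - l1)| := le_abs_self _
      _ = |ε| * |l0 - l1| := abs_mul _ _
      _ ≤ _ := by gcongr
  have h3 : |ε| * (L * n) ≤ n ^ 2 / 4 + ε ^ 2 * L ^ 2 := by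
    nlinarith [sq_nonneg (n / 2 - |ε| * L), sq_abs ε]
  have hsum : ((e0 + ε * l0 + κ) + (e1 - ε * l1 - ε ^ 2 * L ^ 2 - κ)) / 2 ≤ em := by
    rw [hm]; nlinarith
  set α := e0 + ε * l0 + κ
  set β := e1 - ε * l1 - ε ^ 2 * L ^ 2 - κ
  have hs0 : 0 ≤ (α + β) / 2 := by positivity
  have h4 : ((α + β) / 2) ^ 2 ≤ em ^ 2 := by gcongr
  nlinarith [sq_nonneg (α - β)]

set_option maxHeartbeats 1000000 in
/-- The pair inequality. -/
lemma pair_ineq (hPL : PrekopaLeindler d) {K : Set (Eu d)} {D L : ℝ} (hD : 0 < D) (hL : 0 < L)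
    (hK : ∀ x ∈ K, ‖x‖ ≤ D) (hKf : volume K ≠ ∞)
    {A B M : Set (Eu d)} (hA : MeasurableSet A) (hB : MeasurableSet B) (hM : MeasurableSet M)
    (hAK : A ⊆ K) (hBK : B ⊆ K) (hMK : M ⊆ K)
    (hmid : ∀ x ∈ A, ∀ x' ∈ B, (1 / 2 : ℝ) • (x + x') ∈ M)
    (hvA : 0 < vol A) (hvB : 0 < vol B)
    {ℓ : Eu d → ℝ} (hℓc : Continuous ℓ)
    (hℓL : ∀ x ∈ K, ∀ x' ∈ K, |ℓ x - ℓ x'| ≤ L * ‖x - x'‖)
    (hℓb : ∀ x ∈ K, |ℓ x| ≤ L * D) :
    √(vol A * vol B) * ((avg A (eta D) + avg B (eta D)) / 2 +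
      (avg A ℓ - avg B ℓ) ^ 2 / (8 * L ^ 2)) ≤ ∫ x in M, eta D x := by
  have hfA : volume A ≠ ∞ := ne_top_of_le_ne_top hKf (measure_mono hAK)
  have hfB : volume B ≠ ∞ := ne_top_of_le_ne_top hKf (measure_mono hBK)
  have hfM : volume M ≠ ∞ := ne_top_of_le_ne_top hKf (measure_mono hMK)
  have hηb : ∀ x ∈ K, |eta D x| ≤ 3 * D ^ 2 := by
    intro x hx
    obtain ⟨h1, h2⟩ := eta_bounds hD (hK x hx)
    rw [abs_of_nonneg (by nlinarith [sq_nonneg D])]
    exact h2
  have hηA : IntegrableOn (eta D) A :=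
    integrableOn_of_bdd hA hfA (continuous_eta D) fun x hx => hηb x (hAK hx)
  have hηB : IntegrableOn (eta D) B :=
    integrableOn_of_bdd hB hfB (continuous_eta D) fun x hx => hηb x (hBK hx)
  have hηM : IntegrableOn (eta D) M :=
    integrableOn_of_bdd hM hfM (continuous_eta D) fun x hx => hηb x (hMK hx)
  have hℓA : IntegrableOn ℓ A :=
    integrableOn_of_bdd hA hfA hℓc fun x hx => hℓb x (hAK hx)
  have hℓB : IntegrableOn ℓ B :=
    integrableOn_of_bdd hB hfB hℓc fun x hx => hℓb x (hBK hx)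
  set a := avg A (eta D) with ha
  set b := avg B (eta D) with hb
  set P := avg A ℓ with hP
  set Q := avg B ℓ with hQ
  have ha1 : 5 / 2 * D ^ 2 ≤ a :=
    le_avg hA hfA hvA hηA fun x hx => (eta_bounds hD (hK x (hAK hx))).1
  have ha2 : a ≤ 3 * D ^ 2 :=
    avg_le hA hfA hvA hηA fun x hx => (eta_bounds hD (hK x (hAK hx))).2
  have hb1 : 5 / 2 * D ^ 2 ≤ b :=
    le_avg hB hfB hvB hηB fun x hx => (eta_bounds hD (hK x (hBK hx))).1
  have hb2 : b ≤ 3 * D ^ 2 :=
    avg_le hB hfB hvB hηB fun x hx => (eta_bounds hD (hK x (hBK hx))).2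
  have hP1 : -(L * D) ≤ P :=
    le_avg hA hfA hvA hℓA fun x hx => (abs_le.mp (hℓb x (hAK hx))).1
  have hP2 : P ≤ L * D :=
    avg_le hA hfA hvA hℓA fun x hx => (abs_le.mp (hℓb x (hAK hx))).2
  have hQ1 : -(L * D) ≤ Q :=
    le_avg hB hfB hvB hℓB fun x hx => (abs_le.mp (hℓb x (hBK hx))).1
  have hQ2 : Q ≤ L * D :=
    avg_le hB hfB hvB hℓB fun x hx => (abs_le.mp (hℓb x (hBK hx))).2
  -- the parameters
  set ε : ℝ := (P - Q) / (2 * L ^ 2) with hε
  set κ : ℝ := (b - a - ε * (P + Q) - ε ^ 2 * L ^ 2) / 2 with hκ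
  have hL2 : 0 < L ^ 2 := by positivity
  have hεL : ε * (2 * L ^ 2) = P - Q := by rw [hε]; field_simp
  -- bounds: `(εL)² ≤ D²`, `ε (P + Q) = (P² - Q²)/(2L²)`, `|ε ℓ| ≤ D²`
  have hε1 : (ε * L) ^ 2 ≤ D ^ 2 := by
    have h1 : ε * L = (P - Q) / (2 * L) := by rw [hε]; field_simp
    rw [h1, div_pow, div_le_iff₀ (by positivity)]
    nlinarith [mul_pos hL hD]
  have hεL' : |ε * L| ≤ D := abs_le_of_sq_le_sq' (by simpa using hε1) hD.le |> abs_le.mpr
  have hεℓ : ∀ x ∈ K, |ε * ℓ x| ≤ D ^ 2 := by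
    intro x hx
    have h1 : ε * ℓ x = (ε * L) * (ℓ x / L) := by field_simp
    have h2 : |ℓ x / L| ≤ D := by
      rw [abs_div, abs_of_pos hL, div_le_iff₀ hL, mul_comm]; exact hℓb x hx
    rw [h1, abs_mul]
    calc |ε * L| * |ℓ x / L| ≤ D * D := by gcongr
      _ = D ^ 2 := by ring
  have hεPQ1 : ε * (P + Q) ≤ D ^ 2 / 2 := by
    have h1 : ε * (P + Q) = (P ^ 2 - Q ^ 2) / (2 * L ^ 2) := by rw [hε]; field_simp; ring
    rw [h1, div_le_iff₀ (by positivity)]
    nlinarith [sq_le_sq' hP1 hP2, sq_nonneg Q]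
  have hεPQ2 : -(D ^ 2 / 2) ≤ ε * (P + Q) := by
    have h1 : ε * (P + Q) = (P ^ 2 - Q ^ 2) / (2 * L ^ 2) := by rw [hε]; field_simp; ring
    rw [h1, le_div_iff₀ (by positivity)]
    nlinarith [sq_le_sq' hQ1 hQ2, sq_nonneg P]
  have hε2 : ε ^ 2 * L ^ 2 ≤ D ^ 2 := by
    have : ε ^ 2 * L ^ 2 = (ε * L) ^ 2 := by ring
    rw [this]; exact hε1
  have hε3 : 0 ≤ ε ^ 2 * L ^ 2 := by positivity
  set α : Eu d → ℝ := fun x => eta D x + ε * ℓ x + κ with hα
  set β : Eu d → ℝ := fun x => eta D x - ε * ℓ x - ε ^ 2 * L ^ 2 - κ with hβ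
  have hαc : Continuous α := by
    have := continuous_eta (d := d) D
    rw [hα]; fun_prop
  have hβc : Continuous β := by
    have := continuous_eta (d := d) D
    rw [hβ]; fun_prop
  have hα0 : ∀ x ∈ K, 0 ≤ α x := by
    intro x hx
    have h1 := (eta_bounds hD (hK x hx)).1
    have h2 := (abs_le.mp (hεℓ x hx)).1
    simp only [hα, hκ]
    nlinarith [sq_nonneg D]
  have hβ0 : ∀ x ∈ K, 0 ≤ β x := by
    intro x hx
    have h1 := (eta_bounds hD (hK x hx)).1
    have h2 := (abs_le.mp (hεℓ x hx)).2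
    simp only [hβ, hκ]
    nlinarith [sq_nonneg D]
  have hη0 : ∀ x ∈ M, 0 ≤ eta D x := by
    intro x hx
    have h1 := (eta_bounds hD (hK x (hMK hx))).1
    nlinarith [sq_nonneg D]
  -- integrals of `α`, `β`
  have hαA : IntegrableOn α A := by
    rw [hα]
    exact ((hηA.add (hℓA.const_mul ε))).add (integrableOn_const hfA)
  have hβB : IntegrableOn β B := by
    rw [hβ]
    exact (((hηB.sub (hℓB.const_mul ε))).sub (integrableOn_const hfB)).sub
      (integrableOn_const hfB)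
  set c : ℝ := a + ε * P + κ with hc
  have hcc : c = (a + b) / 2 + (P - Q) ^ 2 / (8 * L ^ 2) := by
    have e1 : (P - Q) ^ 2 / (8 * L ^ 2) = ε * (P - Q) / 2 - ε ^ 2 * L ^ 2 / 2 := by
      rw [hε]; field_simp; ring
    rw [e1, hc, hκ]; ring
  have hηA' : Integrable (fun x => eta D x) (volume.restrict A) := hηA
  have hℓA' : Integrable (fun x => ε * ℓ x) (volume.restrict A) := hℓA.const_mul ε
  have hηB' : Integrable (fun x => eta D x) (volume.restrict B) := hηB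
  have hℓB' : Integrable (fun x => ε * ℓ x) (volume.restrict B) := hℓB.const_mul ε
  have hkA : Integrable (fun _ : Eu d => κ) (volume.restrict A) := integrableOn_const hfA
  have hkB : Integrable (fun _ : Eu d => κ) (volume.restrict B) := integrableOn_const hfB
  have hk2B : Integrable (fun _ : Eu d => ε ^ 2 * L ^ 2) (volume.restrict B) :=
    integrableOn_const hfB
  have hiA : ∫ x in A, α x = vol A * c := by
    have e : ∫ x in A, α x = (∫ x in A, eta D x) + ε * (∫ x in A, ℓ x) + vol A * κ := by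
      have h1 : ∫ x in A, α x = (∫ x in A, (eta D x + ε * ℓ x)) + ∫ _ in A, κ :=
        integral_add (hηA'.add hℓA') hkA
      have h2 : ∫ x in A, (eta D x + ε * ℓ x) = (∫ x in A, eta D x) + ∫ x in A, ε * ℓ x :=
        integral_add hηA' hℓA'
      rw [h1, h2, integral_const_mul, setIntegral_const, smul_eq_mul]
      rfl
    rw [e, ← mul_avg hvA (eta D), ← mul_avg hvA ℓ, hc]
    ring
  have hiB : ∫ x in B, β x = vol B * c := by
    have e : ∫ x in B, β x = (∫ x in B, eta D x) - ε * (∫ x in B, ℓ x)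
        - vol B * (ε ^ 2 * L ^ 2) - vol B * κ := by
      have h1 : ∫ x in B, β x
          = (∫ x in B, (eta D x - ε * ℓ x - ε ^ 2 * L ^ 2)) - ∫ _ in B, κ :=
        integral_sub ((hηB'.sub hℓB').sub hk2B) hkB
      have h2 : ∫ x in B, (eta D x - ε * ℓ x - ε ^ 2 * L ^ 2)
          = (∫ x in B, (eta D x - ε * ℓ x)) - ∫ _ in B, ε ^ 2 * L ^ 2 :=
        integral_sub (hηB'.sub hℓB') hk2B
      have h3 : ∫ x in B, (eta D x - ε * ℓ x) = (∫ x in B, eta D x) - ∫ x in B, ε * ℓ x :=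
        integral_sub hηB' hℓB'
      rw [h1, h2, h3, integral_const_mul, setIntegral_const, setIntegral_const, smul_eq_mul,
        smul_eq_mul]
      rfl
    rw [e, ← mul_avg hvB (eta D), ← mul_avg hvB ℓ, hc, hκ]
    ring
  -- apply PL
  have hmid' : ∀ x ∈ A, ∀ x' ∈ B, (1 / 2 : ℝ) • (x + x') ∈ M ∧
      α x * β x' ≤ eta D ((1 / 2 : ℝ) • (x + x')) ^ 2 := by
    intro x hx x' hx'
    refine ⟨hmid x hx x' hx', ?_⟩
    have hxK := hAK hx
    have hxK' := hBK hx'
    have hlip := hℓL x hxK x' hxK'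
    have h0 : 0 ≤ α x := hα0 x hxK
    have h0' : 0 ≤ β x' := hβ0 x' hxK'
    exact mid_algebra (eta_midpoint D x x') hlip h0 h0'
  have hPLr := pl_sets hPL hA hB hM hαc hβc (continuous_eta D) hαA hβB hηM
    (fun x hx => hα0 x (hAK hx)) (fun x hx => hβ0 x (hBK hx)) hη0 hmid'
  rw [hiA, hiB] at hPLr
  have hc0 : 0 ≤ c := by
    rw [hcc]
    have : 0 ≤ (P - Q) ^ 2 / (8 * L ^ 2) := by positivity
    nlinarith [sq_nonneg D]
  have hM0 : 0 ≤ ∫ x in M, eta D x := setIntegral_nonneg hM hη0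
  rw [← hcc]
  have h1 : vol A * c * (vol B * c) = (√(vol A * vol B) * c) ^ 2 := by
    rw [mul_pow, Real.sq_sqrt (by positivity)]; ring
  rw [h1] at hPLr
  exact (pow_le_pow_iff_left₀ (by positivity) hM0 (by norm_num)).mp hPLr

/-- pointwise estimate of the key term -/
lemma term_le {D p q a b r : ℝ} (_hD : 0 < D) (hp : 0 ≤ p) (hq : 0 ≤ q) (hr : 0 ≤ r)
    (hrpq : r ^ 2 = p * q) (ha1 : 5 / 2 * D ^ 2 ≤ a) (ha2 : a ≤ 3 * D ^ 2)
    (hb1 : 5 / 2 * D ^ 2 ≤ b) (hb2 : b ≤ 3 * D ^ 2) :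
    p ^ 2 * a + q ^ 2 * b - p * q * (a + b) ≤ 13 / 4 * D ^ 2 * (p - q) ^ 2
      + |p - q| * r * |a - b| := by
  have e : p ^ 2 * a + q ^ 2 * b - p * q * (a + b)
      = (p - q) ^ 2 * ((a + b) / 2) + (p - q) * (p + q) * ((a - b) / 2) := by ring
  have hab : |a - b| ≤ D ^ 2 / 2 := by
    rw [abs_le]; constructor <;> linarith
  have hsum : p + q ≤ |p - q| + 2 * r := by
    have h1 : (p + q) ^ 2 ≤ (|p - q| + 2 * r) ^ 2 := by
      have : |p - q| ^ 2 = (p - q) ^ 2 := sq_abs _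
      nlinarith [abs_nonneg (p - q), mul_nonneg (abs_nonneg (p - q)) hr]
    exact (pow_le_pow_iff_left₀ (by positivity) (by positivity) (by norm_num)).mp h1
  have h1 : (p - q) ^ 2 * ((a + b) / 2) ≤ (p - q) ^ 2 * (3 * D ^ 2) := by
    apply mul_le_mul_of_nonneg_left _ (sq_nonneg _)
    linarith
  have h2 : (p - q) * (p + q) * ((a - b) / 2) ≤ |p - q| * (|p - q| + 2 * r) * (|a - b| / 2) := by
    calc (p - q) * (p + q) * ((a - b) / 2) ≤ |(p - q) * (p + q) * ((a - b) / 2)| := le_abs_self _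
      _ = |p - q| * (p + q) * (|a - b| / 2) := by
        rw [abs_mul, abs_mul, abs_of_nonneg (by positivity : 0 ≤ p + q), abs_div]; norm_num
      _ ≤ _ := by gcongr
  have h3 : |p - q| * (|p - q| + 2 * r) * (|a - b| / 2)
      = |p - q| ^ 2 * (|a - b| / 2) + |p - q| * r * |a - b| := by ring
  have h4 : |p - q| ^ 2 * (|a - b| / 2) ≤ (p - q) ^ 2 * (D ^ 2 / 4) := by
    rw [sq_abs]
    apply mul_le_mul_of_nonneg_left _ (sq_nonneg _)
    linarith
  rw [e]
  nlinarith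

/-- the purely algebraic summation step -/
lemma alg_main {ι : Type} [Fintype ι] {D : ℝ} (hD : 0 < D) (p q a b Δ : ι → ℝ)
    (hp : ∀ i, 0 ≤ p i) (hq : ∀ i, 0 ≤ q i)
    (ha1 : ∀ i, 5 / 2 * D ^ 2 ≤ a i) (ha2 : ∀ i, a i ≤ 3 * D ^ 2)
    (hb1 : ∀ i, 5 / 2 * D ^ 2 ≤ b i) (hb2 : ∀ i, b i ≤ 3 * D ^ 2)
    (hS1 : (∑ i, p i * q i * (a i - b i) ^ 2) / (8 * D ^ 2)
      ≤ (∑ i, (p i ^ 2 * a i + q i ^ 2 * b i - p i * q i * (a i + b i))) / 2)
    (hS2 : (∑ i, p i * q i * Δ i ^ 2) / 8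
      ≤ (∑ i, (p i ^ 2 * a i + q i ^ 2 * b i - p i * q i * (a i + b i))) / 2) :
    ∑ i, p i * q i * Δ i ^ 2 ≤ 40 * D ^ 2 * ∑ i, (p i - q i) ^ 2 := by
  have hD2 : 0 < D ^ 2 := by positivity
  set T : ι → ℝ := fun i => p i ^ 2 * a i + q i ^ 2 * b i - p i * q i * (a i + b i) with hT
  set R : ι → ℝ := fun i => p i * q i * (a i - b i) ^ 2 with hR
  set r : ι → ℝ := fun i => √(p i * q i) with hr
  have hr0 : ∀ i, 0 ≤ r i := fun i => Real.sqrt_nonneg _
  have hr2 : ∀ i, r i ^ 2 = p i * q i := fun i =>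
    Real.sq_sqrt (mul_nonneg (hp i) (hq i))
  have hTle : ∀ i, T i ≤ 13 / 4 * D ^ 2 * (p i - q i) ^ 2 + |p i - q i| * r i * |a i - b i| :=
    fun i => term_le hD (hp i) (hq i) (hr0 i) (hr2 i) (ha1 i) (ha2 i) (hb1 i) (hb2 i)
  have hRr : ∀ i, R i = (r i * |a i - b i|) ^ 2 := by
    intro i
    simp only [hR]
    rw [mul_pow, hr2, sq_abs]
  -- first AM-GM
  have h1 : ∀ i, T i / 2 ≤ 21 / 8 * D ^ 2 * (p i - q i) ^ 2 + R i * (1 / (16 * D ^ 2)) := by
    intro i
    have hu := hTle i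
    have hv : (|p i - q i| * r i * |a i - b i|) / 2
        ≤ D ^ 2 * (p i - q i) ^ 2 + R i * (1 / (16 * D ^ 2)) := by
      rw [hRr i]
      set u := |p i - q i|
      set w := r i * |a i - b i|
      have hu2 : (p i - q i) ^ 2 = u ^ 2 := (sq_abs _).symm
      rw [hu2]
      have : 0 ≤ (D * u - w / (4 * D)) ^ 2 := sq_nonneg _
      have e : (D * u - w / (4 * D)) ^ 2
          = D ^ 2 * u ^ 2 + w ^ 2 * (1 / (16 * D ^ 2)) - u * w / 2 := by
        field_simp; ring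
      rw [e] at this
      have e' : |p i - q i| * r i * |a i - b i| = u * w := by simp only [u, w]; ring
      rw [e']
      linarith
    linarith
  have h2 : ∀ i, T i / 2 ≤ 13 / 4 * D ^ 2 * (p i - q i) ^ 2 + R i * (1 / (26 * D ^ 2)) := by
    intro i
    have hu := hTle i
    have hv : (|p i - q i| * r i * |a i - b i|) / 2
        ≤ 13 / 8 * D ^ 2 * (p i - q i) ^ 2 + R i * (1 / (26 * D ^ 2)) := by
      rw [hRr i]
      set u := |p i - q i|
      set w := r i * |a i - b i|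
      have hu2 : (p i - q i) ^ 2 = u ^ 2 := (sq_abs _).symm
      rw [hu2]
      -- `t = 13/2 D²`: `uw/2 ≤ (t/4) u² + w²/(4t)`
      have : 0 ≤ 13 / 8 * D ^ 2 * (u - w * (2 / (13 * D ^ 2))) ^ 2 := by positivity
      have e : 13 / 8 * D ^ 2 * (u - w * (2 / (13 * D ^ 2))) ^ 2
          = 13 / 8 * D ^ 2 * u ^ 2 + w ^ 2 * (1 / (26 * D ^ 2)) - u * w / 2 := by
        field_simp; ring
      rw [e] at this
      have e' : |p i - q i| * r i * |a i - b i| = u * w := by simp only [u, w]; ring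
      rw [e']
      linarith
    linarith
  set H2 := ∑ i, (p i - q i) ^ 2 with hH2
  set RR := ∑ i, R i with hRR
  set TT := ∑ i, T i with hTT
  have hs1 : TT / 2 ≤ 21 / 8 * D ^ 2 * H2 + RR * (1 / (16 * D ^ 2)) := by
    rw [hTT, hH2, hRR, Finset.sum_div, Finset.mul_sum, Finset.sum_mul, ← Finset.sum_add_distrib]
    exact Finset.sum_le_sum fun i _ => h1 i
  have hs2 : TT / 2 ≤ 13 / 4 * D ^ 2 * H2 + RR * (1 / (26 * D ^ 2)) := by
    rw [hTT, hH2, hRR, Finset.sum_div, Finset.mul_sum, Finset.sum_mul, ← Finset.sum_add_distrib]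
    exact Finset.sum_le_sum fun i _ => h2 i
  have hRRle : RR ≤ 42 * D ^ 4 * H2 := by
    have e1 : RR / (8 * D ^ 2) = RR * (1 / (16 * D ^ 2)) + RR * (1 / (16 * D ^ 2)) := by
      field_simp; ring
    have h3 : RR * (1 / (16 * D ^ 2)) ≤ 21 / 8 * D ^ 2 * H2 := by
      have := hS1.trans hs1
      rw [e1] at this
      linarith
    have e2 : RR = RR * (1 / (16 * D ^ 2)) * (16 * D ^ 2) := by field_simp
    rw [e2]
    calc RR * (1 / (16 * D ^ 2)) * (16 * D ^ 2) ≤ 21 / 8 * D ^ 2 * H2 * (16 * D ^ 2) := by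
          gcongr
      _ = 42 * D ^ 4 * H2 := by ring
  have hH0 : 0 ≤ H2 := Finset.sum_nonneg fun i _ => sq_nonneg _
  have h4 : RR * (1 / (26 * D ^ 2)) ≤ 21 / 13 * D ^ 2 * H2 := by
    calc RR * (1 / (26 * D ^ 2)) ≤ 42 * D ^ 4 * H2 * (1 / (26 * D ^ 2)) := by gcongr
      _ = 21 / 13 * D ^ 2 * H2 := by field_simp; ring
  have h5 := hS2.trans hs2
  have h6 : 0 ≤ D ^ 2 * H2 := by positivity
  nlinarith

end ThmBAux

open ThmBAux in
set_option maxHeartbeats 1000000 in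
/-- **Theorem B** from Prékopa–Leindler. -/
theorem thmB (d : ℕ) (hPL : PrekopaLeindler d) : ThmB d := by
  intro K D hD hKm hKf hKb ι _ A B M hA hB hM hAK hBK hMK hUA hUB hdA hdB hdM hmid ℓ hℓc hℓL hℓb
  classical
  have hηbd : ∀ x ∈ K, |eta D x| ≤ 3 * D ^ 2 := by
    intro x hx
    obtain ⟨h1, h2⟩ := eta_bounds hD (hKb x hx)
    rw [abs_of_nonneg (by nlinarith [sq_nonneg D])]
    exact h2
  have hη0 : ∀ x ∈ K, 0 ≤ eta D x := by
    intro x hx
    have h1 := (eta_bounds hD (hKb x hx)).1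
    nlinarith [sq_nonneg D]
  have hηK : IntegrableOn (eta D) K :=
    integrableOn_of_bdd hKm hKf (continuous_eta D) hηbd
  have hfA : ∀ i, volume (A i) ≠ ∞ := fun i => ne_top_of_le_ne_top hKf (measure_mono (hAK i))
  have hfB : ∀ i, volume (B i) ≠ ∞ := fun i => ne_top_of_le_ne_top hKf (measure_mono (hBK i))
  have hfM : ∀ i, volume (M i) ≠ ∞ := fun i => ne_top_of_le_ne_top hKf (measure_mono (hMK i))
  have hηA : ∀ i, IntegrableOn (eta D) (A i) := fun i => hηK.mono_set (hAK i)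
  have hηB : ∀ i, IntegrableOn (eta D) (B i) := fun i => hηK.mono_set (hBK i)
  have hηM : ∀ i, IntegrableOn (eta D) (M i) := fun i => hηK.mono_set (hMK i)
  -- notation
  set p : ι → ℝ := fun i => √(vol (A i)) with hp
  set q : ι → ℝ := fun i => √(vol (B i)) with hq
  set a : ι → ℝ := fun i => if vol (A i) = 0 then 3 * D ^ 2 else avg (A i) (eta D) with ha
  set b : ι → ℝ := fun i => if vol (B i) = 0 then 3 * D ^ 2 else avg (B i) (eta D) with hb
  have hp0 : ∀ i, 0 ≤ p i := fun i => Real.sqrt_nonneg _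
  have hq0 : ∀ i, 0 ≤ q i := fun i => Real.sqrt_nonneg _
  have hposA : ∀ i, vol (A i) ≠ 0 → 0 < vol (A i) := fun i h =>
    lt_of_le_of_ne (vol_nonneg _) (Ne.symm h)
  have hposB : ∀ i, vol (B i) ≠ 0 → 0 < vol (B i) := fun i h =>
    lt_of_le_of_ne (vol_nonneg _) (Ne.symm h)
  have ha1 : ∀ i, 5 / 2 * D ^ 2 ≤ a i := by
    intro i
    simp only [ha]
    split_ifs with h
    · nlinarith [sq_nonneg D]
    · exact le_avg (hA i) (hfA i) (hposA i h) (hηA i)
        fun x hx => (eta_bounds hD (hKb x (hAK i hx))).1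
  have ha2 : ∀ i, a i ≤ 3 * D ^ 2 := by
    intro i
    simp only [ha]
    split_ifs with h
    · exact le_rfl
    · exact avg_le (hA i) (hfA i) (hposA i h) (hηA i)
        fun x hx => (eta_bounds hD (hKb x (hAK i hx))).2
  have hb1 : ∀ i, 5 / 2 * D ^ 2 ≤ b i := by
    intro i
    simp only [hb]
    split_ifs with h
    · nlinarith [sq_nonneg D]
    · exact le_avg (hB i) (hfB i) (hposB i h) (hηB i)
        fun x hx => (eta_bounds hD (hKb x (hBK i hx))).1
  have hb2 : ∀ i, b i ≤ 3 * D ^ 2 := by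
    intro i
    simp only [hb]
    split_ifs with h
    · exact le_rfl
    · exact avg_le (hB i) (hfB i) (hposB i h) (hηB i)
        fun x hx => (eta_bounds hD (hKb x (hBK i hx))).2
  have hF1 : ∀ i, p i ^ 2 * a i = ∫ x in A i, eta D x := by
    intro i
    simp only [hp, ha]
    rw [Real.sq_sqrt (vol_nonneg _)]
    split_ifs with h
    · rw [h, zero_mul, setIntegral_measure_zero _ ((vol_eq_zero_iff (hfA i)).mp h)]
    · exact mul_avg (hposA i h) _
  have hF2 : ∀ i, q i ^ 2 * b i = ∫ x in B i, eta D x := by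
    intro i
    simp only [hq, hb]
    rw [Real.sq_sqrt (vol_nonneg _)]
    split_ifs with h
    · rw [h, zero_mul, setIntegral_measure_zero _ ((vol_eq_zero_iff (hfB i)).mp h)]
    · exact mul_avg (hposB i h) _
  -- total integrals
  have hIA : ∫ x in K, eta D x = ∑ i, ∫ x in A i, eta D x := by
    have hAe : (⋃ i, A i) =ᵐ[volume] K :=
      ae_eq_set.mpr ⟨by rw [sdiff_eq_empty.mpr (iUnion_subset hAK)]; simp, hUA⟩
    rw [← setIntegral_congr_set hAe,
      integral_iUnion_ae (fun i => (hA i).nullMeasurableSet) (fun i j hij => hdA hij)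
        (hηK.mono_set (iUnion_subset hAK)), tsum_fintype]
  have hIB : ∫ x in K, eta D x = ∑ i, ∫ x in B i, eta D x := by
    have hBe : (⋃ i, B i) =ᵐ[volume] K :=
      ae_eq_set.mpr ⟨by rw [sdiff_eq_empty.mpr (iUnion_subset hBK)]; simp, hUB⟩
    rw [← setIntegral_congr_set hBe,
      integral_iUnion_ae (fun i => (hB i).nullMeasurableSet) (fun i j hij => hdB hij)
        (hηK.mono_set (iUnion_subset hBK)), tsum_fintype]
  have hIM : ∑ i, ∫ x in M i, eta D x ≤ ∫ x in K, eta D x := by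
    have h := integral_iUnion_ae (μ := volume) (f := eta D) (s := M)
      (fun i => (hM i).nullMeasurableSet) (fun i j hij => hdM hij)
      (hηK.mono_set (iUnion_subset hMK))
    rw [tsum_fintype] at h
    rw [← h]
    refine setIntegral_mono_set hηK ?_ (Eventually.of_forall (iUnion_subset hMK))
    exact ae_restrict_of_forall_mem hKm hη0
  -- the generic summed inequality
  have hG : ∀ (L : ℝ) (ℓ' : ι → Eu d → ℝ), 0 < L → (∀ i, Continuous (ℓ' i)) →
      (∀ i, ∀ x ∈ K, ∀ x' ∈ K, |ℓ' i x - ℓ' i x'| ≤ L * ‖x - x'‖) →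
      (∀ i, ∀ x ∈ K, |ℓ' i x| ≤ L * D) →
      (∑ i, p i * q i * (avg (A i) (ℓ' i) - avg (B i) (ℓ' i)) ^ 2) / (8 * L ^ 2)
        ≤ (∑ i, (p i ^ 2 * a i + q i ^ 2 * b i - p i * q i * (a i + b i))) / 2 := by
    intro L ℓ' hL hc hlip hbd
    have hpair : ∀ i, p i * q i * ((a i + b i) / 2
        + (avg (A i) (ℓ' i) - avg (B i) (ℓ' i)) ^ 2 / (8 * L ^ 2)) ≤ ∫ x in M i, eta D x := by
      intro i
      by_cases h : vol (A i) = 0
      · have : p i = 0 := by simp [hp, h]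
        rw [this, zero_mul, zero_mul]
        exact setIntegral_nonneg (hM i) fun x hx => hη0 x (hMK i hx)
      by_cases h' : vol (B i) = 0
      · have : q i = 0 := by simp [hq, h']
        rw [this, mul_zero, zero_mul]
        exact setIntegral_nonneg (hM i) fun x hx => hη0 x (hMK i hx)
      have := pair_ineq hPL hD hL hKb hKf (hA i) (hB i) (hM i) (hAK i) (hBK i) (hMK i)
        (hmid i) (hposA i h) (hposB i h') (hc i) (hlip i) (hbd i)
      rw [Real.sqrt_mul (vol_nonneg _)] at this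
      simpa only [hp, hq, ha, hb, if_neg h, if_neg h'] using this
    have hsum := (Finset.sum_le_sum fun i _ => hpair i).trans hIM
    have e : ∀ i, p i * q i * ((a i + b i) / 2
        + (avg (A i) (ℓ' i) - avg (B i) (ℓ' i)) ^ 2 / (8 * L ^ 2))
        = p i * q i * (a i + b i) / 2
          + p i * q i * (avg (A i) (ℓ' i) - avg (B i) (ℓ' i)) ^ 2 / (8 * L ^ 2) := by
      intro i; ring
    simp_rw [e] at hsum
    rw [Finset.sum_add_distrib, ← Finset.sum_div, ← Finset.sum_div] at hsum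
    rw [Finset.sum_sub_distrib, Finset.sum_add_distrib]
    simp_rw [hF1, hF2]
    rw [← hIA, ← hIB]
    linarith
  -- stage 1: `ℓ₀ = ‖x‖²/2`
  have hS1 := hG D (fun _ x => ‖x‖ ^ 2 / 2) hD (fun _ => by fun_prop)
    (by
      intro _ x hx x' hx'
      have h1 := hKb x hx
      have h2 := hKb x' hx'
      have e : ‖x‖ ^ 2 / 2 - ‖x'‖ ^ 2 / 2 = (‖x‖ - ‖x'‖) * ((‖x‖ + ‖x'‖) / 2) := by ring
      rw [e, abs_mul, abs_of_nonneg (by positivity : 0 ≤ (‖x‖ + ‖x'‖) / 2), mul_comm]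
      have h3 : |‖x‖ - ‖x'‖| ≤ ‖x - x'‖ := abs_norm_sub_norm_le _ _
      have h4 : (‖x‖ + ‖x'‖) / 2 ≤ D := by linarith
      gcongr)
    (by
      intro _ x hx
      have h1 := hKb x hx
      rw [abs_of_nonneg (by positivity)]
      have : ‖x‖ ^ 2 ≤ D ^ 2 := by gcongr
      nlinarith [sq_nonneg D])
  have hS1' : (∑ i, p i * q i * (a i - b i) ^ 2) / (8 * D ^ 2)
      ≤ (∑ i, (p i ^ 2 * a i + q i ^ 2 * b i - p i * q i * (a i + b i))) / 2 := by
    refine le_of_eq_of_le ?_ hS1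
    congr 1
    refine Finset.sum_congr rfl fun i _ => ?_
    by_cases h : vol (A i) = 0
    · have : p i = 0 := by simp [hp, h]
      simp [this]
    by_cases h' : vol (B i) = 0
    · have : q i = 0 := by simp [hq, h']
      simp [this]
    have hav : ∀ S : Set (Eu d), MeasurableSet S → S ⊆ K → 0 < vol S →
        avg S (eta D) = 3 * D ^ 2 - avg S (fun x => ‖x‖ ^ 2 / 2) := by
      intro S hS hSK hv
      have hfS : volume S ≠ ∞ := ne_top_of_le_ne_top hKf (measure_mono hSK)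
      have hi1 : IntegrableOn (fun x : Eu d => ‖x‖ ^ 2 / 2) S :=
        integrableOn_of_bdd hS hfS (by fun_prop) (C := D ^ 2) (by
          intro x hx
          have h1 := hKb x (hSK hx)
          rw [abs_of_nonneg (by positivity)]
          have : ‖x‖ ^ 2 ≤ D ^ 2 := by gcongr
          nlinarith [sq_nonneg D])
      have e1 : ∫ x in S, eta D x = vol S * (3 * D ^ 2) - ∫ x in S, ‖x‖ ^ 2 / 2 := by
        have hc : Integrable (fun _ : Eu d => 3 * D ^ 2) (volume.restrict S) :=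
          integrableOn_const hfS
        have := integral_sub hc hi1
        simp only [setIntegral_const, smul_eq_mul] at this
        exact this
      unfold avg
      rw [e1]
      field_simp
    have e1 : a i = 3 * D ^ 2 - avg (A i) (fun x => ‖x‖ ^ 2 / 2) := by
      simp only [ha, if_neg h]
      exact hav _ (hA i) (hAK i) (hposA i h)
    have e2 : b i = 3 * D ^ 2 - avg (B i) (fun x => ‖x‖ ^ 2 / 2) := by
      simp only [hb, if_neg h']
      exact hav _ (hB i) (hBK i) (hposB i h')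
    rw [e1, e2]
    ring
  -- stage 2
  have hS2 := hG 1 ℓ one_pos hℓc
    (fun i x hx x' hx' => by simpa using hℓL i x hx x' hx')
    (fun i x hx => by simpa using hℓb i x hx)
  have hS2' : (∑ i, p i * q i * (avg (A i) (ℓ i) - avg (B i) (ℓ i)) ^ 2) / 8
      ≤ (∑ i, (p i ^ 2 * a i + q i ^ 2 * b i - p i * q i * (a i + b i))) / 2 := by
    simpa using hS2
  have hfinal := alg_main hD p q a b (fun i => avg (A i) (ℓ i) - avg (B i) (ℓ i)) hp0 hq0
    ha1 ha2 hb1 hb2 hS1' hS2'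
  refine le_of_eq_of_le ?_ hfinal
  refine Finset.sum_congr rfl fun i _ => ?_
  rw [Real.sqrt_mul (vol_nonneg _)]


end Crest.Agent.S0109Lib
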